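import Vale.Agent.P092.H184.Comm
import Mathlib.Analysis.CStarAlgebra.Unitary.Span
import Mathlib.Analysis.CStarAlgebra.Classes
import Mathlib.Analysis.Normed.Operator.Extend

/-!
# `Irr` when `H` is a subspace of a multiple of the regular representation
-/

namespace Vale.Agent.P092

open scoped InnerProductSpace ENNReal ComplexConjugate
open ContinuousLinearMap InnerProductSpace

noncomputable section

/-- Two families with the same Gram matrix, the first one total, are related by a bounded
operator. -/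
theorem exists_clm_of_gram {I E : Type} [NormedAddCommGroup E] [InnerProductSpace ℂ E]
    [CompleteSpace E] (a c : I → E) (hgram : ∀ i k, ⟪c i, c k⟫_ℂ = ⟪a i, a k⟫_ℂ)
    (hdense : ∀ x : E, (∀ i, ⟪a i, x⟫_ℂ = 0) → x = 0) :
    ∃ W : E →L[ℂ] E, ∀ i, W (a i) = c i := by
  classical
  set e : (I →₀ ℂ) →ₗ[ℂ] E := Finsupp.linearCombination ℂ a with he
  set f : (I →₀ ℂ) →ₗ[ℂ] E := Finsupp.linearCombination ℂ c with hf
  have hinner : ∀ x y, ⟪f x, f y⟫_ℂ = ⟪e x, e y⟫_ℂ := by
    intro x y
    rw [he, hf, Finsupp.linearCombination_apply, Finsupp.linearCombination_apply,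
      Finsupp.linearCombination_apply, Finsupp.linearCombination_apply]
    simp only [Finsupp.sum, sum_inner, inner_sum, inner_smul_left, inner_smul_right, hgram]
  have hnorm : ∀ x, ‖f x‖ ≤ 1 * ‖e x‖ := by
    intro x
    rw [one_mul, ← sq_le_sq₀ (norm_nonneg _) (norm_nonneg _), norm_sq_eq_re_inner (𝕜 := ℂ),
      norm_sq_eq_re_inner (𝕜 := ℂ), hinner]
  have hd : DenseRange e := by
    have h1 : Dense ((LinearMap.range e : Submodule ℂ E) : Set E) := by
      rw [Submodule.dense_iff_topologicalClosure_eq_top,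
        Submodule.topologicalClosure_eq_top_iff, Submodule.eq_bot_iff]
      intro x hx
      refine hdense x fun i => ?_
      rw [Submodule.mem_orthogonal] at hx
      refine hx (a i) ⟨Finsupp.single i 1, ?_⟩
      rw [he, Finsupp.linearCombination_single, one_smul]
    exact h1
  refine ⟨f.extendOfNorm e, fun i => ?_⟩
  have h := LinearMap.extendOfNorm_eq (f := f) (e := e) hd ⟨1, hnorm⟩ (Finsupp.single i 1)
  rw [he, hf, Finsupp.linearCombination_single, Finsupp.linearCombination_single, one_smul,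
    one_smul] at h
  exact h

/-- An operator commuting with a set of operators and with their adjoints is a linear combination
of unitary operators with the same property. -/
theorem mem_span_unitary_commute {E : Type} [NormedAddCommGroup E] [InnerProductSpace ℂ E]
    [CompleteSpace E] (S : Set (E →L[ℂ] E)) (F : E →L[ℂ] E) (hF : ∀ A ∈ S, Commute A F)
    (hF' : ∀ A ∈ S, Commute (star A) F) :
    F ∈ Submodule.span ℂ {u : E →L[ℂ] E | u ∈ unitary (E →L[ℂ] E) ∧
      ∀ A ∈ S, Commute A u ∧ Commute (star A) u} := by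
  set C : StarSubalgebra ℂ (E →L[ℂ] E) := StarSubalgebra.centralizer ℂ S with hC
  have hcl : IsClosed (C : Set (E →L[ℂ] E)) := by
    rw [hC, StarSubalgebra.coe_centralizer]
    exact Set.isClosed_centralizer _
  have hFC : F ∈ C := by
    rw [hC, StarSubalgebra.mem_centralizer_iff]
    exact fun A hA => ⟨hF A hA, hF' A hA⟩
  let _ : CStarAlgebra C := StarSubalgebra.cstarAlgebra (A := E →L[ℂ] E) C
  obtain ⟨u, c, hu, -⟩ := CStarAlgebra.exists_sum_four_unitary (⟨F, hFC⟩ : C)
  have h1 : F = ∑ i, c i • ((u i : C) : E →L[ℂ] E) := by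
    have h := congrArg C.subtype hu
    rw [map_sum] at h
    simp only [map_smul] at h
    exact h
  rw [h1]
  refine Submodule.sum_mem _ fun i _ => Submodule.smul_mem _ _ (Submodule.subset_span ⟨?_, ?_⟩)
  · have h := (u i).2
    rw [Unitary.mem_iff] at h ⊢
    exact ⟨congrArg C.subtype h.1, congrArg C.subtype h.2⟩
  · intro A hA
    have h := (u i : C).2
    have h2 : ∀ B ∈ C, ∀ A ∈ S, Commute A B ∧ Commute (star A) B := by
      intro B hB
      rw [hC, StarSubalgebra.mem_centralizer_iff] at hB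
      exact fun A hA => hB A hA
    exact h2 _ h A hA

/-- Two operators that agree on a total family are equal. -/
theorem clm_ext_total {I E : Type} [NormedAddCommGroup E] [InnerProductSpace ℂ E]
    [CompleteSpace E] {a : I → E} (hdense : ∀ x : E, (∀ i, ⟪a i, x⟫_ℂ = 0) → x = 0)
    {A B : E →L[ℂ] E} (h : ∀ i, A (a i) = B (a i)) : A = B := by
  have h2 : adjoint A = adjoint B := by
    refine ContinuousLinearMap.ext fun Z => ?_
    rw [← sub_eq_zero]
    refine hdense _ fun i => ?_
    rw [inner_sub_right, adjoint_inner_right, adjoint_inner_right, h, sub_self]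
  rw [← adjoint_adjoint A, h2, adjoint_adjoint]

/-- The projection on a closed subspace commutes with the operators that leave it invariant
together with their adjoints. -/
theorem starProjection_commute {E : Type} [NormedAddCommGroup E] [InnerProductSpace ℂ E]
    [CompleteSpace E] (T : Submodule ℂ E) [T.HasOrthogonalProjection] {A : E →L[ℂ] E}
    (h : ∀ x ∈ T, A x ∈ T) (h' : ∀ x ∈ T, adjoint A x ∈ T) : Commute A T.starProjection := by
  refine ContinuousLinearMap.ext fun x => ?_
  change A (T.starProjection x) = T.starProjection (A x)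
  have h1 : T.starProjection (A (T.starProjection x)) = A (T.starProjection x) :=
    Submodule.starProjection_eq_self_iff.2 (h _ (T.starProjection_apply_mem x))
  have h2 : T.starProjection (A (x - T.starProjection x)) = 0 := by
    refine (Submodule.starProjection_apply_eq_zero_iff T).2 ?_
    rw [Submodule.mem_orthogonal]
    intro u hu
    rw [← adjoint_inner_left]
    exact (Submodule.mem_orthogonal _ _).1 (Submodule.sub_starProjection_mem_orthogonal x) _
      (h' u hu)
  rw [map_sub, map_sub, sub_eq_zero] at h2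
  rw [h2, h1]

variable {ι ι' : Type} {H K : Type} [NormedAddCommGroup H] [InnerProductSpace ℂ H]
  [CompleteSpace H] [NormedAddCommGroup K] [InnerProductSpace ℂ K] [CompleteSpace K]
  (b : HilbertBasis ι ℂ H) (b' : HilbertBasis ι' ℂ K) (j : H →ₗᵢ[ℂ] K)

/-- The isometry as a continuous linear map. -/
abbrev isoL : H →L[ℂ] K := j.toContinuousLinearMap

theorem adjoint_isoL_isoL (v : H) : adjoint (isoL j) (j v) = v := by
  refine ext_inner_left ℂ fun w => ?_
  rw [adjoint_inner_right]
  exact j.inner_map_map w v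

theorem emb_aux (Z : HS ι H) :
    ∑' x, ‖(isoL j ∘L op b Z ∘L adjoint (isoL j)) (b' x)‖ₑ ^ 2 = ‖Z‖ₑ ^ 2 := by
  have hf : IsParseval fun x => adjoint (isoL j) (b' x) := by
    intro v
    simp_rw [adjoint_inner_left]
    rw [parseval_hilbertBasis b' (isoL j v)]
    exact congrArg (fun t => t ^ 2) (j.enorm_map v)
  rw [← enorm_sq_eq_tsum_op b Z hf]
  refine tsum_congr fun x => ?_
  rw [comp_apply, comp_apply]
  exact congrArg (fun t => t ^ 2) (j.enorm_map _)

/-- The map `Z ↦ j Z j^*` on Hilbert–Schmidt operators. -/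
def emb : HS ι H →L[ℂ] HS ι' K :=
  LinearMap.mkContinuous
    { toFun := fun Z => ofOp b' (isoL j ∘L op b Z ∘L adjoint (isoL j)) (by
        rw [emb_aux]; finiteness)
      map_add' := fun Z Z' => by
        apply op_injective b'
        rw [op_ofOp, map_add (op b') (ofOp b' _ _), op_ofOp, op_ofOp, map_add, add_comp, comp_add]
      map_smul' := fun c Z => by
        apply op_injective b'
        rw [RingHom.id_apply, op_ofOp, map_smul (op b') c, op_ofOp, map_smul, smul_comp,
          comp_smul] } 1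
    (fun Z => by
      rw [one_mul]
      refine norm_le_of_enorm_sq_le (norm_nonneg _) ?_
      rw [ofReal_norm, ← emb_aux b b' j Z, ← lp_enorm_sq]
      exact le_rfl)

theorem op_emb (Z : HS ι H) :
    op b' (emb b b' j Z) = isoL j ∘L op b Z ∘L adjoint (isoL j) :=
  op_ofOp b' _ (by rw [emb_aux]; finiteness)

theorem emb_ten (v w : H) : emb b b' j (ten b v w) = ten b' (j v) (j w) := by
  apply op_injective b'
  ext x
  rw [op_emb, op_ten, op_ten, comp_apply, comp_apply, rankOne_apply, rankOne_apply,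
    adjoint_inner_right, map_smul]
  rfl

theorem emb_injective : Function.Injective (emb b b' j) := by
  intro Z Z' h
  apply op_injective b
  refine ContinuousLinearMap.ext fun v => ?_
  have h1 := congrArg (fun A : K →L[ℂ] K => A (j v)) (congrArg (op b') h)
  simp only [op_emb, comp_apply, adjoint_isoL_isoL] at h1
  exact j.injective h1

theorem op_adjoint_emb (X : HS ι' K) :
    op b (adjoint (emb b b' j) X) = adjoint (isoL j) ∘L op b' X ∘L isoL j := by
  refine ContinuousLinearMap.ext fun w => ext_inner_left ℂ fun v => ?_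
  rw [← inner_ten_left, adjoint_inner_right, emb_ten, inner_ten_left, comp_apply, comp_apply,
    adjoint_inner_right]
  rfl

theorem emb_gram (A B A' B' : K →L[ℂ] K) (Z Z' : HS ι H) :
    ⟪lmul A (rmul b' B (emb b b' j Z)), lmul A' (rmul b' B' (emb b b' j Z'))⟫_ℂ =
      ⟪Z, lmul (adjoint (isoL j) ∘L (adjoint A ∘L A') ∘L isoL j)
        (rmul b (adjoint (isoL j) ∘L (B' ∘L adjoint B) ∘L isoL j) Z')⟫_ℂ := by
  rw [← adjoint_inner_right, adjoint_lmul b', ← adjoint_inner_right, adjoint_rmul,
    ← adjoint_inner_right]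
  congr 1
  apply op_injective b
  rw [op_adjoint_emb]
  simp only [op_rmul, op_lmul, op_emb]
  rfl

theorem op_commute_lmul_rmul (A B : K →L[ℂ] K) : Commute (lmul A) (rmul b' B) := by
  refine ContinuousLinearMap.ext fun Z => op_injective b' ?_
  change op b' (lmul A (rmul b' B Z)) = op b' (rmul b' B (lmul A Z))
  simp only [op_rmul, op_lmul]
  rfl

variable {Γ Λ : Type} [Group Γ] [Group Λ]
  (U : Γ →* unitary (H →L[ℂ] H)) (V : Λ →* unitary (H →L[ℂ] H))

section

variable {n : ℕ} (β : HilbertBasis (Γ × Fin n) ℂ K) (R : Γ → K →L[ℂ] K)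
  (hR : ∀ g h i, R g (β (h, i)) = β (h * g⁻¹, i))

include hR in
theorem adjoint_reg (g : Γ) : adjoint (R g) = R g⁻¹ := by
  refine clm_ext_basis β fun x => ?_
  rw [adjoint_basis β ((Equiv.mulRight g⁻¹).prodCongr (Equiv.refl _)) (fun x => by
    rcases x with ⟨h, i⟩
    rw [hR]; rfl)]
  rcases x with ⟨h, i⟩
  rw [hR]
  simp [Equiv.mulRight]

include hR in
theorem adjoint_commute_reg {A : K →L[ℂ] K} (hA : ∀ g, Commute A (R g)) (g : Γ) :
    Commute (adjoint A) (R g) := by
  have h := congrArg adjoint (hA g⁻¹)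
  rw [ContinuousLinearMap.mul_def, ContinuousLinearMap.mul_def, adjoint_comp, adjoint_comp,
    adjoint_reg β R hR, inv_inv] at h
  exact h.symm

include hR in
/-- The vectors `A w`, with `A` in the commutant of the multiple of the regular representation
and `w` in a given nonzero invariant subspace, are total. -/
theorem total_of_commutant (hicc : IsICC Γ) (hn : 0 < n) (W : Submodule ℂ K)
    (hW : ∀ g, ∀ w ∈ W, R g w ∈ W) {w₀ : K} (hw₀ : w₀ ∈ W) (hne : w₀ ≠ 0) (x : K)
    (hx : ∀ A : K →L[ℂ] K, (∀ g, Commute A (R g)) → ∀ w ∈ W, ⟪A w, x⟫_ℂ = 0) : x = 0 := by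
  set S : Set K := {y | ∃ A : K →L[ℂ] K, (∀ g, Commute A (R g)) ∧ ∃ w ∈ W, A w = y} with hS
  set T : Submodule ℂ K := (Submodule.span ℂ S).topologicalClosure with hT
  have : CompleteSpace T := (Submodule.isClosed_topologicalClosure _).completeSpace_coe
  have hinv : ∀ B : K →L[ℂ] K, (∀ y ∈ S, B y ∈ S) → ∀ y ∈ T, B y ∈ T := by
    intro B hB y hy
    have h1 : Submodule.span ℂ S ≤ (Submodule.span ℂ S).comap B.toLinearMap := by
      rw [Submodule.span_le]
      intro y hy
      exact Submodule.subset_span (hB y hy)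
    have h2 : T ≤ T.comap B.toLinearMap := by
      refine Submodule.topologicalClosure_minimal _ (h1.trans ?_) ?_
      · exact Submodule.comap_mono (Submodule.le_topologicalClosure _)
      · exact (Submodule.isClosed_topologicalClosure (Submodule.span ℂ S)).preimage B.continuous
    exact h2 hy
  have hSN : ∀ B : K →L[ℂ] K, (∀ g, Commute B (R g)) → ∀ y ∈ S, B y ∈ S := by
    rintro B hB _ ⟨A, hA, w, hw, rfl⟩
    exact ⟨B * A, fun g => (hB g).mul_left (hA g), w, hw, rfl⟩
  have hSR : ∀ g, ∀ y ∈ S, R g y ∈ S := by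
    rintro g _ ⟨A, hA, w, hw, rfl⟩
    exact ⟨A, hA, R g w, hW g w hw, commute_apply (hA g) w⟩
  set P : K →L[ℂ] K := T.starProjection with hP
  have hPN : ∀ B : K →L[ℂ] K, (∀ g, Commute B (R g)) → Commute B P := by
    intro B hB
    refine starProjection_commute T (hinv B (hSN B hB)) ?_
    exact hinv _ (hSN _ (adjoint_commute_reg β R hR hB))
  have hPR : ∀ g, Commute (R g) P := by
    intro g
    refine starProjection_commute T (hinv _ (hSR g)) ?_
    rw [adjoint_reg β R hR]
    exact hinv _ (hSR g⁻¹)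
  have hsc : ∃ c : ℂ, lmul P = c • (1 : HS (Γ × Fin n) K →L[ℂ] HS (Γ × Fin n) K) := by
    refine scalar_of_commute_reg β hicc hn β R hR (lmul P) ?_ ?_ ?_
    · intro A hA
      refine ContinuousLinearMap.ext fun Z => op_injective β ?_
      change op β (lmul A (lmul P Z)) = op β (lmul P (lmul A Z))
      rw [op_lmul, op_lmul, op_lmul, op_lmul, ← comp_assoc, ← comp_assoc]
      exact congrArg (fun B => B ∘L op β Z) (hPN A hA)
    · intro A hA
      exact (op_commute_lmul_rmul β _ _).symm
    · intro g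
      refine ContinuousLinearMap.ext fun Z => op_injective β ?_
      change op β (Ad β (R g) (lmul P Z)) = op β (lmul P (Ad β (R g) Z))
      rw [op_Ad, op_lmul, op_lmul, op_Ad]
      have := hPR g
      refine ContinuousLinearMap.ext fun v => ?_
      simp only [comp_apply]
      exact commute_apply (hPR g) _
  obtain ⟨c, hc⟩ := hsc
  have hPc' : ∀ v : K, P v = c • v := by
    intro v
    by_cases hv : v = 0
    · rw [hv, map_zero, smul_zero]
    have h1 := congrArg (fun G : HS (Γ × Fin n) K →L[ℂ] HS (Γ × Fin n) K =>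
      op β (G (ten β v v)) v) hc
    have h2 : op β (lmul P (ten β v v)) v = ⟪v, v⟫_ℂ • P v := by
      rw [lmul_ten, op_ten, rankOne_apply]
    have h3 : op β ((c • (1 : HS (Γ × Fin n) K →L[ℂ] HS (Γ × Fin n) K)) (ten β v v)) v =
        ⟪v, v⟫_ℂ • c • v := by
      change op β (c • ten β v v) v = _
      rw [map_smul, smul_apply, op_ten, rankOne_apply, smul_comm]
    rw [← sub_eq_zero]
    have h4 : ⟪v, v⟫_ℂ • (P v - c • v) = 0 := by
      rw [smul_sub, ← h2, ← h3]
      exact sub_eq_zero.2 h1
    rcases smul_eq_zero.1 h4 with h | h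
    · exact absurd (inner_self_eq_zero.1 h) hv
    · exact h
  have hw₁ : P w₀ = w₀ := by
    refine Submodule.starProjection_eq_self_iff.2 (Submodule.le_topologicalClosure _
      (Submodule.subset_span ⟨1, fun g => Commute.one_left _, w₀, hw₀, rfl⟩))
  have hc1 : c = 1 := by
    rw [hPc'] at hw₁
    by_contra hcne
    have : (c - 1) • w₀ = 0 := by rw [sub_smul, one_smul, hw₁, sub_self]
    rcases smul_eq_zero.1 this with h | h
    · exact hcne (sub_eq_zero.1 h)
    · exact hne h
  have hxT : x ∈ Tᗮ := by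
    rw [hT, Submodule.orthogonal_closure, Submodule.mem_orthogonal]
    intro w hw
    induction hw using Submodule.span_induction with
    | mem w hw =>
      obtain ⟨A, hA, w, hw, rfl⟩ := hw
      exact hx A hA w hw
    | zero => simp
    | add x y _ _ hx hy => rw [inner_add_left, hx, hy, add_zero]
    | smul c x _ hx => rw [inner_smul_left, hx, mul_zero]
  have hPx : P x = 0 := (Submodule.starProjection_apply_eq_zero_iff T).2 hxT
  rw [hPc', hc1, one_smul] at hPx
  exact hPx

end

section

variable {n : ℕ} (β : HilbertBasis (Γ × Fin n) ℂ K) (R : Γ → K →L[ℂ] K)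
  (hR : ∀ g h i, R g (β (h, i)) = β (h * g⁻¹, i))
  (hj : ∀ g v, j ((U g : H →L[ℂ] H) v) = R g (j v))

include hR hj in
theorem adjoint_isoL_reg (g : Γ) (x : K) :
    adjoint (isoL j) (R g x) = (U g : H →L[ℂ] H) (adjoint (isoL j) x) := by
  refine ext_inner_left ℂ fun v => ?_
  rw [adjoint_inner_right, ← inv_inv g, ← adjoint_reg β R hR, adjoint_inner_right, inv_inv,
    ← adjoint_inner_left (U g : H →L[ℂ] H), adjoint_rep, adjoint_inner_right]
  congr 1
  exact (hj _ _).symm

include hR hj in
theorem corner_commute {A : K →L[ℂ] K} (hA : ∀ g, Commute A (R g)) (g : Γ) :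
    Commute (adjoint (isoL j) ∘L A ∘L isoL j) (U g : H →L[ℂ] H) := by
  refine ContinuousLinearMap.ext fun v => ?_
  change adjoint (isoL j) (A (j ((U g : H →L[ℂ] H) v))) =
    (U g : H →L[ℂ] H) (adjoint (isoL j) (A (j v)))
  rw [hj, commute_apply (hA g), adjoint_isoL_reg j U β R hR hj]

include hR hj in
theorem emb_Ad (g : Γ) (Z : HS ι H) :
    emb b β j (Ad b (U g : H →L[ℂ] H) Z) = Ad β (R g) (emb b β j Z) := by
  apply op_injective β
  rw [op_emb, op_Ad, op_Ad, op_emb]
  refine ContinuousLinearMap.ext fun x => ?_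
  simp only [comp_apply]
  rw [adjoint_rep, adjoint_reg β R hR, adjoint_isoL_reg j U β R hR hj]
  exact hj _ _

include hR hj in
/-- Unitary case of `irr_of_embedding`. -/
theorem scalar_of_embedding (hicc : IsICC Γ) (hn : 0 < n) [Nontrivial H]
    (u : HS ι H →L[ℂ] HS ι H) (hu : star u * u = 1)
    (hl : ∀ B : H →L[ℂ] H, (∀ g, Commute B (U g : H →L[ℂ] H)) → Commute (lmul B) u)
    (hr : ∀ B : H →L[ℂ] H, (∀ g, Commute B (U g : H →L[ℂ] H)) → Commute (rmul b B) u)
    (hAd : ∀ g, Commute (Ad b (U g : H →L[ℂ] H)) u) : ∃ c : ℂ, u = c • 1 := by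
  set N : Type := {A : K →L[ℂ] K // ∀ g, Commute A (R g)} with hN
  set a : N × N × HS ι H → HS (Γ × Fin n) K :=
    fun p => lmul p.1.1 (rmul β p.2.1.1 (emb b β j p.2.2)) with ha
  set c : N × N × HS ι H → HS (Γ × Fin n) K :=
    fun p => lmul p.1.1 (rmul β p.2.1.1 (emb b β j (u p.2.2))) with hc
  have hstar : ∀ A : N, ∀ g, Commute (adjoint A.1) (R g) :=
    fun A => adjoint_commute_reg β R hR A.2
  have huu : ∀ Z Z' : HS ι H, ⟪u Z, u Z'⟫_ℂ = ⟪Z, Z'⟫_ℂ := by
    intro Z Z'
    rw [← adjoint_inner_right]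
    exact congrArg (fun T : HS ι H →L[ℂ] HS ι H => ⟪Z, T Z'⟫_ℂ) hu
  have hgram : ∀ p q, ⟪c p, c q⟫_ℂ = ⟪a p, a q⟫_ℂ := by
    rintro ⟨A, B, Z⟩ ⟨A', B', Z'⟩
    simp only [ha, hc]
    rw [emb_gram, emb_gram]
    have h1 := corner_commute j U β R hR hj (A := B'.1 ∘L adjoint B.1)
      (fun g => (B'.2 g).mul_left (hstar B g))
    have h2 := corner_commute j U β R hR hj (A := adjoint A.1 ∘L A'.1)
      (fun g => (hstar A g).mul_left (A'.2 g))
    rw [commute_apply (hr _ h1), commute_apply (hl _ h2), huu]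
  have htot : ∀ x : K, (∀ (A : N) (v : H), ⟪A.1 (j v), x⟫_ℂ = 0) → x = 0 := by
    intro x hx
    obtain ⟨v₀, hv₀⟩ := exists_ne (0 : H)
    refine total_of_commutant β R hR hicc hn (LinearMap.range j.toLinearMap) ?_ (w₀ := j v₀)
      ⟨v₀, rfl⟩ (fun h => hv₀ (j.injective (h.trans j.map_zero.symm))) x ?_
    · rintro g _ ⟨v, rfl⟩
      exact ⟨(U g : H →L[ℂ] H) v, hj g v⟩
    · rintro A hA _ ⟨v, rfl⟩
      exact hx ⟨A, hA⟩ v
  have hdense : ∀ X : HS (Γ × Fin n) K, (∀ p, ⟪a p, X⟫_ℂ = 0) → X = 0 := by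
    intro X hX
    have h1 : ∀ (B : N) (w : H), op β X (B.1 (j w)) = 0 := by
      intro B w
      refine htot _ fun A v => ?_
      have h := hX (A, ⟨adjoint B.1, hstar B⟩, ten b v w)
      simp only [ha] at h
      rw [emb_ten, rmul_ten, adjoint_adjoint, lmul_ten, inner_ten_left] at h
      exact h
    apply op_injective β
    rw [map_zero, ← adjoint_adjoint (op β X)]
    have h2 : adjoint (op β X) = 0 := by
      refine ContinuousLinearMap.ext fun y => ?_
      refine htot _ fun B w => ?_
      rw [adjoint_inner_right, h1, inner_zero_left]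
    rw [h2, map_zero]
  obtain ⟨W, hW⟩ := exists_clm_of_gram a c hgram hdense
  have hsc : ∃ z : ℂ, W = z • 1 := by
    refine scalar_of_commute_reg β hicc hn β R hR W ?_ ?_ ?_
    · intro A hA
      refine clm_ext_total hdense ?_
      rintro ⟨A', B', Z⟩
      change lmul A (W (a (A', B', Z))) = W (lmul A (a (A', B', Z)))
      have h1 : lmul A (a (A', B', Z)) = a (⟨A * A'.1, fun g => (hA g).mul_left (A'.2 g)⟩, B', Z) := by
        apply op_injective β
        simp only [ha, op_lmul, op_rmul]
        rfl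
      have h2 : lmul A (c (A', B', Z)) = c (⟨A * A'.1, fun g => (hA g).mul_left (A'.2 g)⟩, B', Z) := by
        apply op_injective β
        simp only [hc, op_lmul, op_rmul]
        rfl
      rw [h1, hW, hW, h2]
    · intro B hB
      refine clm_ext_total hdense ?_
      rintro ⟨A', B', Z⟩
      change rmul β B (W (a (A', B', Z))) = W (rmul β B (a (A', B', Z)))
      have h1 : rmul β B (a (A', B', Z)) = a (A', ⟨B'.1 * B, fun g => (B'.2 g).mul_left (hB g)⟩, Z) := by
        apply op_injective β
        simp only [ha, op_lmul, op_rmul]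
        rfl
      have h2 : rmul β B (c (A', B', Z)) = c (A', ⟨B'.1 * B, fun g => (B'.2 g).mul_left (hB g)⟩, Z) := by
        apply op_injective β
        simp only [hc, op_lmul, op_rmul]
        rfl
      rw [h1, hW, hW, h2]
    · intro g
      refine clm_ext_total hdense ?_
      rintro ⟨A', B', Z⟩
      change Ad β (R g) (W (a (A', B', Z))) = W (Ad β (R g) (a (A', B', Z)))
      have h0 : ∀ X : HS (Γ × Fin n) K, Ad β (R g) (lmul A'.1 (rmul β B'.1 X)) =
          lmul A'.1 (rmul β B'.1 (Ad β (R g) X)) := by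
        intro X
        apply op_injective β
        simp only [op_Ad, op_lmul, op_rmul]
        refine ContinuousLinearMap.ext fun x => ?_
        simp only [comp_apply]
        rw [adjoint_reg β R hR, commute_apply (B'.2 g⁻¹), commute_apply (A'.2 g)]
      have h1 : Ad β (R g) (a (A', B', Z)) = a (A', B', Ad b (U g : H →L[ℂ] H) Z) := by
        simp only [ha]
        rw [h0, emb_Ad b j U β R hR hj]
      have h2 : Ad β (R g) (c (A', B', Z)) = c (A', B', Ad b (U g : H →L[ℂ] H) Z) := by
        simp only [hc]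
        rw [h0, ← emb_Ad b j U β R hR hj, commute_apply (hAd g)]
      rw [h1, hW, hW, h2]
  obtain ⟨z, hz⟩ := hsc
  refine ⟨z, ContinuousLinearMap.ext fun Z => emb_injective b β j ?_⟩
  have h1 : ∀ Z, lmul (1 : K →L[ℂ] K) (rmul β (1 : K →L[ℂ] K) (emb b β j Z)) = emb b β j Z := by
    intro Z
    apply op_injective β
    simp only [op_lmul, op_rmul]
    rfl
  have h2 := hW (⟨1, fun g => Commute.one_left _⟩, ⟨1, fun g => Commute.one_left _⟩, Z)
  simp only [ha, hc] at h2
  rw [h1, h1, hz] at h2
  rw [← h2]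
  change z • emb b β j Z = emb b β j (z • Z)
  rw [map_smul]

include hR hj in
/-- `Irr` from the commutation `U(Γ)' ⊆ V(Λ)''` when `U` is a nonzero subrepresentation of a
multiple of the right regular representation. -/
theorem irr_of_embedding (hicc : IsICC Γ) [Nontrivial H]
    (hcomm : ∀ B x : H →L[ℂ] H, (∀ g, Commute B (U g : H →L[ℂ] H)) →
      (∀ s, Commute x (V s : H →L[ℂ] H)) → Commute B x) : Irr b U V := by
  have hn : 0 < n := by
    rcases Nat.eq_zero_or_pos n with h | h
    · subst h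
      obtain ⟨v₀, hv₀⟩ := exists_ne (0 : H)
      refine absurd ?_ hv₀
      apply j.injective
      rw [j.map_zero]
      apply β.repr.injective
      rw [map_zero]
      ext p
      exact p.2.elim0
    · exact h
  intro F hl hr hAd
  have hadjU : ∀ B : H →L[ℂ] H, (∀ g, Commute B (U g : H →L[ℂ] H)) →
      ∀ g, Commute (adjoint B) (U g : H →L[ℂ] H) := by
    intro B hB g
    have h := congrArg adjoint (hB g⁻¹)
    rw [ContinuousLinearMap.mul_def, ContinuousLinearMap.mul_def, adjoint_comp, adjoint_comp,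
      adjoint_rep, inv_inv] at h
    exact h.symm
  have hl' : ∀ B : H →L[ℂ] H, (∀ g, Commute B (U g : H →L[ℂ] H)) → Commute (lmul B) F := by
    intro A hA
    exact lmul_commute_of_comm b (fun s => (V s : H →L[ℂ] H)) F hl A (fun x hx => hcomm A x hA hx)
  have hr' : ∀ B : H →L[ℂ] H, (∀ g, Commute B (U g : H →L[ℂ] H)) → Commute (rmul b B) F := by
    intro A hA
    refine rmul_commute_of_comm b (fun s => (V s : H →L[ℂ] H)) F ?_ A ?_
    · intro s
      rw [adjoint_rep]
      exact hr _
    · intro x hx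
      exact hcomm _ x (hadjU A hA) hx
  set S : Set (HS ι H →L[ℂ] HS ι H) :=
    {T | (∃ B : H →L[ℂ] H, (∀ g, Commute B (U g : H →L[ℂ] H)) ∧ (T = lmul B ∨ T = rmul b B)) ∨
      ∃ g, T = Ad b (U g : H →L[ℂ] H)} with hS
  have hSF : ∀ A ∈ S, Commute A F := by
    rintro T (⟨B, hB, rfl | rfl⟩ | ⟨g, rfl⟩)
    · exact hl' B hB
    · exact hr' B hB
    · exact hAd g
  have hSstar : ∀ A ∈ S, star A ∈ S := by
    rintro T (⟨B, hB, rfl | rfl⟩ | ⟨g, rfl⟩)
    · exact Or.inl ⟨adjoint B, hadjU B hB, Or.inl (adjoint_lmul b B)⟩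
    · exact Or.inl ⟨adjoint B, hadjU B hB, Or.inr (adjoint_rmul b B)⟩
    · refine Or.inr ⟨g⁻¹, ?_⟩
      rw [← adjoint_rep]
      exact adjoint_Ad b _
  have hmem := mem_span_unitary_commute S F hSF (fun A hA => hSF _ (hSstar A hA))
  have hle : Submodule.span ℂ {u : HS ι H →L[ℂ] HS ι H | u ∈ unitary (HS ι H →L[ℂ] HS ι H) ∧
      ∀ A ∈ S, Commute A u ∧ Commute (star A) u} ≤ Submodule.span ℂ {1} := by
    rw [Submodule.span_le]
    rintro u ⟨hu, hSu⟩
    obtain ⟨z, hz⟩ := scalar_of_embedding b j U β R hR hj hicc hn u (Unitary.mem_iff.1 hu).1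
      (fun B hB => (hSu _ (Or.inl ⟨B, hB, Or.inl rfl⟩)).1)
      (fun B hB => (hSu _ (Or.inl ⟨B, hB, Or.inr rfl⟩)).1)
      (fun g => (hSu _ (Or.inr ⟨g, rfl⟩)).1)
    exact Submodule.mem_span_singleton.2 ⟨z, hz.symm⟩
  obtain ⟨z, hz⟩ := Submodule.mem_span_singleton.1 (hle hmem)
  exact ⟨z, hz.symm⟩

end

end

end Vale.Agent.P092
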