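import Vale.Agent.P092.H184.Trace
import Vale.Agent.P092.H418.Corner

/-!
# An isomorphism `L(Λ) ≅ L(Γ)^t` scales the trace
-/

namespace Vale.Agent.P092

open scoped InnerProductSpace ENNReal ComplexConjugate
open ContinuousLinearMap InnerProductSpace

noncomputable section

variable {Γ Λ : Type} [Group Γ] [Group Λ] {n : ℕ}

theorem LG_delta_apply (x : LG Γ) (g h : Γ) :
    ((x : ell2 Γ →L[ℂ] ell2 Γ) (delta g) : ell2 Γ) h =
      ((x : ell2 Γ →L[ℂ] ell2 Γ) (delta 1) : ell2 Γ) (h * g⁻¹) := by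
  have h1 : (delta g : ell2 Γ) = rreg g⁻¹ (delta 1) := by rw [rreg_delta, inv_inv, one_mul]
  rw [h1, LG_rreg, rreg_apply]

theorem tau_mul (x y : LG Γ) : tau (x * y) = ∑' g : Γ,
    ((x : ell2 Γ →L[ℂ] ell2 Γ) (delta 1) : ell2 Γ) g⁻¹ *
      ((y : ell2 Γ →L[ℂ] ell2 Γ) (delta 1) : ell2 Γ) g := by
  change ⟪delta 1, (x : ell2 Γ →L[ℂ] ell2 Γ) ((y : ell2 Γ →L[ℂ] ell2 Γ) (delta 1))⟫_ℂ = _
  rw [← adjoint_inner_left, ← (deltaBasis Γ).tsum_inner_mul_inner]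
  refine tsum_congr fun g => ?_
  rw [deltaBasis_apply, inner_delta, adjoint_inner_left, inner_delta, LG_delta_apply, one_mul]

theorem tau_mul_comm (x y : LG Γ) : tau (x * y) = tau (y * x) := by
  rw [tau_mul, tau_mul, ← (Equiv.inv Γ).tsum_eq]
  refine tsum_congr fun g => ?_
  rw [Equiv.inv_apply, inv_inv, mul_comm]

theorem tau_sum {α : Type} (s : Finset α) (f : α → LG Γ) :
    tau (∑ i ∈ s, f i) = ∑ i ∈ s, tau (f i) := by
  rw [tau, coe_sum_LG, sum_apply, inner_sum]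
  rfl

theorem sum_tau_mul_comm (X Y : Matrix (Fin n) (Fin n) (LG Γ)) :
    ∑ i, tau ((X * Y) i i) = ∑ i, tau ((Y * X) i i) := by
  simp only [Matrix.mul_apply, tau_sum]
  rw [Finset.sum_comm]
  exact Finset.sum_congr rfl fun i _ => Finset.sum_congr rfl fun j _ => tau_mul_comm _ _

namespace AmpIso

variable (Φ : AmpIso Γ Λ n)

theorem range_actHom : Set.range Φ.actHom = {T | T ∈ StarSubalgebra.centralizer ℂ
    (Set.range fun g : Γ => (Φ.Urep g : Φ.HH →L[ℂ] Φ.HH)) ∧ 1 * T * 1 = T} := by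
  ext T
  constructor
  · rintro ⟨x, rfl⟩
    refine ⟨?_, by rw [one_mul, mul_one]⟩
    rw [mem_comm_iff]
    rintro _ ⟨g, rfl⟩
    refine ⟨(Φ.commute_U_act g x).symm, ?_⟩
    rw [ContinuousLinearMap.star_eq_adjoint, adjoint_rep]
    exact (Φ.commute_U_act g⁻¹ x).symm
  · rintro ⟨hT, -⟩
    rw [mem_comm_iff] at hT
    obtain ⟨c, hc⟩ := Φ.exists_act (B := T) (fun g => (hT _ ⟨g, rfl⟩).1)
    exact ⟨c, hc⟩

theorem sum_tau_toHom (hicc : IsICC Λ) (x : LG Λ) :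
    ∑ i, tau (Φ.toHom x i i) = tau x * ∑ i, tau (Φ.toHom 1 i i) := by
  rw [sum_tau_eq, sum_tau_eq]
  refine trace_unique hicc Φ.actHom Φ.act_injective Φ.range_actHom (IsStarProjection.one _) Φ.zv ?_ x
  intro h x
  change ∑ i, ⟪Φ.zv i, Φ.act (cj h x) (Φ.zv i)⟫_ℂ = ∑ i, ⟪Φ.zv i, Φ.act x (Φ.zv i)⟫_ℂ
  rw [← sum_tau_eq, ← sum_tau_eq, cj, map_mul, sum_tau_mul_comm, ← map_mul]
  have : u h⁻¹ * (u h * x) = x := by
    rw [← mul_assoc, ← u_mul, inv_mul_cancel, u_one, one_mul]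
  rw [this]

/-- **The trace formula.** -/
theorem exists_trace (hicc : IsICC Λ) :
    ∃ t : ℝ, 0 < t ∧ ∀ x : LG Λ, ∑ i, tau (Φ.toHom x i i) = t * tau x := by
  have h1 : ∑ i, tau (Φ.toHom 1 i i) = ((∑ i, ‖Φ.zv i‖ ^ 2 : ℝ) : ℂ) := by
    rw [sum_tau_eq, act_one, Complex.ofReal_sum]
    refine Finset.sum_congr rfl fun i _ => ?_
    have h2 := inner_self_eq_norm_sq_to_K (𝕜 := ℂ) (Φ.zv i)
    rw [Complex.ofReal_pow]
    exact h2
  refine ⟨∑ i, ‖Φ.zv i‖ ^ 2, ?_, fun x => ?_⟩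
  · have h0 : 0 ≤ ∑ i, ‖Φ.zv i‖ ^ 2 := Finset.sum_nonneg fun i _ => by positivity
    refine lt_of_le_of_ne h0 fun h => ?_
    have hz : ∀ i, Φ.zv i = 0 := by
      intro i
      have h2 := (Finset.sum_eq_zero_iff_of_nonneg (fun i _ => by positivity)).1 h.symm i
        (Finset.mem_univ i)
      have h3 : ‖Φ.zv i‖ = 0 := by simpa using h2
      exact norm_eq_zero.1 h3
    obtain ⟨v, hv⟩ := exists_ne (0 : Φ.HH)
    refine hv (Φ.eq_zero_of_inner_zv fun g i => ?_)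
    rw [hz, map_zero, inner_zero_left]
  · rw [Φ.sum_tau_toHom hicc x, h1, mul_comm]

end AmpIso

end

end Vale.Agent.P092
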