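import Vale.Agent.P092.H184.Scalar
import Vale.Agent.P092.H414.Equiv

/-!
# Commutation: operators on `HS ι H` commuting with multiplications by `V(Λ)`, and `Irr`
-/

namespace Vale.Agent.P092

open scoped InnerProductSpace ENNReal ComplexConjugate
open ContinuousLinearMap InnerProductSpace

noncomputable section

variable {ι : Type} {H : Type} [NormedAddCommGroup H] [InnerProductSpace ℂ H] [CompleteSpace H]
  (b : HilbertBasis ι ℂ H)

include b in
/-- If `F` commutes with the left multiplications by the `V s` and `B` is in the double commutant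
of the `V s`, then `F` commutes with the left multiplication by `B`. -/
theorem lmul_commute_of_comm {S : Type} (V : S → H →L[ℂ] H) (F : HS ι H →L[ℂ] HS ι H)
    (hF : ∀ s, Commute (lmul (V s)) F) (B : H →L[ℂ] H)
    (hB : ∀ x : H →L[ℂ] H, (∀ s, Commute x (V s)) → Commute B x) : Commute (lmul B) F := by
  refine clm_ext_ten b fun v w => ?_
  change lmul B (F (ten b v w)) = F (lmul B (ten b v w))
  rw [lmul_ten]
  apply op_injective b
  ext w'
  rw [op_lmul, comp_apply]
  set T : H →L[ℂ] H := (ContinuousLinearMap.apply ℂ H w') ∘L (op b) ∘L F ∘L tenL b w with hT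
  have hTv : ∀ v, T v = op b (F (ten b v w)) w' := fun v => rfl
  have hTV : ∀ s, Commute T (V s) := by
    intro s
    refine ContinuousLinearMap.ext fun v => ?_
    change T (V s v) = V s (T v)
    rw [hTv, hTv, ← lmul_ten, ← commute_apply (hF s), op_lmul, comp_apply]
  have h := commute_apply (hB T hTV) v
  rw [hTv, hTv] at h
  exact h

/-- Conjugation of an operator on `HS ι H` by the adjoint map. -/
def conjAdj (F : HS ι H →L[ℂ] HS ι H) : HS ι H →L[ℂ] HS ι H :=
  LinearMap.mkContinuous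
    { toFun := fun Z => adj b (F (adj b Z))
      map_add' := fun Z Z' => by simp
      map_smul' := fun c Z => by simp [map_smulₛₗ] } ‖F‖ (fun Z => by
        simp only [LinearMap.coe_mk, AddHom.coe_mk, LinearIsometryEquiv.norm_map]
        refine (F.le_opNorm _).trans ?_
        rw [LinearIsometryEquiv.norm_map])

theorem conjAdj_apply (F : HS ι H →L[ℂ] HS ι H) (Z : HS ι H) :
    conjAdj b F Z = adj b (F (adj b Z)) := rfl

theorem adj_lmul (A : H →L[ℂ] H) (Z : HS ι H) :
    adj b (lmul A Z) = rmul b (adjoint A) (adj b Z) := by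
  rw [rmul_eq, adjoint_adjoint, adj_adj]

theorem adj_rmul (A : H →L[ℂ] H) (Z : HS ι H) :
    adj b (rmul b A Z) = lmul (adjoint A) (adj b Z) := by
  rw [rmul_eq, adj_adj]

theorem rmul_commute_of_comm {S : Type} (V : S → H →L[ℂ] H) (F : HS ι H →L[ℂ] HS ι H)
    (hF : ∀ s, Commute (rmul b (adjoint (V s))) F) (B : H →L[ℂ] H)
    (hB : ∀ x : H →L[ℂ] H, (∀ s, Commute x (V s)) → Commute (adjoint B) x) :
    Commute (rmul b B) F := by
  have h1 : ∀ s, Commute (lmul (V s)) (conjAdj b F) := by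
    intro s
    refine ContinuousLinearMap.ext fun Z => ?_
    change lmul (V s) (conjAdj b F Z) = conjAdj b F (lmul (V s) Z)
    rw [conjAdj_apply, conjAdj_apply, adj_lmul, ← commute_apply (hF s), adj_rmul,
      adjoint_adjoint]
  have h2 := lmul_commute_of_comm b V (conjAdj b F) h1 (adjoint B) hB
  refine ContinuousLinearMap.ext fun Z => ?_
  change rmul b B (F Z) = F (rmul b B Z)
  have h3 := commute_apply h2 (adj b Z)
  rw [conjAdj_apply, conjAdj_apply, adj_adj, adj_lmul, adj_adj, adjoint_adjoint,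
    ← adj_rmul] at h3
  exact (adj b).injective h3

variable {Γ Λ : Type} [Group Γ] [Group Λ]
  (U : Γ →* unitary (H →L[ℂ] H)) (V : Λ →* unitary (H →L[ℂ] H))

/-- `Irr` from the commutation `U(Γ)' ⊆ V(Λ)''` and a Hilbert basis in which `U` is the right
regular representation. -/
theorem irr_of_comm (hicc : IsICC Γ) {n : ℕ} (hn : 0 < n) (β : HilbertBasis (Γ × Fin n) ℂ H)
    (hR : ∀ g h i, (U g : H →L[ℂ] H) (β (h, i)) = β (h * g⁻¹, i))
    (hcomm : ∀ B x : H →L[ℂ] H, (∀ g, Commute B (U g : H →L[ℂ] H)) →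
      (∀ s, Commute x (V s : H →L[ℂ] H)) → Commute B x) : Irr b U V := by
  intro F hl hr hAd
  refine scalar_of_commute_reg b hicc hn β (fun g => (U g : H →L[ℂ] H)) hR F ?_ ?_ hAd
  · intro A hA
    exact lmul_commute_of_comm b (fun s => (V s : H →L[ℂ] H)) F hl A (fun x hx => hcomm A x hA hx)
  · intro A hA
    refine rmul_commute_of_comm b (fun s => (V s : H →L[ℂ] H)) F ?_ A ?_
    · intro s
      rw [adjoint_rep]
      exact hr _
    · intro x hx
      refine hcomm _ x (fun g => ?_) hx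
      have h := congrArg adjoint (hA g⁻¹)
      rw [ContinuousLinearMap.mul_def, ContinuousLinearMap.mul_def, adjoint_comp, adjoint_comp,
        adjoint_rep, inv_inv] at h
      exact h.symm

theorem inner_rep_left (g : Γ) (v w : H) :
    ⟪(U g : H →L[ℂ] H) v, w⟫_ℂ = ⟪v, (U g⁻¹ : H →L[ℂ] H) w⟫_ℂ := by
  rw [← adjoint_rep, adjoint_inner_right]

section bases

variable (hUV : ∀ g s, Commute (U g : H →L[ℂ] H) (V s)) (η : H)
  (bU : HilbertBasis Γ ℂ H) (hbU : ∀ g, bU g = (U g : H →L[ℂ] H) η)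
  (bV : HilbertBasis Λ ℂ H) (hbV : ∀ s, bV s = (V s : H →L[ℂ] H) η)

include hUV hbV in
theorem inner_star_rep (x : H →L[ℂ] H) (hx : ∀ s, Commute x (V s : H →L[ℂ] H)) (g : Γ) :
    ⟪adjoint x η, (U g : H →L[ℂ] H) η⟫_ℂ = ⟪(U g⁻¹ : H →L[ℂ] H) η, x η⟫_ℂ := by
  rw [← bV.tsum_inner_mul_inner (adjoint x η), ← bV.tsum_inner_mul_inner _ (x η),
    ← (Equiv.inv Λ).tsum_eq]
  refine tsum_congr fun s => ?_
  rw [Equiv.inv_apply, mul_comm]
  congr 1
  · rw [hbV, hbV, inner_rep_left, inv_inv, inner_rep_left, ← commute_apply (hUV g s), inv_inv]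
  · rw [hbV, hbV, adjoint_inner_left, commute_apply (hx _), inner_rep_left]

include hUV hbU hbV in
theorem inner_swap (x B : H →L[ℂ] H) (hx : ∀ s, Commute x (V s : H →L[ℂ] H))
    (hB : ∀ g, Commute B (U g : H →L[ℂ] H)) : ⟪η, x (B η)⟫_ℂ = ⟪η, B (x η)⟫_ℂ := by
  rw [← adjoint_inner_left x, ← adjoint_inner_left B _ η,
    ← bU.tsum_inner_mul_inner (adjoint x η), ← bU.tsum_inner_mul_inner _ (x η),
    ← (Equiv.inv Γ).tsum_eq]
  refine tsum_congr fun g => ?_
  rw [Equiv.inv_apply, mul_comm]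
  congr 1
  · rw [hbU, hbU, adjoint_inner_left, commute_apply (hB _), inner_rep_left, inv_inv]
  · rw [hbU, hbU, inner_star_rep U V hUV η bV hbV x hx, inv_inv]

include hUV hbU hbV in
/-- The commutation theorem `V(Λ)' = U(Γ)''` for commuting unitary representations with a common
vector generating Hilbert bases. -/
theorem comm_of_bases (B x : H →L[ℂ] H) (hB : ∀ g, Commute B (U g : H →L[ℂ] H))
    (hx : ∀ s, Commute x (V s : H →L[ℂ] H)) : Commute B x := by
  refine clm_ext_basis bU fun g => ?_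
  change B (x (bU g)) = x (B (bU g))
  apply bV.repr.injective
  ext s
  rw [bV.repr_apply_apply, bV.repr_apply_apply, hbU, hbV, inner_rep_left, inner_rep_left]
  have h := inner_swap U V hUV η bU hbU bV hbV (x * (U g : H →L[ℂ] H))
    ((V s⁻¹ : H →L[ℂ] H) * B) (fun s' => (hx s').mul_left (hUV g s'))
    (fun g' => ((hUV g' s⁻¹).symm).mul_left (hB g'))
  change ⟪η, x ((U g : H →L[ℂ] H) ((V s⁻¹ : H →L[ℂ] H) (B η)))⟫_ℂ =
    ⟪η, (V s⁻¹ : H →L[ℂ] H) (B (x ((U g : H →L[ℂ] H) η)))⟫_ℂ at h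
  rw [commute_apply (hUV g s⁻¹), commute_apply (hx s⁻¹), ← commute_apply (hB g)] at h
  exact h.symm

include hUV hbU hbV in
/-- `Irr` for `t = 1`. -/
theorem irr_of_bases (hicc : IsICC Γ) : Irr b U V := by
  have hinj : Function.Injective fun p : Γ × Fin 1 => p.1⁻¹ := by
    rintro ⟨g, i⟩ ⟨h, j⟩ hgh
    simp only [inv_inj] at hgh
    rw [hgh, Subsingleton.elim i j]
  have hon : Orthonormal ℂ fun p : Γ × Fin 1 => bU p.1⁻¹ := bU.orthonormal.comp _ hinj
  have hsp : ⊤ ≤ (Submodule.span ℂ (Set.range fun p : Γ × Fin 1 => bU p.1⁻¹)).topologicalClosure := by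
    have : (Set.range fun p : Γ × Fin 1 => bU p.1⁻¹) = Set.range bU := by
      ext v
      constructor
      · rintro ⟨p, rfl⟩
        exact ⟨_, rfl⟩
      · rintro ⟨g, rfl⟩
        exact ⟨(g⁻¹, 0), by simp⟩
    rw [this, bU.dense_span]
  refine irr_of_comm b U V hicc (n := 1) Nat.one_pos (HilbertBasis.mk hon hsp) ?_
    (comm_of_bases U V hUV η bU hbU bV hbV)
  intro g h i
  rw [HilbertBasis.coe_mk]
  simp only
  rw [hbU, hbU, mul_inv_rev, inv_inv, rep_mul_apply]

end bases

end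

end Vale.Agent.P092
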