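import Vale.Agent.P092.Stmt
import Vale.Agent.P092.Defs

/-!
# Groups with property (T) are finitely generated
-/

namespace Vale.Agent.P092.Lat

open scoped ENNReal
open Vale.Agent.P092.Stmt (IsUnitaryRep)

noncomputable section

variable {Γ : Type} [Group Γ]

theorem relabel_apply {α β : Type} (e : α ≃ β) (ξ : ell2 α) (x : β) :
    relabel e ξ x = ξ (e.symm x) := rfl

/-- The quasi-regular representation on `ℓ²(X)`. -/
theorem isUnitaryRep_quasi {X : Type} [MulAction Γ X] :
    IsUnitaryRep (fun (g : Γ) (ξ : ell2 X) => relabel (MulAction.toPerm g) ξ) where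
  map_add g x y := map_add _ x y
  map_smul g c x := map_smul _ c x
  norm_map g x := LinearIsometryEquiv.norm_map _ x
  map_one x := by
    ext i
    rw [relabel_apply]
    simp
  map_mul g h x := by
    ext i
    rw [relabel_apply, relabel_apply, relabel_apply]
    simp [mul_smul, MulAction.toPerm_symm_apply]

/-- A transitive action of a group on an infinite set has no nonzero invariant `ℓ²` vector. -/
theorem finite_of_invariant {X : Type} [MulAction Γ X] [MulAction.IsPretransitive Γ X]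
    {ξ : ell2 X} (hξ0 : ξ ≠ 0) (hξ : ∀ g : Γ, relabel (MulAction.toPerm g) ξ = ξ) : Finite X := by
  obtain ⟨x₀, hx₀⟩ : ∃ x, ξ x ≠ 0 := by
    by_contra hne
    push Not at hne
    exact hξ0 (lp.ext (funext hne))
  have hconst : ∀ x, ξ x = ξ x₀ := by
    intro x
    obtain ⟨g, hg⟩ := MulAction.exists_smul_eq Γ x₀ x
    have h1 : relabel (MulAction.toPerm g) ξ x = ξ x := by rw [hξ g]
    have h2 : (MulAction.toPerm g : Equiv.Perm X).symm x = x₀ := by
      rw [Equiv.symm_apply_eq, MulAction.toPerm_apply, hg]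
    rw [relabel_apply, h2] at h1
    exact h1.symm
  have hs : Summable fun x => ‖ξ x‖ ^ (2 : ℝ≥0∞).toReal :=
    (memℓp_gen_iff (by simp)).1 (lp.memℓp ξ)
  by_contra hinf
  rw [not_finite_iff_infinite] at hinf
  have h2 : ∀ x, ‖ξ x‖ ^ (2 : ℝ≥0∞).toReal = ‖ξ x₀‖ ^ (2 : ℝ≥0∞).toReal := fun x => by
    rw [hconst x]
  rw [funext h2] at hs
  have h3 := (summable_const_iff _).1 hs
  rw [Real.rpow_eq_zero (norm_nonneg _) (by simp)] at h3
  exact hx₀ (norm_eq_zero.1 h3)

theorem delta_coord {X : Type} (x y : X) [Decidable (y = x)] :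
    (delta x : ell2 X) y = if y = x then 1 else 0 := by
  classical
  rw [delta, lp.single_apply]
  by_cases hy : y = x
  · subst hy; simp
  · simp [hy]

/-- A group with property (T) is finitely generated. -/
theorem _root_.Vale.Agent.P092.Stmt.PropertyT.exists_generating
    (hT : Vale.Agent.P092.Stmt.PropertyT Γ) :
    ∃ S : Finset Γ, (1 : Γ) ∈ S ∧ Subgroup.closure (S : Set Γ) = ⊤ := by
  classical
  obtain ⟨Q, ε, hε, hT⟩ := hT
  set Δ := Subgroup.closure (Q : Set Γ) with hΔ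
  have hnorm : ∀ x : Γ ⧸ Δ, (delta x : ell2 (Γ ⧸ Δ)) ≠ 0 := by
    intro x h0
    have h1 := delta_coord x x
    rw [h0, if_pos rfl] at h1
    exact zero_ne_one h1
  obtain ⟨ξ, hξ0, hξ⟩ := hT (ell2 (Γ ⧸ Δ))
    (fun (g : Γ) ξ => relabel (MulAction.toPerm g) ξ) isUnitaryRep_quasi
    ⟨delta (((1 : Γ) : Γ ⧸ Δ)), hnorm _, by
      intro g hg
      have h1 : relabel (MulAction.toPerm g) (delta (((1 : Γ) : Γ ⧸ Δ))) =
          delta (((1 : Γ) : Γ ⧸ Δ)) := by
        ext x
        rw [relabel_apply, delta_coord, delta_coord]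
        have h3 : (MulAction.toPerm g : Equiv.Perm (Γ ⧸ Δ)).symm x = ((1 : Γ) : Γ ⧸ Δ) ↔
            x = ((1 : Γ) : Γ ⧸ Δ) := by
          rw [Equiv.symm_apply_eq, MulAction.toPerm_apply]
          have h4 : g • ((1 : Γ) : Γ ⧸ Δ) = ((1 : Γ) : Γ ⧸ Δ) := by
            change ((g * 1 : Γ) : Γ ⧸ Δ) = ((1 : Γ) : Γ ⧸ Δ)
            rw [QuotientGroup.eq, mul_one, mul_one]
            exact Δ.inv_mem (Subgroup.subset_closure hg)
          rw [h4]
        simp only [h3]
      rw [h1, sub_self, norm_zero]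
      exact mul_pos hε (norm_pos_iff.2 (hnorm _))⟩
  have hfin : Finite (Γ ⧸ Δ) := finite_of_invariant hξ0 hξ
  have := Fintype.ofFinite (Γ ⧸ Δ)
  refine ⟨insert 1 (Q ∪ (Finset.univ : Finset (Γ ⧸ Δ)).image Quotient.out), by simp, ?_⟩
  rw [eq_top_iff]
  intro g _
  have h1 : Δ ≤ Subgroup.closure
      ((insert 1 (Q ∪ (Finset.univ : Finset (Γ ⧸ Δ)).image Quotient.out) : Finset Γ) : Set Γ) := by
    refine Subgroup.closure_mono ?_
    intro x hx
    simp only [Finset.coe_insert, Finset.coe_union]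
    exact Or.inr (Or.inl hx)
  have h2 : (Quotient.out (g : Γ ⧸ Δ) : Γ) ∈ Subgroup.closure
      ((insert 1 (Q ∪ (Finset.univ : Finset (Γ ⧸ Δ)).image Quotient.out) : Finset Γ) : Set Γ) := by
    refine Subgroup.subset_closure ?_
    simp only [Finset.coe_insert, Finset.coe_union, Finset.coe_image]
    exact Or.inr (Or.inr ⟨(g : Γ ⧸ Δ), by simp, rfl⟩)
  have h3 : (Quotient.out (g : Γ ⧸ Δ) : Γ)⁻¹ * g ∈ Δ := by
    rw [← QuotientGroup.eq]
    exact Quotient.out_eq _
  have h4 := mul_mem h2 (h1 h3)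
  rwa [mul_inv_cancel_left] at h4

end

end Vale.Agent.P092.Lat
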