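import Vale.Agent.P092.H414.Step3

/-!
# Step 4b: the Kraus operators of the projection `E`
-/

namespace Vale.Agent.P092

open scoped InnerProductSpace ENNReal ComplexConjugate
open ContinuousLinearMap InnerProductSpace

noncomputable section

theorem tsum_ofReal_of_hasSum {κ : Type} {r : κ → ℝ} {s : ℝ} (hr : ∀ j, 0 ≤ r j)
    (h : HasSum (fun j => ((r j : ℝ) : ℂ)) ((s : ℝ) : ℂ)) :
    ∑' j, ENNReal.ofReal (r j) = ENNReal.ofReal s := by
  have h1 : HasSum r s := Complex.hasSum_ofReal.1 h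
  rw [← h1.tsum_eq, ENNReal.ofReal_tsum_of_nonneg hr h1.summable]

variable {ι Γ Λ : Type} [Group Γ] [Group Λ]
  {H : Type} [NormedAddCommGroup H] [InnerProductSpace ℂ H] [CompleteSpace H]
  {b : HilbertBasis ι ℂ H} {U : Γ →* unitary (H →L[ℂ] H)} {V : Λ →* unitary (H →L[ℂ] H)}
  {E : HS ι H →L[ℂ] HS ι H}

theorem GoodProj.apply_apply (hE : GoodProj b U V E) (Z : HS ι H) : E (E Z) = E Z :=
  DFunLike.congr_fun hE.idem Z

theorem GoodProj.inner_left (hE : GoodProj b U V E) (W Z : HS ι H) : ⟪E W, Z⟫_ℂ = ⟪W, E Z⟫_ℂ := by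
  conv_lhs => rw [← hE.selfAdjoint]
  rw [adjoint_inner_left]

/-- The other symmetry of `E`. -/
theorem GoodProj.symm' (hE : GoodProj b U V E) (v w v' w' : H) :
    ⟪ten b v' w', E (ten b v w)⟫_ℂ = ⟪ten b v' v, E (ten b w' w)⟫_ℂ := by
  rw [← inner_conj_symm, hE.inner_left, hE.symm v' w' v w, ← inner_conj_symm, hE.inner_left,
    Complex.conj_conj]

/-- `⟨|x⟩⟨x|, E |v⟩⟨v|⟩ = ‖E |v⟩⟨x|‖²`. -/
theorem GoodProj.inner_diag (hE : GoodProj b U V E) (v x : H) :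
    ⟪ten b x x, E (ten b v v)⟫_ℂ = ((‖E (ten b v x)‖ ^ 2 : ℝ) : ℂ) := by
  rw [hE.symm v v x x, ← inner_self_eq_ofReal, hE.inner_left, hE.apply_apply]

theorem GoodProj.norm_swap (hE : GoodProj b U V E) (v x : H) :
    ‖E (ten b v x)‖ = ‖E (ten b x v)‖ := by
  have h1 : conj ⟪ten b x x, E (ten b v v)⟫_ℂ = ⟪ten b v v, E (ten b x x)⟫_ℂ := by
    rw [inner_conj_symm, hE.inner_left]
  rw [hE.inner_diag, hE.inner_diag, Complex.conj_ofReal] at h1
  have h2 : ‖E (ten b v x)‖ ^ 2 = ‖E (ten b x v)‖ ^ 2 := by exact_mod_cast h1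
  exact (sq_eq_sq₀ (norm_nonneg _) (norm_nonneg _)).1 h2

theorem GoodProj.exists_basis (hE : GoodProj b U V E) : ∃ (m : Type) (X : m → HS ι H),
    (∀ j, E (X j) = X j) ∧ ∀ Z, HasSum (fun j => ⟪X j, Z⟫_ℂ • X j) (E Z) := by
  set K : Submodule ℂ (HS ι H) :=
    LinearMap.ker ((1 - E : HS ι H →L[ℂ] HS ι H) : HS ι H →ₗ[ℂ] HS ι H) with hK
  have hmem : ∀ Z, Z ∈ K ↔ E Z = Z := by
    intro Z
    rw [hK, LinearMap.mem_ker]
    change Z - E Z = 0 ↔ _
    rw [sub_eq_zero, eq_comm]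
  have hcl : IsClosed (K : Set (HS ι H)) := (1 - E : HS ι H →L[ℂ] HS ι H).isClosed_ker
  have : CompleteSpace K := hcl.completeSpace_coe
  obtain ⟨w, X, -⟩ := exists_hilbertBasis ℂ K
  refine ⟨w, fun j => (X j : HS ι H), fun j => (hmem _).1 (X j).2, fun Z => ?_⟩
  have hEZ : E Z ∈ K := (hmem _).2 (hE.apply_apply Z)
  have h1 := (X.hasSum_repr ⟨E Z, hEZ⟩).mapL K.subtypeL
  have h2 : (fun j => ⟪(X j : HS ι H), Z⟫_ℂ • (X j : HS ι H)) =
      fun j => K.subtypeL ((X.repr ⟨E Z, hEZ⟩ : lp (fun _ : w => ℂ) 2) j • X j) := by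
    funext j
    rw [map_smul, X.repr_apply_apply]
    change _ = ⟪(X j : HS ι H), E Z⟫_ℂ • (X j : HS ι H)
    rw [← hE.inner_left, (hmem _).1 (X j).2]
  rw [h2]
  exact h1

/-- Step 4b. -/
theorem exists_kraus (hE : GoodProj b U V E) : ∃ (m : Type) (X : m → HS ι H),
    (∀ j, E (X j) = X j) ∧
    (∀ Z, HasSum (fun j => ⟪X j, Z⟫_ℂ • X j) (E Z)) ∧
    (∀ v, ∑' j, ‖adjoint (op b (X j)) v‖ₑ ^ 2 = ‖v‖ₑ ^ 2) ∧
    (∀ v, ∑' j, ‖op b (X j) v‖ₑ ^ 2 = ‖v‖ₑ ^ 2) := by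
  obtain ⟨m, X, hEX, hX⟩ := hE.exists_basis
  obtain ⟨c, hc0, hctop, hc⟩ := hE.part
  have hnorm : ∀ Z, ∑' j, ‖⟪X j, Z⟫_ℂ‖ₑ ^ 2 = ‖E Z‖ₑ ^ 2 := by
    intro Z
    have h1 := (hX Z).mapL (innerSL ℂ Z)
    have h2 : (fun j => innerSL ℂ Z (⟪X j, Z⟫_ℂ • X j)) =
        fun j => ((‖⟪X j, Z⟫_ℂ‖ ^ 2 : ℝ) : ℂ) := by
      funext j
      rw [map_smul, innerSL_apply_apply, smul_eq_mul, ← inner_conj_symm Z (X j), mul_comm,
        Complex.conj_mul']
      push_cast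
      rfl
    have h3 : innerSL ℂ Z (E Z) = ((‖E Z‖ ^ 2 : ℝ) : ℂ) := by
      rw [innerSL_apply_apply, ← inner_self_eq_ofReal, hE.inner_left, hE.apply_apply]
    rw [h2, h3] at h1
    rw [enorm_sq_eq_ofReal, ← tsum_ofReal_of_hasSum (fun j => by positivity) h1]
    exact tsum_congr fun j => enorm_sq_eq_ofReal _
  -- the two partial sums
  have ha : ∀ v, ∑' j, ‖adjoint (op b (X j)) v‖ₑ ^ 2 = c * ‖v‖ₑ ^ 2 := by
    intro v
    rw [← hc v]
    calc ∑' j, ‖adjoint (op b (X j)) v‖ₑ ^ 2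
        = ∑' j, ∑' l, ‖⟪b l, adjoint (op b (X j)) v⟫_ℂ‖ₑ ^ 2 :=
          tsum_congr fun j => (parseval_hilbertBasis b _).symm
      _ = ∑' l, ∑' j, ‖⟪b l, adjoint (op b (X j)) v⟫_ℂ‖ₑ ^ 2 := ENNReal.tsum_comm
      _ = ∑' l, ‖E (ten b v (b l))‖ₑ ^ 2 := by
          refine tsum_congr fun l => ?_
          rw [← hnorm]
          refine tsum_congr fun j => ?_
          rw [inner_ten_right, adjoint_inner_right]
  have hb : ∀ v, ∑' j, ‖op b (X j) v‖ₑ ^ 2 = c * ‖v‖ₑ ^ 2 := by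
    intro v
    rw [← hc v]
    calc ∑' j, ‖op b (X j) v‖ₑ ^ 2
        = ∑' j, ∑' l, ‖⟪b l, op b (X j) v⟫_ℂ‖ₑ ^ 2 :=
          tsum_congr fun j => (parseval_hilbertBasis b _).symm
      _ = ∑' l, ∑' j, ‖⟪b l, op b (X j) v⟫_ℂ‖ₑ ^ 2 := ENNReal.tsum_comm
      _ = ∑' l, ‖E (ten b v (b l))‖ₑ ^ 2 := by
          refine tsum_congr fun l => ?_
          rw [← ofReal_norm, hE.norm_swap, ofReal_norm, ← hnorm]
          refine tsum_congr fun j => ?_
          rw [inner_ten_right, enorm_inner_symm]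
  -- `E |v⟩⟨v| = ∑ |X_j v⟩⟨X_j v|`
  have hsum : ∀ v, HasSum (fun j => ten b (op b (X j) v) (op b (X j) v)) (E (ten b v v)) := by
    intro v
    have hs : Summable fun j => ten b (op b (X j) v) (op b (X j) v) := by
      refine Summable.of_norm ?_
      have h1 : ∑' j, ‖op b (X j) v‖ₑ ^ 2 ≠ ∞ := by
        rw [hb]
        exact ENNReal.mul_ne_top hctop (by finiteness)
      have h2 : Memℓp (fun j => op b (X j) v) 2 := memℓp_two_of_tsum_ne_top h1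
      have h3 := (memℓp_gen_iff (by simp)).1 h2
      refine h3.congr fun j => ?_
      rw [norm_ten]
      simp [pow_two]
    convert hs.hasSum using 1
    refine sub_eq_zero.1 (eq_zero_of_inner_ten b _ fun x y => ?_)
    rw [inner_sub_right, sub_eq_zero, hE.symm' v v x y]
    have h4 := hs.hasSum.mapL (innerSL ℂ (ten b x y))
    have h5 := (hX (ten b y v)).mapL (innerSL ℂ (ten b x v))
    rw [innerSL_apply_apply] at h4 h5
    refine (h5.tsum_eq.symm.trans ?_).trans h4.tsum_eq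
    refine tsum_congr fun j => ?_
    rw [innerSL_apply_apply, innerSL_apply_apply, inner_ten_ten, inner_smul_right,
      inner_ten_right, inner_ten_left, mul_comm]
  -- `c² = c`
  have hcc : c = 1 := by
    have hstep : ∀ v x, ∑' j, ‖E (ten b (op b (X j) v) x)‖ₑ ^ 2 = ‖E (ten b v x)‖ₑ ^ 2 := by
      intro v x
      have h1 := ((hsum v).mapL E).mapL (innerSL ℂ (ten b x x))
      simp only [innerSL_apply_apply, hE.inner_diag, hE.apply_apply] at h1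
      rw [enorm_sq_eq_ofReal, ← tsum_ofReal_of_hasSum (fun j => by positivity) h1]
      exact tsum_congr fun j => enorm_sq_eq_ofReal _
    have hH : ∃ v : H, v ≠ 0 := by
      by_contra h
      push Not at h
      refine hE.ne_zero (clm_ext_ten b fun v w => ?_)
      rw [h v]
      have : ten b (0 : H) w = 0 := by
        apply op_injective b; simp
      rw [this, map_zero, map_zero]
    obtain ⟨v, hv⟩ := hH
    have h1 : c * (c * ‖v‖ₑ ^ 2) = c * ‖v‖ₑ ^ 2 := by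
      rw [← hb v, ← ENNReal.tsum_mul_left]
      have h2 : ∀ j, c * ‖op b (X j) v‖ₑ ^ 2 = ∑' l, ‖E (ten b (op b (X j) v) (b l))‖ₑ ^ 2 :=
        fun j => (hc _).symm
      simp_rw [h2]
      rw [ENNReal.tsum_comm]
      simp_rw [hstep]
      rw [hc, hb]
    have hv' : ‖v‖ₑ ^ 2 ≠ 0 := pow_ne_zero _ (enorm_ne_zero.2 hv)
    have hvt : ‖v‖ₑ ^ 2 ≠ ∞ := by finiteness
    have h3 : c * ‖v‖ₑ ^ 2 = 1 * ‖v‖ₑ ^ 2 := by
      rw [one_mul]
      exact (ENNReal.mul_right_inj hc0 hctop).1 h1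
    exact (ENNReal.mul_left_inj hv' hvt).1 h3
  subst hcc
  simp only [one_mul] at ha hb
  exact ⟨m, X, hEX, hX, ha, hb⟩

end

end Vale.Agent.P092
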