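import Vale.Agent.P092.Stmt

/-!
# P092: topological groups with property (T), and lattices
-/

namespace Vale.Agent.P092.Stmt

open MeasureTheory

/-- Kazhdan's property (T) for a topological group `G`: there are a compact set `Q` and `ε > 0` such
that every strongly continuous unitary representation of `G` with a nonzero `(Q, ε)`-invariant
vector has a nonzero invariant vector. -/
def TopPropertyT (G : Type) [Group G] [TopologicalSpace G] : Prop :=
  ∃ (Q : Set G) (ε : ℝ), IsCompact Q ∧ 0 < ε ∧
    ∀ (H : Type) [NormedAddCommGroup H] [InnerProductSpace ℂ H] [CompleteSpace H]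
      (π : G → H → H), IsUnitaryRep π → (∀ ξ : H, Continuous fun g => π g ξ) →
      (∃ ξ : H, ξ ≠ 0 ∧ ∀ g ∈ Q, ‖π g ξ - ξ‖ < ε * ‖ξ‖) →
        ∃ ξ : H, ξ ≠ 0 ∧ ∀ g : G, π g ξ = ξ

/-- `Γ` is a lattice in `G`: it is discrete, and for some (bi-invariant) Haar measure `μ` on the
Borel sets of `G` the action of `Γ` on `G` by right multiplication has a fundamental domain of
finite measure. -/
def IsLattice {G : Type} [Group G] [TopologicalSpace G] (Γ : Subgroup G) : Prop :=
  DiscreteTopology Γ ∧
    letI : MeasurableSpace G := borel G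
    ∃ μ : Measure G, μ.IsHaarMeasure ∧ μ.IsMulRightInvariant ∧
      ∃ D : Set G, IsFundamentalDomain Γ.op D μ ∧ μ D < ⊤

end Vale.Agent.P092.Stmt
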