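import Vale.Agent.P092.H184.LatTail

/-!
# Induced representations: invariant vectors
-/

namespace Vale.Agent.P092.Lat

open scoped InnerProductSpace ENNReal ComplexConjugate Pointwise
open ContinuousLinearMap Filter Topology MeasureTheory

noncomputable section

variable {G : Type} [Group G] [MeasurableSpace G] [MeasurableMul₂ G] [MeasurableInv G]
  (μ : Measure G) [SFinite μ] [μ.IsMulLeftInvariant] [μ.IsMulRightInvariant]
  {K : Type} [NormedAddCommGroup K] [InnerProductSpace ℂ K] [CompleteSpace K]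
  {Γ : Subgroup G} (π : Γ →* unitary (K →L[ℂ] K))

theorem exists_invariant {D : Set G} (hD : MeasurableSet D) (hμ0 : μ D ≠ 0) [Countable Γ]
    (f : Lp K 2 μ) (hf0 : f ≠ 0) (hPf : ind D hD f = f)
    (hinv : ∀ (g : G) (γ : Γ), cP (lamRep μ K) (sigRep μ π) (ind D hD) g γ f =
      opA (lamRep μ K) (sigRep μ π) (ind D hD) g γ f) :
    ∃ c : K, c ≠ 0 ∧ ∀ γ : Γ, (π γ : K →L[ℂ] K) c = c := by
  have h1 : ∀ (γ : Γ) (g : G), ∀ᵐ x ∂μ, x ∈ D → g⁻¹ * (x * γ) ∈ D →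
      f x = (π γ : K →L[ℂ] K) (f (g⁻¹ * (x * γ))) := by
    intro γ g
    have e1 := hinv g γ
    rw [cP_eq] at e1
    have e2 : opA (lamRep μ K) (sigRep μ π) (ind D hD) g γ f =
        ind D hD (sigOp μ π γ (lamOp μ g (ind D hD f))) := rfl
    rw [e2, hPf] at e1
    filter_upwards [coeFn_ind _ (measurable_tr D hD g γ) f,
      coeFn_ind D hD (sigOp μ π γ (lamOp μ g f)), sigOp_lamOp μ π g γ f] with x h1 h2 h3 hx hy
    rw [Set.indicator_of_mem (show x ∈ tr D g γ from hy)] at h1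
    rw [Set.indicator_of_mem hx] at h2
    rw [← h1, e1, h2, h3]
  have hf : StronglyMeasurable f := Lp.stronglyMeasurable f
  have hmeas : ∀ γ : Γ, MeasurableSet {p : G × G | p.2 ∈ D → p.1⁻¹ * (p.2 * γ) ∈ D →
      f p.2 = (π γ : K →L[ℂ] K) (f (p.1⁻¹ * (p.2 * γ)))} := by
    intro γ
    have m1 : Measurable fun p : G × G => p.1⁻¹ * (p.2 * (γ : G)) := by fun_prop
    have mA : MeasurableSet {p : G × G | p.2 ∈ D} := measurable_snd hD
    have mB : MeasurableSet {p : G × G | p.1⁻¹ * (p.2 * γ) ∈ D} := m1 hD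
    have s1 : StronglyMeasurable fun p : G × G => f p.2 := hf.comp_measurable measurable_snd
    have s2 : StronglyMeasurable fun p : G × G =>
        (π γ : K →L[ℂ] K) (f (p.1⁻¹ * (p.2 * γ))) :=
      (π γ : K →L[ℂ] K).continuous.comp_stronglyMeasurable (hf.comp_measurable m1)
    have mC : MeasurableSet {p : G × G | f p.2 = (π γ : K →L[ℂ] K) (f (p.1⁻¹ * (p.2 * γ)))} :=
      s1.measurableSet_eq_fun s2
    have e : {p : G × G | p.2 ∈ D → p.1⁻¹ * (p.2 * γ) ∈ D →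
      f p.2 = (π γ : K →L[ℂ] K) (f (p.1⁻¹ * (p.2 * γ)))} = {p : G × G | p.2 ∈ D}ᶜ ∪
        ({p : G × G | p.1⁻¹ * (p.2 * γ) ∈ D}ᶜ ∪
          {p : G × G | f p.2 = (π γ : K →L[ℂ] K) (f (p.1⁻¹ * (p.2 * γ)))}) := by
      ext p
      simp only [Set.mem_ofPred_eq, Set.mem_union, Set.mem_compl_iff]
      tauto
    rw [e]
    exact mA.compl.union (mB.compl.union mC)
  have h2 : ∀ γ : Γ, ∀ᵐ x ∂μ, x ∈ D → ∀ᵐ z ∂μ, z ∈ D → f x = (π γ : K →L[ℂ] K) (f z) := by
    intro γ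
    have e1 := (Measure.ae_ae_comm (μ := μ) (ν := μ) (hmeas γ)).1
      (Eventually.of_forall (h1 γ))
    filter_upwards [e1] with x hx hxD
    have e2 := (quasiMeasurePreserving_div_left μ (x * (γ : G))).ae hx
    filter_upwards [e2] with z hz hzD
    have e3 : ((x * (γ : G)) / z)⁻¹ * (x * γ) = z := by
      rw [inv_div, div_eq_mul_inv]
      group
    rw [e3] at hz
    exact hz hxD hzD
  have h3 : ∀ᵐ x ∂μ, ∀ γ : Γ, x ∈ D → ∀ᵐ z ∂μ, z ∈ D → f x = (π γ : K →L[ℂ] K) (f z) :=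
    ae_all_iff.2 h2
  obtain ⟨x₀, hx₀, h4⟩ := Measure.exists_mem_of_measure_ne_zero_of_ae hμ0 (ae_restrict_of_ae h3)
  have h5 : ∀ᵐ z ∂μ, z ∈ D → f x₀ = f z := by
    filter_upwards [h4 1 hx₀] with z hz hzD
    rw [hz hzD, rep_one]
    rfl
  refine ⟨f x₀, ?_, ?_⟩
  · intro h0
    apply hf0
    ext1
    refine EventuallyEq.trans ?_ (Lp.coeFn_zero _ _ _).symm
    have e1 := coeFn_ind D hD f
    rw [hPf] at e1
    filter_upwards [e1, h5] with z hz1 hz2
    rw [hz1, Pi.zero_apply]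
    by_cases hz : z ∈ D
    · rw [Set.indicator_of_mem hz, ← hz2 hz, h0]
    · rw [Set.indicator_of_notMem hz]
  · intro γ
    obtain ⟨z, hz, h6, h7⟩ := Measure.exists_mem_of_measure_ne_zero_of_ae hμ0
      (ae_restrict_of_ae (h5.and (h4 γ hx₀)))
    have e1 := h7 hz
    rw [← h6 hz] at e1
    exact e1.symm

end

end Vale.Agent.P092.Lat
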