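import Mathlib

/-!
# Induced representations: the abstract part

`lam` and `sig` are commuting unitary representations of `G` and `Γ` on a Hilbert space, `P` is a
projection whose translates under `sig` are orthogonal with sum `1`, and all translates of `P`
commute. Then `G` has a unitary representation on the range of `P`.
-/

namespace Vale.Agent.P092.Lat

open scoped InnerProductSpace ENNReal ComplexConjugate
open ContinuousLinearMap Filter Topology

noncomputable section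

/-- A pairwise orthogonal square summable family is summable. -/
theorem summable_of_orthogonal {ι E : Type} [NormedAddCommGroup E] [InnerProductSpace ℂ E]
    [CompleteSpace E] {a : ι → E} (ho : ∀ i j, i ≠ j → ⟪a i, a j⟫_ℂ = 0)
    (hs : ∑' i, ‖a i‖ₑ ^ 2 ≠ ∞) : Summable a := by
  have hV : OrthogonalFamily ℂ (fun i => (ℂ ∙ a i : Submodule ℂ E))
      fun i => (ℂ ∙ a i : Submodule ℂ E).subtypeₗᵢ := by
    intro i j hij v w
    obtain ⟨c, hc⟩ := Submodule.mem_span_singleton.1 v.2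
    obtain ⟨d, hd⟩ := Submodule.mem_span_singleton.1 w.2
    change ⟪(v : E), (w : E)⟫_ℂ = 0
    rw [← hc, ← hd, inner_smul_left, inner_smul_right, ho i j hij]
    simp
  have h1 := (hV.summable_iff_norm_sq_summable
    (fun i => ⟨a i, Submodule.mem_span_singleton_self (a i)⟩)).2 ?_
  · exact h1
  · have h2 : ∑' i, ((‖a i‖₊ ^ 2 : NNReal) : ℝ≥0∞) ≠ ∞ := by
      simpa [enorm_eq_nnnorm] using hs
    have h3 := ENNReal.tsum_coe_ne_top_iff_summable.1 h2
    simpa using NNReal.summable_coe.2 h3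

variable {G Γ : Type} [Group G] [Group Γ] {E : Type} [NormedAddCommGroup E]
  [InnerProductSpace ℂ E] [CompleteSpace E]

omit [CompleteSpace E] in
theorem mul_app (A B : E →L[ℂ] E) (v : E) : (A * B) v = A (B v) := rfl

theorem rep_mul (W : G →* unitary (E →L[ℂ] E)) (g h : G) :
    (W (g * h) : E →L[ℂ] E) = W g * W h := by
  rw [map_mul]; rfl

theorem rep_one (W : G →* unitary (E →L[ℂ] E)) : (W 1 : E →L[ℂ] E) = 1 := by
  rw [map_one]; rfl

theorem rep_inv_mul (W : G →* unitary (E →L[ℂ] E)) (g : G) :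
    (W g⁻¹ : E →L[ℂ] E) * W g = 1 := by
  rw [← rep_mul, inv_mul_cancel, rep_one]

theorem rep_mul_inv (W : G →* unitary (E →L[ℂ] E)) (g : G) :
    (W g : E →L[ℂ] E) * W g⁻¹ = 1 := by
  rw [← rep_mul, mul_inv_cancel, rep_one]

theorem rep_inv_apply (W : G →* unitary (E →L[ℂ] E)) (g : G) (v : E) :
    (W g⁻¹ : E →L[ℂ] E) ((W g : E →L[ℂ] E) v) = v :=
  congrArg (fun T : E →L[ℂ] E => T v) (rep_inv_mul W g)

theorem rep_apply_inv (W : G →* unitary (E →L[ℂ] E)) (g : G) (v : E) :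
    (W g : E →L[ℂ] E) ((W g⁻¹ : E →L[ℂ] E) v) = v :=
  congrArg (fun T : E →L[ℂ] E => T v) (rep_mul_inv W g)

theorem rep_adjoint (W : G →* unitary (E →L[ℂ] E)) (g : G) :
    adjoint (W g : E →L[ℂ] E) = (W g⁻¹ : E →L[ℂ] E) := by
  rw [map_inv, ← ContinuousLinearMap.star_eq_adjoint, ← Unitary.coe_star]
  rfl

theorem rep_norm (W : G →* unitary (E →L[ℂ] E)) (g : G) (v : E) :
    ‖(W g : E →L[ℂ] E) v‖ = ‖v‖ := by
  have h : ⟪(W g : E →L[ℂ] E) v, (W g : E →L[ℂ] E) v⟫_ℂ = ⟪v, v⟫_ℂ := by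
    rw [← adjoint_inner_right, rep_adjoint, rep_inv_apply]
  rw [inner_self_eq_norm_sq_to_K, inner_self_eq_norm_sq_to_K] at h
  have h2 : ‖(W g : E →L[ℂ] E) v‖ ^ 2 = ‖v‖ ^ 2 := by exact_mod_cast h
  exact (sq_eq_sq₀ (norm_nonneg _) (norm_nonneg _)).1 h2

theorem rep_enorm (W : G →* unitary (E →L[ℂ] E)) (g : G) (v : E) :
    ‖(W g : E →L[ℂ] E) v‖ₑ = ‖v‖ₑ := by
  rw [← ofReal_norm, rep_norm, ofReal_norm]

theorem inner_proj {C : E →L[ℂ] E} (hi : C * C = C) (hs : adjoint C = C) (x : E) :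
    ⟪C x, x⟫_ℂ = ⟪C x, C x⟫_ℂ := by
  rw [← adjoint_inner_left C, hs, ← mul_app, hi]

variable (lam : G →* unitary (E →L[ℂ] E)) (sig : Γ →* unitary (E →L[ℂ] E)) (P : E →L[ℂ] E)

/-- The translates of the projection `P`. -/
def cP (g : G) (γ : Γ) : E →L[ℂ] E :=
  (sig γ : E →L[ℂ] E) * lam g * P * lam g⁻¹ * sig γ⁻¹

/-- The data for induction. -/
structure IndData : Prop where
  comm : ∀ g γ, Commute (lam g : E →L[ℂ] E) (sig γ)
  idem : P * P = P
  sa : adjoint P = P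
  orth : ∀ γ : Γ, γ ≠ 1 → P * (sig γ : E →L[ℂ] E) * P = 0
  total : ∀ F : E, ∑' γ, ‖P ((sig γ : E →L[ℂ] E) F)‖ₑ ^ 2 = ‖F‖ₑ ^ 2
  commP : ∀ g γ g' γ', Commute (cP lam sig P g γ) (cP lam sig P g' γ')

variable {lam sig P} (h : IndData lam sig P)

include h

omit h in
theorem cP_one_one : cP lam sig P 1 1 = P := by
  rw [cP, rep_one, rep_one, inv_one, inv_one, rep_one, rep_one]
  simp

theorem IndData.commute_P (g : G) (γ : Γ) : Commute P (cP lam sig P g γ) := by
  have h1 := h.commP 1 1 g γ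
  rwa [cP_one_one] at h1

omit h in
/-- `cP g γ σ_γ λ_g = σ_γ λ_g P`. -/
theorem cP_mul (g : G) (γ : Γ) :
    cP lam sig P g γ * (sig γ : E →L[ℂ] E) * lam g = (sig γ : E →L[ℂ] E) * lam g * P := by
  calc cP lam sig P g γ * (sig γ : E →L[ℂ] E) * lam g
      = (sig γ : E →L[ℂ] E) * lam g * P * lam g⁻¹ * ((sig γ⁻¹ : E →L[ℂ] E) * sig γ) * lam g := by
        rw [cP]; noncomm_ring
    _ = (sig γ : E →L[ℂ] E) * lam g * P * ((lam g⁻¹ : E →L[ℂ] E) * lam g) := by
        rw [rep_inv_mul]; noncomm_ring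
    _ = _ := by rw [rep_inv_mul, mul_one]

theorem IndData.cP_mul_cP {g : G} {γ γ' : Γ} (hγ : γ ≠ γ') :
    cP lam sig P g γ * cP lam sig P g γ' = 0 := by
  have hne : γ⁻¹ * γ' ≠ 1 := fun h1 => hγ (inv_mul_eq_one.1 h1)
  have hc := (h.comm g⁻¹ (γ⁻¹ * γ')).eq
  calc cP lam sig P g γ * cP lam sig P g γ'
      = (sig γ : E →L[ℂ] E) * lam g * P * lam g⁻¹ * ((sig γ⁻¹ : E →L[ℂ] E) * sig γ') * lam g * P *
          lam g⁻¹ * sig γ'⁻¹ := by
        rw [cP, cP]; noncomm_ring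
    _ = (sig γ : E →L[ℂ] E) * lam g * P * ((lam g⁻¹ : E →L[ℂ] E) * (sig (γ⁻¹ * γ') : E →L[ℂ] E)) *
          lam g * P * lam g⁻¹ * sig γ'⁻¹ := by
        rw [rep_mul sig]; noncomm_ring
    _ = (sig γ : E →L[ℂ] E) * lam g * P * ((sig (γ⁻¹ * γ') : E →L[ℂ] E) * (lam g⁻¹ : E →L[ℂ] E)) *
          lam g * P * lam g⁻¹ * sig γ'⁻¹ := by
        rw [hc]
    _ = (sig γ : E →L[ℂ] E) * lam g * (P * (sig (γ⁻¹ * γ') : E →L[ℂ] E) *
          ((lam g⁻¹ : E →L[ℂ] E) * lam g) * P) * lam g⁻¹ * sig γ'⁻¹ := by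
        noncomm_ring
    _ = 0 := by
        rw [rep_inv_mul, mul_one, h.orth _ hne]; simp

theorem IndData.cP_idem (g : G) (γ : Γ) :
    cP lam sig P g γ * cP lam sig P g γ = cP lam sig P g γ := by
  calc cP lam sig P g γ * cP lam sig P g γ
      = cP lam sig P g γ * sig γ * lam g * (P * lam g⁻¹ * sig γ⁻¹) := by
        nth_rewrite 2 [cP]; noncomm_ring
    _ = (sig γ : E →L[ℂ] E) * lam g * (P * P) * lam g⁻¹ * sig γ⁻¹ := by
        rw [cP_mul]; noncomm_ring
    _ = _ := by rw [h.idem, cP]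

theorem IndData.tsum_cP (g : G) (F : E) : ∑' γ, ‖cP lam sig P g γ F‖ₑ ^ 2 = ‖F‖ₑ ^ 2 := by
  have h1 := h.total ((lam g⁻¹ : E →L[ℂ] E) F)
  rw [rep_enorm] at h1
  rw [← h1, ← (Equiv.inv Γ).tsum_eq]
  refine tsum_congr fun γ => ?_
  rw [Equiv.inv_apply]
  change ‖(sig γ⁻¹ : E →L[ℂ] E) ((lam g : E →L[ℂ] E) (P ((lam g⁻¹ : E →L[ℂ] E)
    ((sig γ⁻¹⁻¹ : E →L[ℂ] E) F))))‖ₑ ^ 2 = _
  rw [rep_enorm, rep_enorm, inv_inv]
  have h2 : (lam g⁻¹ : E →L[ℂ] E) ((sig γ : E →L[ℂ] E) F) =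
      (sig γ : E →L[ℂ] E) ((lam g⁻¹ : E →L[ℂ] E) F) :=
    congrArg (fun T : E →L[ℂ] E => T F) (h.comm g⁻¹ γ).eq
  rw [h2]

theorem IndData.eq_of_cP (g : G) {x y : E} (hxy : ∀ γ, cP lam sig P g γ x = cP lam sig P g γ y) :
    x = y := by
  have h1 := h.tsum_cP g (x - y)
  have h2 : ∀ γ, ‖cP lam sig P g γ (x - y)‖ₑ ^ 2 = 0 := by
    intro γ
    rw [map_sub, hxy, sub_self]
    simp
  simp only [h2, tsum_zero] at h1
  have h3 : ‖x - y‖ₑ = 0 := by
    by_contra hne
    exact pow_ne_zero 2 hne h1.symm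
  exact sub_eq_zero.1 (enorm_eq_zero.1 h3)

omit h in
/-- The components of the induced representation. -/
def opA (lam : G →* unitary (E →L[ℂ] E)) (sig : Γ →* unitary (E →L[ℂ] E)) (P : E →L[ℂ] E)
    (g : G) (γ : Γ) : E →L[ℂ] E :=
  P * (sig γ : E →L[ℂ] E) * lam g * P

theorem IndData.cP_mul_opA (g : G) (γ : Γ) :
    cP lam sig P g γ * opA lam sig P g γ = opA lam sig P g γ := by
  have hc := (h.commute_P g γ).eq
  calc cP lam sig P g γ * opA lam sig P g γ
      = (cP lam sig P g γ * P) * (sig γ : E →L[ℂ] E) * lam g * P := by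
        rw [opA]; noncomm_ring
    _ = P * (cP lam sig P g γ * (sig γ : E →L[ℂ] E) * lam g) * P := by
        rw [← hc]; noncomm_ring
    _ = P * (sig γ : E →L[ℂ] E) * lam g * (P * P) := by
        rw [cP_mul]; noncomm_ring
    _ = _ := by rw [h.idem, opA]

theorem IndData.cP_mul_opA_ne {g : G} {γ γ' : Γ} (hγ : γ ≠ γ') :
    cP lam sig P g γ * opA lam sig P g γ' = 0 := by
  rw [← h.cP_mul_opA, ← mul_assoc, h.cP_mul_cP hγ, zero_mul]

theorem IndData.adjoint_cP (g : G) (γ : Γ) :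
    adjoint (cP lam sig P g γ) = cP lam sig P g γ := by
  rw [← ContinuousLinearMap.star_eq_adjoint, cP]
  simp only [star_mul, ContinuousLinearMap.star_eq_adjoint, rep_adjoint, h.sa, inv_inv]
  noncomm_ring

theorem IndData.opA_orth (g : G) (F : E) (γ γ' : Γ) (hγ : γ ≠ γ') :
    ⟪opA lam sig P g γ F, opA lam sig P g γ' F⟫_ℂ = 0 := by
  have h1 : opA lam sig P g γ F = cP lam sig P g γ (opA lam sig P g γ F) := by
    rw [← mul_app, h.cP_mul_opA]
  have h2 : cP lam sig P g γ (opA lam sig P g γ' F) = 0 := by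
    rw [← mul_app, h.cP_mul_opA_ne hγ, zero_apply]
  rw [h1, ← adjoint_inner_right, h.adjoint_cP, h2, inner_zero_right]

theorem IndData.tsum_opA (g : G) (F : E) :
    ∑' γ, ‖opA lam sig P g γ F‖ₑ ^ 2 = ‖P F‖ₑ ^ 2 := by
  have h1 := h.total ((lam g : E →L[ℂ] E) (P F))
  rw [rep_enorm] at h1
  exact h1

theorem IndData.summable_opA (g : G) (F : E) : Summable fun γ => opA lam sig P g γ F :=
  summable_of_orthogonal (h.opA_orth g F) (by rw [h.tsum_opA]; finiteness)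

/-- The vector `∑_γ P σ_γ λ_g P F`. -/
def IndData.indFun (_ : IndData lam sig P) (g : G) (F : E) : E := ∑' γ, opA lam sig P g γ F

theorem IndData.cP_indFun (g : G) (γ : Γ) (F : E) :
    cP lam sig P g γ (h.indFun g F) = opA lam sig P g γ F := by
  have h1 := ((h.summable_opA g F).hasSum.mapL (cP lam sig P g γ)).tsum_eq
  rw [IndData.indFun, ← h1, tsum_eq_single γ]
  · rw [← mul_app, h.cP_mul_opA]
  · intro γ' hγ'
    rw [← mul_app, h.cP_mul_opA_ne (Ne.symm hγ'), zero_apply]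

theorem IndData.enorm_indFun (g : G) (F : E) : ‖h.indFun g F‖ₑ ^ 2 = ‖P F‖ₑ ^ 2 := by
  rw [← h.tsum_cP g (h.indFun g F), ← h.tsum_opA g F]
  exact tsum_congr fun γ => by rw [h.cP_indFun]

theorem IndData.P_indFun (g : G) (F : E) : P (h.indFun g F) = h.indFun g F := by
  refine h.eq_of_cP g fun γ => ?_
  have h1 : P * opA lam sig P g γ = opA lam sig P g γ := by
    rw [opA, ← mul_assoc, ← mul_assoc, ← mul_assoc, h.idem]
  rw [← mul_app, ← (h.commute_P g γ).eq, mul_app, h.cP_indFun, ← mul_app, h1]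

theorem IndData.indFun_P (g : G) (F : E) : h.indFun g (P F) = h.indFun g F := by
  refine h.eq_of_cP g fun γ => ?_
  rw [h.cP_indFun, h.cP_indFun]
  have h1 : opA lam sig P g γ * P = opA lam sig P g γ := by
    rw [opA, mul_assoc, h.idem]
  rw [← mul_app, h1]

theorem IndData.indFun_add (g : G) (F F' : E) :
    h.indFun g (F + F') = h.indFun g F + h.indFun g F' := by
  refine h.eq_of_cP g fun γ => ?_
  rw [map_add, h.cP_indFun, h.cP_indFun, h.cP_indFun, map_add]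

theorem IndData.indFun_smul (g : G) (c : ℂ) (F : E) :
    h.indFun g (c • F) = c • h.indFun g F := by
  refine h.eq_of_cP g fun γ => ?_
  rw [map_smul, h.cP_indFun, h.cP_indFun, map_smul]

theorem IndData.indFun_one (F : E) : h.indFun 1 F = P F := by
  refine h.eq_of_cP 1 fun γ => ?_
  rw [h.cP_indFun]
  by_cases hγ : γ = 1
  · subst hγ
    rw [cP_one_one, opA, rep_one, rep_one, mul_one, mul_one, h.idem, ← mul_app, h.idem]
  · have h1 : opA lam sig P 1 γ = 0 := by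
      rw [opA, rep_one, mul_one, h.orth γ hγ]
    have h2 : cP lam sig P 1 γ * P = 0 := by
      have := h.cP_mul_cP (g := 1) (γ := γ) (γ' := 1) hγ
      rwa [cP_one_one] at this
    rw [h1, ← mul_app, h2]

/-- `P^{gh}_ε σ_γ λ_g = σ_γ λ_g P^h_{γ⁻¹ε}`. -/
theorem IndData.cP_gh (g k : G) (γ ε : Γ) :
    cP lam sig P (g * k) ε * (sig γ : E →L[ℂ] E) * lam g =
      (sig γ : E →L[ℂ] E) * lam g * cP lam sig P k (γ⁻¹ * ε) := by
  have e1 : (sig ε : E →L[ℂ] E) = sig γ * sig (γ⁻¹ * ε) := by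
    rw [← rep_mul, mul_inv_cancel_left]
  have e2 : (sig ε⁻¹ : E →L[ℂ] E) = sig (γ⁻¹ * ε)⁻¹ * sig γ⁻¹ := by
    rw [← rep_mul, mul_inv_rev, inv_inv, mul_assoc, mul_inv_cancel, mul_one]
  have c1 := (h.comm g (γ⁻¹ * ε)).eq
  have c2 := (h.comm g⁻¹ (γ⁻¹ * ε)⁻¹).eq
  calc cP lam sig P (g * k) ε * (sig γ : E →L[ℂ] E) * lam g
      = (sig γ : E →L[ℂ] E) * ((sig (γ⁻¹ * ε) : E →L[ℂ] E) * lam g) * lam k * P *
          lam k⁻¹ * ((lam g⁻¹ : E →L[ℂ] E) * (sig (γ⁻¹ * ε)⁻¹ : E →L[ℂ] E)) *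
          ((sig γ⁻¹ : E →L[ℂ] E) * sig γ) * lam g := by
        rw [cP, e1, e2, mul_inv_rev g k, rep_mul lam g k, rep_mul lam k⁻¹ g⁻¹]
        noncomm_ring
    _ = (sig γ : E →L[ℂ] E) * ((lam g : E →L[ℂ] E) * sig (γ⁻¹ * ε)) * lam k * P *
          lam k⁻¹ * ((sig (γ⁻¹ * ε)⁻¹ : E →L[ℂ] E) * (lam g⁻¹ : E →L[ℂ] E)) *
          (1 : E →L[ℂ] E) * lam g := by
        rw [← c1, c2, rep_inv_mul]
    _ = (sig γ : E →L[ℂ] E) * lam g * (sig (γ⁻¹ * ε) * lam k * P *
          lam k⁻¹ * sig (γ⁻¹ * ε)⁻¹) * ((lam g⁻¹ : E →L[ℂ] E) * lam g) := by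
        noncomm_ring
    _ = _ := by rw [rep_inv_mul, mul_one, cP]

theorem IndData.indFun_mul (g k : G) (F : E) :
    h.indFun (g * k) F = h.indFun g (h.indFun k F) := by
  set y := h.indFun g (h.indFun k F) with hy
  refine h.eq_of_cP (g * k) fun ε => ?_
  rw [h.cP_indFun]
  refine h.eq_of_cP g fun γ => ?_
  -- right hand side
  have hR : cP lam sig P g γ (cP lam sig P (g * k) ε y) =
      (P * sig γ * lam g * P * sig (γ⁻¹ * ε) * lam k * P) F := by
    have hP : P (h.indFun k F) = h.indFun k F := h.P_indFun k F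
    have e0 : cP lam sig P (g * k) ε * opA lam sig P g γ =
        P * sig γ * lam g * cP lam sig P k (γ⁻¹ * ε) * P := by
      have hc := (h.commute_P (g * k) ε).eq
      calc cP lam sig P (g * k) ε * opA lam sig P g γ
          = (cP lam sig P (g * k) ε * P) * sig γ * lam g * P := by
            rw [opA]; noncomm_ring
        _ = P * (cP lam sig P (g * k) ε * sig γ * lam g) * P := by
            rw [← hc]; noncomm_ring
        _ = _ := by
            rw [h.cP_gh]; noncomm_ring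
    have e1 : cP lam sig P k (γ⁻¹ * ε) (h.indFun k F) = opA lam sig P k (γ⁻¹ * ε) F :=
      h.cP_indFun _ _ _
    rw [← mul_app, (h.commP g γ (g * k) ε).eq, mul_app, hy, h.cP_indFun, ← mul_app, e0, mul_app,
      hP, mul_app, e1, opA]
    simp only [mul_app]
  have hL : cP lam sig P g γ (opA lam sig P (g * k) ε F) =
      (P * sig γ * lam g * P * sig (γ⁻¹ * ε) * lam k * P) F := by
    have e0 : cP lam sig P g γ * opA lam sig P (g * k) ε =
        P * sig γ * lam g * P * sig (γ⁻¹ * ε) * lam k * P := by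
      have hc := (h.commute_P g γ).eq
      have e1 : (sig ε : E →L[ℂ] E) = sig γ * sig (γ⁻¹ * ε) := by
        rw [← rep_mul, mul_inv_cancel_left]
      have c1 := (h.comm g (γ⁻¹ * ε)).eq
      calc cP lam sig P g γ * opA lam sig P (g * k) ε
          = (cP lam sig P g γ * P) * (sig γ : E →L[ℂ] E) *
              ((sig (γ⁻¹ * ε) : E →L[ℂ] E) * lam g) * lam k * P := by
            rw [opA, e1, rep_mul lam]
            noncomm_ring
        _ = P * (cP lam sig P g γ * (sig γ : E →L[ℂ] E) * lam g) *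
              sig (γ⁻¹ * ε) * lam k * P := by
            rw [← hc, ← c1]
            noncomm_ring
        _ = _ := by
            rw [cP_mul]
            noncomm_ring
    rw [← mul_app, e0]
  rw [hR, hL]

omit h in
/-- The range of `P`. -/
def rangeP (P : E →L[ℂ] E) : Submodule ℂ E :=
  LinearMap.ker ((1 - P : E →L[ℂ] E) : E →ₗ[ℂ] E)

omit h [CompleteSpace E] in
theorem mem_rangeP {P : E →L[ℂ] E} {F : E} : F ∈ rangeP P ↔ P F = F := by
  rw [rangeP, LinearMap.mem_ker]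
  change F - P F = 0 ↔ _
  rw [sub_eq_zero, eq_comm]

omit h in
instance (P : E →L[ℂ] E) : CompleteSpace (rangeP P) :=
  (1 - P : E →L[ℂ] E).isClosed_ker.completeSpace_coe

theorem IndData.norm_indFun (g : G) {F : E} (hF : P F = F) : ‖h.indFun g F‖ = ‖F‖ := by
  have h1 := h.enorm_indFun g F
  rw [hF] at h1
  have h2 : ‖h.indFun g F‖ₑ = ‖F‖ₑ := (ENNReal.pow_right_strictMono two_ne_zero).injective h1
  rw [← ofReal_norm, ← ofReal_norm] at h2
  exact (ENNReal.ofReal_eq_ofReal_iff (norm_nonneg _) (norm_nonneg _)).1 h2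

/-- The induced operators, as isometries of the range of `P`. -/
def IndData.indIso (g : G) : rangeP P ≃ₗᵢ[ℂ] rangeP P where
  toFun v := ⟨h.indFun g v, mem_rangeP.2 (h.P_indFun g v)⟩
  invFun v := ⟨h.indFun g⁻¹ v, mem_rangeP.2 (h.P_indFun g⁻¹ v)⟩
  map_add' v w := Subtype.ext (h.indFun_add g v w)
  map_smul' c v := Subtype.ext (h.indFun_smul g c v)
  left_inv v := Subtype.ext (by
    change h.indFun g⁻¹ (h.indFun g v) = v
    rw [← h.indFun_mul, inv_mul_cancel, h.indFun_one, mem_rangeP.1 v.2])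
  right_inv v := Subtype.ext (by
    change h.indFun g (h.indFun g⁻¹ v) = v
    rw [← h.indFun_mul, mul_inv_cancel, h.indFun_one, mem_rangeP.1 v.2])
  norm_map' v := h.norm_indFun g (mem_rangeP.1 v.2)

/-- The induced representation. -/
def IndData.indRep : G →* unitary (rangeP P →L[ℂ] rangeP P) where
  toFun g := Unitary.linearIsometryEquiv.symm (h.indIso g)
  map_one' := by
    rw [← map_one Unitary.linearIsometryEquiv.symm]
    congr 1
    ext v
    change h.indFun 1 v = v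
    rw [h.indFun_one, mem_rangeP.1 v.2]
  map_mul' g k := by
    rw [← map_mul]
    congr 1
    ext v
    exact h.indFun_mul g k v

theorem IndData.indRep_apply (g : G) (v : rangeP P) :
    (((h.indRep g : rangeP P →L[ℂ] rangeP P) v : rangeP P) : E) = h.indFun g v := rfl

/-- The distance of `v` to its translates. -/
theorem IndData.enorm_indFun_sub (g : G) (v : E) :
    ‖h.indFun g v - v‖ₑ ^ 2 = ∑' γ, ‖opA lam sig P g γ v - cP lam sig P g γ v‖ₑ ^ 2 := by
  rw [← h.tsum_cP g]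
  exact tsum_congr fun γ => by rw [map_sub, h.cP_indFun]

/-- `‖Ind(g) v - P λ_g v‖² = ‖v‖² - ‖P λ_g v‖²`. -/
theorem IndData.norm_indFun_sub_sq (g : G) {v : E} (hv : P v = v) :
    ‖h.indFun g v - P ((lam g : E →L[ℂ] E) v)‖ ^ 2 =
      ‖v‖ ^ 2 - ‖P ((lam g : E →L[ℂ] E) v)‖ ^ 2 := by
  have h1 : cP lam sig P g 1 (h.indFun g v) = P ((lam g : E →L[ℂ] E) v) := by
    rw [h.cP_indFun, opA, rep_one, mul_one, mul_app, mul_app, hv]
  have h2 : ⟪P ((lam g : E →L[ℂ] E) v), h.indFun g v⟫_ℂ =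
      ⟪P ((lam g : E →L[ℂ] E) v), P ((lam g : E →L[ℂ] E) v)⟫_ℂ := by
    rw [← h1]
    exact inner_proj (h.cP_idem g 1) (h.adjoint_cP g 1) _
  have h3 := norm_sub_sq (𝕜 := ℂ) (h.indFun g v) (P ((lam g : E →L[ℂ] E) v))
  rw [inner_re_symm, h2, inner_self_eq_norm_sq (𝕜 := ℂ), h.norm_indFun g hv] at h3
  rw [h3]
  ring

/-- Strong continuity of the induced representation. -/
theorem IndData.continuous_indRep [TopologicalSpace G] [IsTopologicalGroup G]
    (hlam : ∀ F : E, Continuous fun g => (lam g : E →L[ℂ] E) F) (v : rangeP P) :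
    Continuous fun g => (h.indRep g : rangeP P →L[ℂ] rangeP P) v := by
  -- continuity at `1`
  have h1 : ∀ v : rangeP P, Tendsto (fun g => (h.indRep g : rangeP P →L[ℂ] rangeP P) v) (𝓝 1)
      (𝓝 v) := by
    intro v
    have hv : P (v : E) = v := mem_rangeP.1 v.2
    have ha : Tendsto (fun g => P ((lam g : E →L[ℂ] E) v)) (𝓝 1) (𝓝 (v : E)) := by
      have h2 : Continuous fun g => P ((lam g : E →L[ℂ] E) v) := P.continuous.comp (hlam v)
      have h3 := h2.tendsto 1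
      rw [rep_one] at h3
      simpa [hv] using h3
    have hb : Tendsto (fun g => ‖(v : E)‖ ^ 2 - ‖P ((lam g : E →L[ℂ] E) v)‖ ^ 2) (𝓝 1) (𝓝 0) := by
      have h3 := (tendsto_const_nhds (x := ‖(v : E)‖ ^ 2)).sub (ha.norm.pow 2)
      rwa [sub_self] at h3
    have hc : Tendsto (fun g => ‖h.indFun g v - P ((lam g : E →L[ℂ] E) v)‖) (𝓝 1) (𝓝 0) := by
      have h3 : Tendsto (fun g => ‖h.indFun g v - P ((lam g : E →L[ℂ] E) v)‖ ^ 2) (𝓝 1) (𝓝 0) := by
        refine hb.congr fun g => ?_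
        rw [h.norm_indFun_sub_sq g hv]
      have h4 := h3.sqrt
      rw [Real.sqrt_zero] at h4
      exact h4.congr fun g => Real.sqrt_sq (norm_nonneg _)
    rw [tendsto_subtype_rng]
    have hd := tendsto_zero_iff_norm_tendsto_zero.2 hc
    have he := hd.add ha
    rw [zero_add] at he
    refine he.congr fun g => ?_
    rw [h.indRep_apply, sub_add_cancel]
  rw [continuous_iff_continuousAt]
  intro g₀
  have h2 : Tendsto (fun g : G => g₀⁻¹ * g) (𝓝 g₀) (𝓝 1) := by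
    have : Continuous fun g : G => g₀⁻¹ * g := continuous_const.mul continuous_id
    have h3 := this.tendsto g₀
    rwa [inv_mul_cancel] at h3
  have h3 := (h1 v).comp h2
  have h4 := (((h.indRep g₀ : rangeP P →L[ℂ] rangeP P)).continuous.tendsto v).comp h3
  refine h4.congr fun g => ?_
  change (h.indRep g₀ : rangeP P →L[ℂ] rangeP P)
    ((h.indRep (g₀⁻¹ * g) : rangeP P →L[ℂ] rangeP P) v) = _
  rw [← mul_app, ← rep_mul, mul_inv_cancel_left]

omit h

end

end Vale.Agent.P092.Lat
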