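import Vale.Agent.P092.H184.LatInd

/-!
# Induced representations: the Hilbert space `L²(G; K)`
-/

namespace Vale.Agent.P092.Lat

open scoped InnerProductSpace ENNReal ComplexConjugate Pointwise
open ContinuousLinearMap Filter Topology MeasureTheory

noncomputable section

section rep

variable {G : Type} [Group G] {E : Type} [NormedAddCommGroup E]
  [InnerProductSpace ℂ E] [CompleteSpace E]

theorem mem_unitary_of_norm {A B : E →L[ℂ] E} (hn : ∀ v, ‖A v‖ = ‖v‖) (hAB : A * B = 1) :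
    A ∈ unitary (E →L[ℂ] E) := by
  have h1 : adjoint A * A = 1 := (ContinuousLinearMap.norm_map_iff_adjoint_comp_self A).1 hn
  have h2 : adjoint A = B := by
    calc adjoint A = adjoint A * (A * B) := by rw [hAB, mul_one]
      _ = B := by rw [← mul_assoc, h1, one_mul]
  rw [Unitary.mem_iff, ContinuousLinearMap.star_eq_adjoint]
  exact ⟨h1, by rw [h2, hAB]⟩

/-- A unitary representation from isometric operators. -/
def mkRep (W : G → E →L[ℂ] E) (h1 : W 1 = 1) (hm : ∀ g k, W (g * k) = W g * W k)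
    (hn : ∀ g v, ‖W g v‖ = ‖v‖) : G →* unitary (E →L[ℂ] E) where
  toFun g := ⟨W g, mem_unitary_of_norm (B := W g⁻¹) (hn g) (by rw [← hm, mul_inv_cancel, h1])⟩
  map_one' := Subtype.ext h1
  map_mul' g k := Subtype.ext (hm g k)

theorem mkRep_apply (W : G → E →L[ℂ] E) (h1 : W 1 = 1) (hm : ∀ g k, W (g * k) = W g * W k)
    (hn : ∀ g v, ‖W g v‖ = ‖v‖) (g : G) : (mkRep W h1 hm hn g : E →L[ℂ] E) = W g := rfl

end rep

section lp

variable {G : Type} [MeasurableSpace G] {μ : Measure G}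
  {K : Type} [NormedAddCommGroup K] [InnerProductSpace ℂ K]

omit [InnerProductSpace ℂ K] in
theorem enorm_sq_eq (F : Lp K 2 μ) : ‖F‖ₑ ^ 2 = ∫⁻ x, ‖F x‖ₑ ^ 2 ∂μ := by
  rw [Lp.enorm_def, eLpNorm_eq_lintegral_rpow_enorm_toReal (by simp) (by simp)]
  rw [← ENNReal.rpow_natCast, ← ENNReal.rpow_mul]
  simp

/-- Multiplication by the indicator function of `B`, as a function. -/
def indF (B : Set G) (hB : MeasurableSet B) (F : Lp K 2 μ) : Lp K 2 μ :=
  MemLp.toLp (B.indicator F) ((Lp.memLp F).indicator hB)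

omit [InnerProductSpace ℂ K] in
theorem coeFn_indF (B : Set G) (hB : MeasurableSet B) (F : Lp K 2 μ) :
    (indF B hB F : G → K) =ᵐ[μ] B.indicator F := by
  rw [indF]
  exact MemLp.coeFn_toLp _

omit [InnerProductSpace ℂ K] in
theorem indF_add (B : Set G) (hB : MeasurableSet B) (F F' : Lp K 2 μ) :
    indF B hB (F + F') = indF B hB F + indF B hB F' := by
  ext1
  filter_upwards [Lp.coeFn_add F F', Lp.coeFn_add (indF B hB F) (indF B hB F'),
    coeFn_indF B hB F, coeFn_indF B hB F', coeFn_indF B hB (F + F')] with x h1 h2 h3 h4 h5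
  rw [h2, h5, Pi.add_apply, h3, h4]
  by_cases hx : x ∈ B
  · rw [Set.indicator_of_mem hx, Set.indicator_of_mem hx, Set.indicator_of_mem hx, h1,
      Pi.add_apply]
  · rw [Set.indicator_of_notMem hx, Set.indicator_of_notMem hx, Set.indicator_of_notMem hx,
      add_zero]

theorem indF_smul (B : Set G) (hB : MeasurableSet B) (c : ℂ) (F : Lp K 2 μ) :
    indF B hB (c • F) = c • indF B hB F := by
  ext1
  filter_upwards [Lp.coeFn_smul c F, Lp.coeFn_smul c (indF B hB F),
    coeFn_indF B hB F, coeFn_indF B hB (c • F)] with x h1 h2 h3 h4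
  rw [h2, h4, Pi.smul_apply, h3]
  by_cases hx : x ∈ B
  · rw [Set.indicator_of_mem hx, Set.indicator_of_mem hx, h1, Pi.smul_apply]
  · rw [Set.indicator_of_notMem hx, Set.indicator_of_notMem hx, smul_zero]

omit [InnerProductSpace ℂ K] in
theorem norm_indF_le (B : Set G) (hB : MeasurableSet B) (F : Lp K 2 μ) :
    ‖indF B hB F‖ ≤ ‖F‖ := by
  refine Lp.norm_le_norm_of_ae_le ?_
  filter_upwards [coeFn_indF B hB F] with x h1
  rw [h1]
  exact norm_indicator_le_norm_self _ _

/-- Multiplication by the indicator function of `B`, as a linear map. -/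
def indL (B : Set G) (hB : MeasurableSet B) : Lp K 2 μ →ₗ[ℂ] Lp K 2 μ where
  toFun := indF B hB
  map_add' := indF_add B hB
  map_smul' := indF_smul B hB

/-- Multiplication by the indicator function of `B`. -/
def ind (B : Set G) (hB : MeasurableSet B) : Lp K 2 μ →L[ℂ] Lp K 2 μ :=
  (indL B hB).mkContinuous 1 (fun F => by rw [one_mul]; exact norm_indF_le B hB F)

theorem coeFn_ind (B : Set G) (hB : MeasurableSet B) (F : Lp K 2 μ) :
    (ind B hB F : G → K) =ᵐ[μ] B.indicator F :=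
  coeFn_indF B hB F

theorem enorm_ind_sq (B : Set G) (hB : MeasurableSet B) (F : Lp K 2 μ) :
    ‖ind B hB F‖ₑ ^ 2 = ∫⁻ x in B, ‖F x‖ₑ ^ 2 ∂μ := by
  rw [enorm_sq_eq, ← lintegral_indicator hB]
  refine lintegral_congr_ae ?_
  filter_upwards [coeFn_ind B hB F] with x hx
  rw [hx]
  by_cases h : x ∈ B
  · simp only [Set.indicator_of_mem h]
  · simp only [Set.indicator_of_notMem h, enorm_zero, ne_eq, OfNat.ofNat_ne_zero,
      not_false_eq_true, zero_pow]

theorem ind_mul_ind (B C : Set G) (hB : MeasurableSet B) (hC : MeasurableSet C) :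
    (ind B hB : Lp K 2 μ →L[ℂ] Lp K 2 μ) * ind C hC = ind (B ∩ C) (hB.inter hC) := by
  ext F : 1
  ext1
  rw [mul_app]
  filter_upwards [coeFn_ind B hB (ind C hC F), coeFn_ind C hC F,
    coeFn_ind (B ∩ C) (hB.inter hC) F] with x h1 h2 h3
  rw [h1, h3, ← Set.indicator_indicator]
  by_cases h : x ∈ B
  · rw [Set.indicator_of_mem h, Set.indicator_of_mem h, h2]
  · rw [Set.indicator_of_notMem h, Set.indicator_of_notMem h]

theorem commute_ind (B C : Set G) (hB : MeasurableSet B) (hC : MeasurableSet C) :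
    Commute (ind B hB : Lp K 2 μ →L[ℂ] Lp K 2 μ) (ind C hC) := by
  rw [Commute, SemiconjBy, ind_mul_ind, ind_mul_ind]
  congr 1
  exact Set.inter_comm B C

theorem adjoint_ind [CompleteSpace K] (B : Set G) (hB : MeasurableSet B) :
    adjoint (ind B hB : Lp K 2 μ →L[ℂ] Lp K 2 μ) = ind B hB := by
  symm
  rw [ContinuousLinearMap.eq_adjoint_iff]
  intro F F'
  rw [L2.inner_def, L2.inner_def]
  refine integral_congr_ae ?_
  filter_upwards [coeFn_ind B hB F, coeFn_ind B hB F'] with x h1 h2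
  rw [h1, h2]
  by_cases h : x ∈ B
  · simp only [Set.indicator_of_mem h]
  · simp only [Set.indicator_of_notMem h, inner_zero_left, inner_zero_right]

/-- Composition with a measure preserving map. -/
def compOp (f : G → G) (hf : MeasurePreserving f μ μ) : Lp K 2 μ →L[ℂ] Lp K 2 μ :=
  (Lp.compMeasurePreservingₗᵢ ℂ f hf).toContinuousLinearMap

theorem coeFn_compOp (f : G → G) (hf : MeasurePreserving f μ μ) (F : Lp K 2 μ) :
    (compOp f hf F : G → K) =ᵐ[μ] fun x => F (f x) :=
  Lp.coeFn_compMeasurePreserving F hf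

theorem norm_compOp (f : G → G) (hf : MeasurePreserving f μ μ) (F : Lp K 2 μ) :
    ‖compOp f hf F‖ = ‖F‖ :=
  Lp.norm_compMeasurePreserving F hf

theorem compOp_comp (f f' : G → G) (hf : MeasurePreserving f μ μ)
    (hf' : MeasurePreserving f' μ μ) (F : Lp K 2 μ) :
    compOp (f ∘ f') (hf.comp hf') F = compOp f' hf' (compOp f hf F) :=
  Lp.compMeasurePreserving_comp_apply F hf hf'

theorem compOp_ind (f : G → G) (hf : MeasurePreserving f μ μ) (B : Set G)
    (hB : MeasurableSet B) (F : Lp K 2 μ) :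
    compOp f hf (ind B hB F) = ind (f ⁻¹' B) (hf.measurable hB) (compOp f hf F) := by
  ext1
  filter_upwards [coeFn_compOp f hf (ind B hB F), coeFn_ind _ (hf.measurable hB) (compOp f hf F),
    coeFn_compOp f hf F, hf.quasiMeasurePreserving.ae (coeFn_ind B hB F)] with x h1 h2 h3 h4
  rw [h1, h2, h4]
  by_cases h : f x ∈ B
  · rw [Set.indicator_of_mem h, Set.indicator_of_mem (by exact h), h3]
  · rw [Set.indicator_of_notMem h, Set.indicator_of_notMem (by exact h)]

/-- Composition with an operator of `K`. -/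
def tauOp (T : K →L[ℂ] K) : Lp K 2 μ →L[ℂ] Lp K 2 μ := T.compLpL 2 μ

theorem coeFn_tauOp (T : K →L[ℂ] K) (F : Lp K 2 μ) :
    (tauOp T F : G → K) =ᵐ[μ] fun x => T (F x) :=
  T.coeFn_compLpL F

theorem tauOp_mul (T S : K →L[ℂ] K) (F : Lp K 2 μ) :
    tauOp (T * S) F = tauOp T (tauOp S F) := by
  ext1
  filter_upwards [coeFn_tauOp (T * S) F, coeFn_tauOp T (tauOp S F), coeFn_tauOp S F]
    with x h1 h2 h3
  rw [h1, h2, h3, mul_app]

theorem tauOp_one (F : Lp K 2 μ) : tauOp (1 : K →L[ℂ] K) F = F := by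
  ext1
  filter_upwards [coeFn_tauOp 1 F] with x h1
  rw [h1]; rfl

theorem norm_tauOp (T : K →L[ℂ] K) (hT : ∀ v, ‖T v‖ = ‖v‖) (F : Lp K 2 μ) :
    ‖tauOp T F‖ = ‖F‖ := by
  refine le_antisymm (Lp.norm_le_norm_of_ae_le ?_) (Lp.norm_le_norm_of_ae_le ?_)
  · filter_upwards [coeFn_tauOp T F] with x h1
    rw [h1, hT]
  · filter_upwards [coeFn_tauOp T F] with x h1
    rw [h1, hT]

theorem tauOp_ind (T : K →L[ℂ] K) (B : Set G) (hB : MeasurableSet B) (F : Lp K 2 μ) :
    tauOp T (ind B hB F) = ind B hB (tauOp T F) := by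
  ext1
  filter_upwards [coeFn_tauOp T (ind B hB F), coeFn_ind B hB (tauOp T F), coeFn_tauOp T F,
    coeFn_ind B hB F] with x h1 h2 h3 h4
  rw [h1, h2, h4]
  by_cases h : x ∈ B
  · rw [Set.indicator_of_mem h, Set.indicator_of_mem h, h3]
  · rw [Set.indicator_of_notMem h, Set.indicator_of_notMem h, map_zero]

theorem tauOp_compOp (T : K →L[ℂ] K) (f : G → G) (hf : MeasurePreserving f μ μ)
    (F : Lp K 2 μ) : tauOp T (compOp f hf F) = compOp f hf (tauOp T F) := by
  ext1
  filter_upwards [coeFn_tauOp T (compOp f hf F), coeFn_compOp f hf (tauOp T F),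
    coeFn_compOp f hf F, hf.quasiMeasurePreserving.ae (coeFn_tauOp T F)] with x h1 h2 h3 h4
  rw [h1, h2, h3, h4]

end lp

end

end Vale.Agent.P092.Lat
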