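import Vale.Agent.P092.H184.LatLp

/-!
# Induced representations: the operators on `L²(G; K)`
-/

namespace Vale.Agent.P092.Lat

open scoped InnerProductSpace ENNReal ComplexConjugate Pointwise
open ContinuousLinearMap Filter Topology MeasureTheory

noncomputable section

variable {G : Type} [Group G] [MeasurableSpace G] [MeasurableMul G]
  (μ : Measure G) [μ.IsMulLeftInvariant] [μ.IsMulRightInvariant]
  {K : Type} [NormedAddCommGroup K] [InnerProductSpace ℂ K] [CompleteSpace K]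

/-- Left translation. -/
def lamOp (g : G) : Lp K 2 μ →L[ℂ] Lp K 2 μ :=
  compOp (fun x => g⁻¹ * x) (measurePreserving_mul_left μ g⁻¹)

omit [μ.IsMulRightInvariant] [CompleteSpace K] in
theorem coeFn_lamOp (g : G) (F : Lp K 2 μ) :
    (lamOp μ g F : G → K) =ᵐ[μ] fun x => F (g⁻¹ * x) :=
  coeFn_compOp _ _ F

/-- Right translation. -/
def rhoOp (g : G) : Lp K 2 μ →L[ℂ] Lp K 2 μ :=
  compOp (fun x => x * g) (measurePreserving_mul_right μ g)

omit [μ.IsMulLeftInvariant] [CompleteSpace K] in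
theorem coeFn_rhoOp (g : G) (F : Lp K 2 μ) :
    (rhoOp μ g F : G → K) =ᵐ[μ] fun x => F (x * g) :=
  coeFn_compOp _ _ F

omit [μ.IsMulRightInvariant] [CompleteSpace K] in
theorem lamOp_one : (lamOp μ 1 : Lp K 2 μ →L[ℂ] Lp K 2 μ) = 1 := by
  ext F : 1
  ext1
  filter_upwards [coeFn_lamOp μ 1 F] with x hx
  rw [hx, inv_one, one_mul]
  rfl

omit [μ.IsMulRightInvariant] [CompleteSpace K] in
theorem lamOp_mul (g k : G) :
    (lamOp μ (g * k) : Lp K 2 μ →L[ℂ] Lp K 2 μ) = lamOp μ g * lamOp μ k := by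
  ext F : 1
  rw [mul_app]
  ext1
  filter_upwards [coeFn_lamOp μ (g * k) F, coeFn_lamOp μ g (lamOp μ k F),
    (measurePreserving_mul_left μ g⁻¹).quasiMeasurePreserving.ae (coeFn_lamOp μ k F)]
    with x h1 h2 h3
  rw [h1, h2, h3, mul_inv_rev, mul_assoc]

variable (K) in
/-- The left regular representation on `L²(G; K)`. -/
def lamRep : G →* unitary (Lp K 2 μ →L[ℂ] Lp K 2 μ) :=
  mkRep (lamOp μ) (lamOp_one μ) (lamOp_mul μ) (fun _ F => norm_compOp _ _ F)

variable (K) in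
omit [μ.IsMulRightInvariant] in
theorem lamRep_apply (g : G) : (lamRep μ K g : Lp K 2 μ →L[ℂ] Lp K 2 μ) = lamOp μ g := rfl

variable {Γ : Subgroup G} (π : Γ →* unitary (K →L[ℂ] K))

/-- The operators `(σ_γ F)(x) = π(γ) F(x γ)`. -/
def sigOp (γ : Γ) : Lp K 2 μ →L[ℂ] Lp K 2 μ :=
  tauOp (π γ : K →L[ℂ] K) * rhoOp μ (γ : G)

omit [μ.IsMulLeftInvariant] in
theorem coeFn_sigOp (γ : Γ) (F : Lp K 2 μ) :
    (sigOp μ π γ F : G → K) =ᵐ[μ] fun x => (π γ : K →L[ℂ] K) (F (x * γ)) := by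
  rw [sigOp, mul_app]
  filter_upwards [coeFn_tauOp (π γ : K →L[ℂ] K) (rhoOp μ (γ : G) F),
    coeFn_rhoOp μ (γ : G) F] with x h1 h2
  rw [h1, h2]

omit [μ.IsMulLeftInvariant] in
theorem sigOp_one : sigOp μ π 1 = 1 := by
  ext F : 1
  ext1
  filter_upwards [coeFn_sigOp μ π 1 F] with x hx
  rw [hx, rep_one, OneMemClass.coe_one, mul_one]
  rfl

omit [μ.IsMulLeftInvariant] in
theorem sigOp_mul (γ δ : Γ) : sigOp μ π (γ * δ) = sigOp μ π γ * sigOp μ π δ := by
  ext F : 1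
  rw [mul_app]
  ext1
  filter_upwards [coeFn_sigOp μ π (γ * δ) F, coeFn_sigOp μ π γ (sigOp μ π δ F),
    (measurePreserving_mul_right μ (γ : G)).quasiMeasurePreserving.ae (coeFn_sigOp μ π δ F)]
    with x h1 h2 h3
  rw [h1, h2, h3, rep_mul, mul_app, Subgroup.coe_mul, mul_assoc]

omit [μ.IsMulLeftInvariant] in
theorem norm_sigOp (γ : Γ) (F : Lp K 2 μ) : ‖sigOp μ π γ F‖ = ‖F‖ := by
  rw [sigOp, mul_app, norm_tauOp _ (rep_norm π γ), rhoOp, norm_compOp]

/-- The representation `(σ_γ F)(x) = π(γ) F(x γ)` of `Γ`. -/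
def sigRep : Γ →* unitary (Lp K 2 μ →L[ℂ] Lp K 2 μ) :=
  mkRep (sigOp μ π) (sigOp_one μ π) (sigOp_mul μ π) (norm_sigOp μ π)

omit [μ.IsMulLeftInvariant] in
theorem sigRep_apply (γ : Γ) : (sigRep μ π γ : Lp K 2 μ →L[ℂ] Lp K 2 μ) = sigOp μ π γ := rfl

/-- The translate of the domain. -/
def tr (D : Set G) (g γ : G) : Set G := {x | g⁻¹ * (x * γ) ∈ D}

theorem measurable_tr (D : Set G) (hD : MeasurableSet D) (g γ : G) :
    MeasurableSet (tr D g γ) :=
  (measurable_const_mul g⁻¹).comp (measurable_mul_const γ) hD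

theorem sigOp_lamOp (g : G) (γ : Γ) (F : Lp K 2 μ) :
    (sigOp μ π γ (lamOp μ g F) : G → K) =ᵐ[μ]
      fun x => (π γ : K →L[ℂ] K) (F (g⁻¹ * (x * γ))) := by
  filter_upwards [coeFn_sigOp μ π γ (lamOp μ g F),
    (measurePreserving_mul_right μ (γ : G)).quasiMeasurePreserving.ae (coeFn_lamOp μ g F)]
    with x h1 h2
  rw [h1, h2]

theorem measurePreserving_tr (g γ : G) : MeasurePreserving (fun x => g⁻¹ * (x * γ)) μ μ :=
  (measurePreserving_mul_left μ g⁻¹).comp (measurePreserving_mul_right μ γ)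

theorem sigOp_lamOp_ind {D : Set G} (hD : MeasurableSet D) (g : G) (γ : Γ) (F : Lp K 2 μ) :
    sigOp μ π γ (lamOp μ g (ind D hD F)) =
      ind (tr D g γ) (measurable_tr D hD g γ) (sigOp μ π γ (lamOp μ g F)) := by
  ext1
  filter_upwards [sigOp_lamOp μ π g γ F, sigOp_lamOp μ π g γ (ind D hD F),
    coeFn_ind _ (measurable_tr D hD g γ) (sigOp μ π γ (lamOp μ g F)),
    (measurePreserving_tr μ g (γ : G)).quasiMeasurePreserving.ae (coeFn_ind D hD F)]
    with x h1 h2 h3 h4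
  rw [h2, h3, h4]
  by_cases hx : g⁻¹ * (x * γ) ∈ D
  · rw [Set.indicator_of_mem hx, Set.indicator_of_mem (show x ∈ tr D g γ from hx), h1]
  · rw [Set.indicator_of_notMem hx, Set.indicator_of_notMem (show x ∉ tr D g γ from hx), map_zero]

theorem cP_eq {D : Set G} (hD : MeasurableSet D) (g : G) (γ : Γ) :
    cP (lamRep μ K) (sigRep μ π) (ind D hD) g γ = ind (tr D g γ) (measurable_tr D hD g γ) := by
  set L : Lp K 2 μ →L[ℂ] Lp K 2 μ := (lamRep μ K g : Lp K 2 μ →L[ℂ] Lp K 2 μ) with hL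
  set L' : Lp K 2 μ →L[ℂ] Lp K 2 μ := (lamRep μ K g⁻¹ : Lp K 2 μ →L[ℂ] Lp K 2 μ) with hL'
  set S : Lp K 2 μ →L[ℂ] Lp K 2 μ := (sigRep μ π γ : Lp K 2 μ →L[ℂ] Lp K 2 μ) with hS
  set S' : Lp K 2 μ →L[ℂ] Lp K 2 μ := (sigRep μ π γ⁻¹ : Lp K 2 μ →L[ℂ] Lp K 2 μ) with hS'
  have hLL : L * L' = 1 := rep_mul_inv (lamRep μ K) g
  have hSS : S * S' = 1 := rep_mul_inv (sigRep μ π) γ
  have h2 : S * L * ind D hD =
      ind (tr D g γ) (measurable_tr D hD g γ) * S * L := by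
    ext F : 1
    exact sigOp_lamOp_ind μ π hD g γ F
  have h3 : S * L * ind D hD * L' * S' = ind (tr D g γ) (measurable_tr D hD g γ) := by
    rw [h2, mul_assoc _ L L', hLL, mul_one, mul_assoc, hSS, mul_one]
  exact h3

/-- The induction data of a lattice. -/
theorem indData {D : Set G} (hD : MeasurableSet D) [Countable Γ]
    (hfd : IsFundamentalDomain Γ.op D μ) :
    IndData (lamRep μ K) (sigRep μ π) (ind D hD) where
  comm g γ := by
    ext F : 1
    change lamOp μ g (sigOp μ π γ F) = sigOp μ π γ (lamOp μ g F)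
    ext1
    filter_upwards [sigOp_lamOp μ π g γ F, coeFn_lamOp μ g (sigOp μ π γ F),
      (measurePreserving_mul_left μ g⁻¹).quasiMeasurePreserving.ae (coeFn_sigOp μ π γ F)]
      with x h1 h2 h3
    rw [h1, h2, h3, mul_assoc]
  idem := by
    rw [ind_mul_ind]
    congr 1
    exact Set.inter_self D
  sa := adjoint_ind D hD
  orth γ hγ := by
    ext F : 1
    change ind D hD (sigOp μ π γ (ind D hD F)) = 0
    have hdis : ∀ᵐ x ∂μ, ¬ (x ∈ D ∧ x * γ ∈ D) := by
      have h1 := hfd.aedisjoint (i := (⟨MulOpposite.op (γ : G)⁻¹, by simp⟩ : Γ.op))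
        (j := (1 : Γ.op)) (by
          intro h
          apply hγ
          have h2 := congrArg (fun z : Γ.op => (MulOpposite.unop (z : Gᵐᵒᵖ))⁻¹) h
          simp only [MulOpposite.unop_op, inv_inv, OneMemClass.coe_one, MulOpposite.unop_one,
            inv_one] at h2
          exact_mod_cast h2)
      rw [Function.onFun, AEDisjoint, one_smul] at h1
      rw [← compl_mem_ae_iff] at h1
      filter_upwards [h1] with x hx
      intro hx2
      apply hx
      refine ⟨⟨x * γ, hx2.2, ?_⟩, hx2.1⟩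
      change (x * γ) * (γ : G)⁻¹ = x
      rw [mul_inv_cancel_right]
    ext1
    refine EventuallyEq.trans ?_ (Lp.coeFn_zero _ _ _).symm
    filter_upwards [hdis, coeFn_ind D hD (sigOp μ π γ (ind D hD F)),
      coeFn_sigOp μ π γ (ind D hD F),
      (measurePreserving_mul_right μ (γ : G)).quasiMeasurePreserving.ae (coeFn_ind D hD F)]
      with x h1 h2 h3 h4
    rw [h2, Pi.zero_apply]
    by_cases hx : x ∈ D
    · rw [Set.indicator_of_mem hx, h3, h4, Set.indicator_of_notMem fun h => h1 ⟨hx, h⟩, map_zero]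
    · rw [Set.indicator_of_notMem hx]
  total F := by
    rw [enorm_sq_eq F]
    have h1 := hfd.lintegral_eq_tsum'' (fun x => ‖F x‖ₑ ^ 2)
    rw [h1, ← Γ.equivOp.tsum_eq]
    refine tsum_congr fun γ => ?_
    change ‖ind D hD (sigOp μ π γ F)‖ₑ ^ 2 = ∫⁻ x in D, ‖F (x * γ)‖ₑ ^ 2 ∂μ
    rw [enorm_ind_sq]
    refine setLIntegral_congr_fun_ae hD ?_
    filter_upwards [coeFn_sigOp μ π γ F] with x hx _
    rw [hx, rep_enorm]
  commP g γ g' γ' := by
    rw [cP_eq, cP_eq]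
    exact commute_ind _ _ _ _

end

end Vale.Agent.P092.Lat
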