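import Vale.Agent.P092.H184.LatOps

/-!
# Induced representations: continuity and almost invariant vectors
-/

namespace Vale.Agent.P092.Lat

open scoped InnerProductSpace ENNReal ComplexConjugate Pointwise
open ContinuousLinearMap Filter Topology MeasureTheory

noncomputable section

section mes

variable {G : Type} [Group G] [MeasurableSpace G] [MeasurableMul G]
  (μ : Measure G) [μ.IsMulLeftInvariant] [μ.IsMulRightInvariant]
  {K : Type} [NormedAddCommGroup K] [InnerProductSpace ℂ K] [CompleteSpace K]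
  {Γ : Subgroup G} (π : Γ →* unitary (K →L[ℂ] K))

/-- The measure of the intersection of the domain with a translate. -/
def mass (D : Set G) (g γ : G) : ℝ≥0∞ := μ (D ∩ tr D g γ)

theorem coeFn_opA_v {D : Set G} (hD : MeasurableSet D) (hμ : μ D ≠ ∞) (g : G) (γ : Γ) (ξ : K) :
    (opA (lamRep μ K) (sigRep μ π) (ind D hD) g γ (indicatorConstLp 2 hD hμ ξ) : G → K) =ᵐ[μ]
      (D ∩ tr D g γ).indicator fun _ => (π γ : K →L[ℂ] K) ξ := by
  have e : opA (lamRep μ K) (sigRep μ π) (ind D hD) g γ (indicatorConstLp 2 hD hμ ξ) =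
      ind D hD (sigOp μ π γ (lamOp μ g (ind D hD (indicatorConstLp 2 hD hμ ξ)))) := rfl
  rw [e]
  filter_upwards [coeFn_ind D hD (sigOp μ π γ (lamOp μ g (ind D hD (indicatorConstLp 2 hD hμ ξ)))),
    sigOp_lamOp μ π g γ (ind D hD (indicatorConstLp 2 hD hμ ξ)),
    (measurePreserving_tr μ g (γ : G)).quasiMeasurePreserving.ae
      (coeFn_ind D hD (indicatorConstLp 2 hD hμ ξ)),
    (measurePreserving_tr μ g (γ : G)).quasiMeasurePreserving.ae
      (indicatorConstLp_coeFn (p := 2) (hs := hD) (hμs := hμ) (c := ξ))]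
    with x h1 h2 h3 h4
  rw [h1]
  by_cases hx : x ∈ D
  · rw [Set.indicator_of_mem hx, h2, h3]
    by_cases hy : g⁻¹ * (x * γ) ∈ D
    · rw [Set.indicator_of_mem hy, h4, Set.indicator_of_mem hy,
        Set.indicator_of_mem (show x ∈ D ∩ tr D g γ from ⟨hx, hy⟩)]
    · rw [Set.indicator_of_notMem hy, Set.indicator_of_notMem (fun h => hy h.2), map_zero]
  · rw [Set.indicator_of_notMem hx, Set.indicator_of_notMem (fun h => hx h.1)]

theorem coeFn_cP_v {D : Set G} (hD : MeasurableSet D) (hμ : μ D ≠ ∞) (g : G) (γ : Γ) (ξ : K) :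
    (cP (lamRep μ K) (sigRep μ π) (ind D hD) g γ (indicatorConstLp 2 hD hμ ξ) : G → K) =ᵐ[μ]
      (D ∩ tr D g γ).indicator fun _ => ξ := by
  rw [cP_eq]
  filter_upwards [coeFn_ind _ (measurable_tr D hD g γ) (indicatorConstLp 2 hD hμ ξ),
    (indicatorConstLp_coeFn (p := 2) (hs := hD) (hμs := hμ) (c := ξ))] with x h1 h2
  rw [h1, ← Set.indicator_indicator, Set.indicator_indicator, Set.inter_comm,
    ← Set.indicator_indicator]
  by_cases hx : x ∈ tr D g γ
  · rw [Set.indicator_of_mem hx, Set.indicator_of_mem hx, h2]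
  · rw [Set.indicator_of_notMem hx, Set.indicator_of_notMem hx]

omit [Group G] [MeasurableMul G] [μ.IsMulLeftInvariant] [μ.IsMulRightInvariant]
  [InnerProductSpace ℂ K] [CompleteSpace K] in
theorem lintegral_indicator_const_sq {B : Set G} (hB : MeasurableSet B) (c : K) (F : Lp K 2 μ)
    (hF : (F : G → K) =ᵐ[μ] B.indicator fun _ => c) : ‖F‖ₑ ^ 2 = μ B * ‖c‖ₑ ^ 2 := by
  rw [enorm_sq_eq]
  have h1 : ∫⁻ x, ‖F x‖ₑ ^ 2 ∂μ = ∫⁻ x, B.indicator (fun _ => ‖c‖ₑ ^ 2) x ∂μ := by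
    refine lintegral_congr_ae ?_
    filter_upwards [hF] with x hx
    rw [hx]
    by_cases h : x ∈ B
    · rw [Set.indicator_of_mem h, Set.indicator_of_mem h]
    · rw [Set.indicator_of_notMem h, Set.indicator_of_notMem h, enorm_zero]
      simp
  rw [h1, lintegral_indicator hB, setLIntegral_const, mul_comm]

omit [Group G] [MeasurableMul G] [μ.IsMulLeftInvariant] [μ.IsMulRightInvariant]
  [InnerProductSpace ℂ K] [CompleteSpace K] in
theorem enorm_v {D : Set G} (hD : MeasurableSet D) (hμ : μ D ≠ ∞) (ξ : K) :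
    ‖(indicatorConstLp 2 hD hμ ξ : Lp K 2 μ)‖ₑ ^ 2 = μ D * ‖ξ‖ₑ ^ 2 :=
  lintegral_indicator_const_sq μ hD ξ _ indicatorConstLp_coeFn

theorem enorm_opA_v {D : Set G} (hD : MeasurableSet D) (hμ : μ D ≠ ∞) (g : G) (γ : Γ) (ξ : K) :
    ‖opA (lamRep μ K) (sigRep μ π) (ind D hD) g γ (indicatorConstLp 2 hD hμ ξ)‖ₑ ^ 2 =
      mass μ D g γ * ‖ξ‖ₑ ^ 2 := by
  rw [lintegral_indicator_const_sq μ (hD.inter (measurable_tr D hD g γ)) _ _
    (coeFn_opA_v μ π hD hμ g γ ξ), rep_enorm, mass]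

theorem enorm_sub_v {D : Set G} (hD : MeasurableSet D) (hμ : μ D ≠ ∞) (g : G) (γ : Γ) (ξ : K) :
    ‖opA (lamRep μ K) (sigRep μ π) (ind D hD) g γ (indicatorConstLp 2 hD hμ ξ) -
        cP (lamRep μ K) (sigRep μ π) (ind D hD) g γ (indicatorConstLp 2 hD hμ ξ)‖ₑ ^ 2 =
      mass μ D g γ * ‖(π γ : K →L[ℂ] K) ξ - ξ‖ₑ ^ 2 := by
  rw [mass]
  refine lintegral_indicator_const_sq μ (hD.inter (measurable_tr D hD g γ)) _ _ ?_
  filter_upwards [coeFn_opA_v μ π hD hμ g γ ξ, coeFn_cP_v μ π hD hμ g γ ξ, Lp.coeFn_sub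
    (opA (lamRep μ K) (sigRep μ π) (ind D hD) g γ (indicatorConstLp 2 hD hμ ξ))
    (cP (lamRep μ K) (sigRep μ π) (ind D hD) g γ (indicatorConstLp 2 hD hμ ξ))] with x h1 h2 h3
  rw [h3, Pi.sub_apply, h1, h2]
  by_cases hx : x ∈ D ∩ tr D g γ
  · rw [Set.indicator_of_mem hx, Set.indicator_of_mem hx, Set.indicator_of_mem hx]
  · rw [Set.indicator_of_notMem hx, Set.indicator_of_notMem hx, Set.indicator_of_notMem hx,
      sub_zero]

omit [Group G] [MeasurableMul G] [μ.IsMulLeftInvariant] [μ.IsMulRightInvariant]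
  [CompleteSpace K] in
theorem ind_v {D : Set G} (hD : MeasurableSet D) (hμ : μ D ≠ ∞) (ξ : K) :
    ind D hD (indicatorConstLp 2 hD hμ ξ) = (indicatorConstLp 2 hD hμ ξ : Lp K 2 μ) := by
  ext1
  filter_upwards [coeFn_ind D hD (indicatorConstLp 2 hD hμ ξ),
    (indicatorConstLp_coeFn (p := 2) (hs := hD) (hμs := hμ) (c := ξ))] with x h1 h2
  rw [h1, h2]
  by_cases h : x ∈ D
  · rw [Set.indicator_of_mem h, h2]
  · rw [Set.indicator_of_notMem h, Set.indicator_of_notMem h]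

/-- The distance of `1_D ξ` to its translates. -/
theorem enorm_indFun_v {D : Set G} (hD : MeasurableSet D) (hμ : μ D ≠ ∞) [Countable Γ]
    (hfd : IsFundamentalDomain Γ.op D μ) (g : G) (ξ : K) :
    ‖(indData μ π hD hfd).indFun g (indicatorConstLp 2 hD hμ ξ) - indicatorConstLp 2 hD hμ ξ‖ₑ ^ 2 =
      ∑' γ : Γ, mass μ D g γ * ‖(π γ : K →L[ℂ] K) ξ - ξ‖ₑ ^ 2 := by
  rw [(indData μ π hD hfd).enorm_indFun_sub g]
  exact tsum_congr fun γ => enorm_sub_v μ π hD hμ g γ ξ

/-- The trivial representation of `Γ`. -/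
def trivRep (Γ : Subgroup G) : Γ →* unitary (ℂ →L[ℂ] ℂ) := 1

theorem tsum_mass {D : Set G} (hD : MeasurableSet D) (hμ : μ D ≠ ∞) [Countable Γ]
    (hfd : IsFundamentalDomain Γ.op D μ) (g : G) : ∑' γ : Γ, mass μ D g γ = μ D := by
  have h1 := (indData μ (trivRep Γ) hD hfd).tsum_opA g (indicatorConstLp 2 hD hμ (1 : ℂ))
  rw [ind_v, enorm_v] at h1
  simp only [enorm_opA_v, enorm_one, one_pow, mul_one] at h1
  exact h1

end mes

variable {G : Type} [Group G] [TopologicalSpace G] [IsTopologicalGroup G] [LocallyCompactSpace G]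
  [SecondCountableTopology G] [T2Space G] [MeasurableSpace G] [BorelSpace G]
  (μ : Measure G) [IsFiniteMeasureOnCompacts μ] [μ.IsMulLeftInvariant] [μ.IsMulRightInvariant]
  {K : Type} [NormedAddCommGroup K] [InnerProductSpace ℂ K] [CompleteSpace K]

omit [μ.IsMulRightInvariant] [CompleteSpace K] in
theorem continuous_lamOp (F : Lp K 2 μ) : Continuous fun g : G => lamOp μ g F := by
  have : IsLocallyFiniteMeasure μ := isLocallyFiniteMeasure_of_isFiniteMeasureOnCompacts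
  let _ : PseudoEMetricSpace G := (TopologicalSpace.metrizableSpaceMetric G).toPseudoEMetricSpace
  have hc : Continuous (fun g : G => (⟨fun x => g⁻¹ * x, by fun_prop⟩ : C(G, G))) := by
    refine ContinuousMap.continuous_of_continuous_uncurry _ ?_
    change Continuous fun p : G × G => p.1⁻¹ * p.2
    fun_prop
  exact Continuous.compMeasurePreservingLp (f := fun _ : G => F) continuous_const hc
    (fun g => measurePreserving_mul_left μ g⁻¹) (by simp)

variable {Γ : Subgroup G}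

theorem continuous_mass {D : Set G} (hD : MeasurableSet D) (hμ : μ D ≠ ∞) (γ : Γ) :
    Continuous fun g : G => mass μ D g γ := by
  have h1 : ∀ g : G, mass μ D g γ = ‖opA (lamRep μ ℂ) (sigRep μ (trivRep Γ)) (ind D hD) g γ
      (indicatorConstLp 2 hD hμ (1 : ℂ))‖ₑ ^ 2 := by
    intro g
    rw [enorm_opA_v, enorm_one, one_pow, mul_one]
  simp only [h1]
  have h2 : Continuous fun g : G => opA (lamRep μ ℂ) (sigRep μ (trivRep Γ)) (ind D hD) g γ
      (indicatorConstLp 2 hD hμ (1 : ℂ)) := by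
    have e : ∀ g : G, opA (lamRep μ ℂ) (sigRep μ (trivRep Γ)) (ind D hD) g γ
      (indicatorConstLp 2 hD hμ (1 : ℂ)) = ind D hD (sigOp μ (trivRep Γ) γ (lamOp μ g
        (ind D hD (indicatorConstLp 2 hD hμ (1 : ℂ))))) := fun g => rfl
    simp only [e]
    exact (ind D hD).continuous.comp ((sigOp μ (trivRep Γ) γ).continuous.comp
      (continuous_lamOp μ _))
  exact (ENNReal.continuous_pow 2).comp h2.enorm

/-- Uniform tails over a compact set. -/
theorem exists_tail {D : Set G} (hD : MeasurableSet D) (hμ : μ D ≠ ∞) [Countable Γ]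
    (hfd : IsFundamentalDomain Γ.op D μ) {Q : Set G} (hQ : IsCompact Q) {η : ℝ≥0∞} (hη : η ≠ 0) :
    ∃ S : Finset Γ, ∀ g ∈ Q, μ D ≤ ∑ γ ∈ S, mass μ D g γ + η := by
  by_cases h0 : μ D = 0
  · exact ⟨∅, fun g _ => by rw [h0]; exact zero_le⟩
  refine hQ.induction_on (p := fun s => ∃ S : Finset Γ, ∀ g ∈ s,
    μ D ≤ ∑ γ ∈ S, mass μ D g γ + η) ?_ ?_ ?_ ?_
  · exact ⟨∅, fun g hg => hg.elim⟩
  · rintro s t hst ⟨S, hS⟩
    exact ⟨S, fun g hg => hS g (hst hg)⟩
  · classical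
    rintro s t ⟨S, hS⟩ ⟨T, hT⟩
    refine ⟨S ∪ T, fun g hg => ?_⟩
    rcases hg with hg | hg
    · exact (hS g hg).trans (add_le_add_left
        (Finset.sum_le_sum_of_subset Finset.subset_union_left) _)
    · exact (hT g hg).trans (add_le_add_left
        (Finset.sum_le_sum_of_subset Finset.subset_union_right) _)
  · intro g _
    have h1 : HasSum (fun γ : Γ => mass μ D g γ) (μ D) := by
      rw [← tsum_mass μ hD hμ hfd g]
      exact ENNReal.summable.hasSum
    have h2 : Tendsto (fun S : Finset Γ => ∑ γ ∈ S, mass μ D g γ + η) atTop (𝓝 (μ D + η)) :=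
      Tendsto.add h1 tendsto_const_nhds
    have h3 : μ D < μ D + η := ENNReal.lt_add_right hμ hη
    obtain ⟨S, hS⟩ := (h2.eventually (lt_mem_nhds h3)).exists
    have h4 : Continuous fun g' : G => ∑ γ ∈ S, mass μ D g' γ + η :=
      (continuous_finsetSum S fun γ _ => continuous_mass μ hD hμ γ).add continuous_const
    have h5 : ∀ᶠ g' in 𝓝 g, μ D < ∑ γ ∈ S, mass μ D g' γ + η :=
      h4.continuousAt.eventually (lt_mem_nhds hS)
    exact ⟨{g' | μ D < ∑ γ ∈ S, mass μ D g' γ + η}, mem_nhdsWithin_of_mem_nhds h5, S,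
      fun g' hg' => le_of_lt hg'⟩

end

end Vale.Agent.P092.Lat
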