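import Mathlib

/-!
# Monotone limits of operators and normality of `*`-isomorphisms on bounded sets
-/

namespace Vale.Agent.P092

open scoped InnerProductSpace ComplexConjugate
open ContinuousLinearMap Filter Topology

noncomputable section

section vs

variable {H : Type} [NormedAddCommGroup H] [InnerProductSpace ℂ H] [CompleteSpace H]

/-- The (real part of the) vector functional `x ↦ ⟨ξ, x ξ⟩`. -/
def vs (ξ : H) (x : H →L[ℂ] H) : ℝ := RCLike.re ⟪ξ, x ξ⟫_ℂ

omit [CompleteSpace H] in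
theorem vs_add (ξ : H) (x y : H →L[ℂ] H) : vs ξ (x + y) = vs ξ x + vs ξ y := by
  simp [vs]

omit [CompleteSpace H] in
theorem vs_sub (ξ : H) (x y : H →L[ℂ] H) : vs ξ (x - y) = vs ξ x - vs ξ y := by
  simp [vs]

omit [CompleteSpace H] in
theorem vs_smul (ξ : H) (c : ℝ) (x : H →L[ℂ] H) : vs ξ ((c : ℂ) • x) = c * vs ξ x := by
  simp [vs]

omit [CompleteSpace H] in
theorem vs_nonneg (ξ : H) {x : H →L[ℂ] H} (h : 0 ≤ x) : 0 ≤ vs ξ x :=
  ((ContinuousLinearMap.nonneg_iff_isPositive x).1 h).re_inner_nonneg_right ξ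

theorem vs_mono (ξ : H) {x y : H →L[ℂ] H} (h : x ≤ y) : vs ξ x ≤ vs ξ y := by
  have := vs_nonneg ξ (sub_nonneg.2 h)
  rw [vs_sub] at this
  linarith

omit [CompleteSpace H] in
theorem vs_one (ξ : H) : vs ξ (1 : H →L[ℂ] H) = ‖ξ‖ ^ 2 := by
  simp only [vs, one_apply_eq_self]
  exact inner_self_eq_norm_sq ξ

theorem norm_sq_le_vs {x : H →L[ℂ] H} (h0 : 0 ≤ x) (h1 : x ≤ 1) (v : H) :
    ‖x v‖ ^ 2 ≤ vs v x := by
  have p0 := (ContinuousLinearMap.nonneg_iff_isPositive x).1 h0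
  have h2 : 0 ≤ vs (x v) (1 - x) := vs_nonneg _ (sub_nonneg.2 h1)
  have h3 : 0 ≤ vs (v - x v) x := vs_nonneg _ h0
  have h4 : ⟪v, x (x v)⟫_ℂ = ⟪x v, x v⟫_ℂ := (p0.inner_left_eq_inner_right v (x v)).symm
  have h5 : RCLike.re ⟪x v, x v⟫_ℂ = ‖x v‖ ^ 2 := inner_self_eq_norm_sq _
  have h6 : (1 - x) (x v) = x v - x (x v) := rfl
  rw [vs, h6, inner_sub_right, map_sub] at h2
  rw [vs, map_sub, inner_sub_left, inner_sub_right, inner_sub_right, map_sub, map_sub, map_sub,
    h4] at h3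
  rw [vs]
  linarith

theorem vs_star_mul (ξ : H) (x : H →L[ℂ] H) : vs ξ (star x * x) = ‖x ξ‖ ^ 2 := by
  rw [vs]
  change RCLike.re ⟪ξ, adjoint x (x ξ)⟫_ℂ = _
  rw [adjoint_inner_right]
  exact inner_self_eq_norm_sq _

omit [CompleteSpace H] in
theorem tendsto_vs {x : ℕ → H →L[ℂ] H} {y : H →L[ℂ] H} {v : H}
    (h : Tendsto (fun k => x k v) atTop (𝓝 (y v))) :
    Tendsto (fun k => vs v (x k)) atTop (𝓝 (vs v y)) := by
  have h1 : Tendsto (fun k => ⟪v, x k v⟫_ℂ) atTop (𝓝 ⟪v, y v⟫_ℂ) := tendsto_const_nhds.inner h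
  exact (RCLike.continuous_re.tendsto _).comp h1

/-- Bounded increasing sequences of operators converge strongly. -/
theorem exists_lim_of_mono {x : ℕ → H →L[ℂ] H} (hx : Monotone x) (h0 : ∀ k, 0 ≤ x k)
    (h1 : ∀ k, x k ≤ 1) :
    ∃ y : H →L[ℂ] H, ∀ v, Tendsto (fun k => x k v) atTop (𝓝 (y v)) := by
  have hle : ∀ v {m n : ℕ}, m ≤ n → ‖x n v - x m v‖ ^ 2 ≤ vs v (x n) - vs v (x m) := by
    intro v m n hmn
    have h2 : 0 ≤ x n - x m := sub_nonneg.2 (hx hmn)
    have h3 : x n - x m ≤ 1 := (sub_le_self _ (h0 m)).trans (h1 n)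
    have h4 := norm_sq_le_vs h2 h3 v
    rw [vs_sub] at h4
    exact h4
  have hc : ∀ v, CauchySeq fun k => x k v := by
    intro v
    have hm : Monotone fun k => vs v (x k) := fun m n hmn => vs_mono v (hx hmn)
    have hb : BddAbove (Set.range fun k => vs v (x k)) := by
      refine ⟨vs v 1, ?_⟩
      rintro _ ⟨k, rfl⟩
      exact vs_mono v (h1 k)
    have ht := (tendsto_atTop_ciSup hm hb).cauchySeq
    rw [Metric.cauchySeq_iff'] at ht ⊢
    intro ε hε
    obtain ⟨N, hN⟩ := ht (ε ^ 2) (by positivity)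
    refine ⟨N, fun n hn => ?_⟩
    have h2 := hN n hn
    rw [Real.dist_eq] at h2
    have h3 := (hle v hn).trans_lt ((le_abs_self _).trans_lt h2)
    rw [dist_eq_norm]
    exact lt_of_pow_lt_pow_left₀ 2 hε.le h3
  choose f hf using fun v => cauchySeq_tendsto_of_complete (hc v)
  refine ⟨continuousLinearMapOfTendsto x (f := f) (tendsto_pi_nhds.2 hf), fun v => hf v⟩

omit [CompleteSpace H] in
theorem nonneg_of_tendsto_op {x : ℕ → H →L[ℂ] H} {y : H →L[ℂ] H}
    (h : ∀ v, Tendsto (fun k => x k v) atTop (𝓝 (y v))) (hx : ∀ᶠ k in atTop, 0 ≤ x k) :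
    0 ≤ y := by
  rw [ContinuousLinearMap.nonneg_iff_isPositive, ContinuousLinearMap.isPositive_iff_complex]
  intro v
  have h1 : Tendsto (fun k => ⟪x k v, v⟫_ℂ) atTop (𝓝 ⟪y v, v⟫_ℂ) := (h v).inner tendsto_const_nhds
  have hcl : IsClosed {c : ℂ | ((RCLike.re c : ℝ) : ℂ) = c ∧ 0 ≤ RCLike.re c} := by
    refine IsClosed.inter ?_ ?_
    · exact isClosed_eq (Complex.continuous_ofReal.comp RCLike.continuous_re) continuous_id
    · exact isClosed_le continuous_const RCLike.continuous_re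
  refine hcl.mem_of_tendsto h1 (hx.mono fun k hk => ?_)
  rw [ContinuousLinearMap.nonneg_iff_isPositive, ContinuousLinearMap.isPositive_iff_complex] at hk
  exact hk v

theorem op_le_of_tendsto {x : ℕ → H →L[ℂ] H} {y z : H →L[ℂ] H}
    (h : ∀ v, Tendsto (fun k => x k v) atTop (𝓝 (y v))) (hx : ∀ᶠ k in atTop, x k ≤ z) : y ≤ z := by
  refine sub_nonneg.1 (nonneg_of_tendsto_op (x := fun k => z - x k) (fun v => ?_)
    (hx.mono fun k hk => sub_nonneg.2 hk))
  exact tendsto_const_nhds.sub (h v)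

theorem op_ge_of_tendsto {x : ℕ → H →L[ℂ] H} {y z : H →L[ℂ] H}
    (h : ∀ v, Tendsto (fun k => x k v) atTop (𝓝 (y v))) (hx : ∀ᶠ k in atTop, z ≤ x k) : z ≤ y := by
  refine sub_nonneg.1 (nonneg_of_tendsto_op (x := fun k => x k - z) (fun v => ?_)
    (hx.mono fun k hk => sub_nonneg.2 hk))
  exact (h v).sub tendsto_const_nhds

omit [CompleteSpace H] in
theorem smul_nonneg_real {c : ℝ} (hc : 0 ≤ c) {x : H →L[ℂ] H} (hx : 0 ≤ x) :
    0 ≤ (c : ℂ) • x := by
  rw [ContinuousLinearMap.nonneg_iff_isPositive] at hx ⊢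
  exact hx.smul_of_nonneg (by exact_mod_cast hc)

end vs

section resolvent

variable {H : Type} [NormedAddCommGroup H] [InnerProductSpace ℂ H] [CompleteSpace H]

/-- `(1 + S)⁻¹`. -/
def res (S : H →L[ℂ] H) : H →L[ℂ] H := Ring.inverse (1 + S)

theorem isStrictlyPositive_one_add {S : H →L[ℂ] H} (hS : 0 ≤ S) : IsStrictlyPositive (1 + S) :=
  isStrictlyPositive_one.add_nonneg hS

theorem res_mul {S : H →L[ℂ] H} (hS : 0 ≤ S) : res S * (1 + S) = 1 :=
  Ring.inverse_mul_cancel _ (isStrictlyPositive_one_add hS).isUnit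

theorem mul_res {S : H →L[ℂ] H} (hS : 0 ≤ S) : (1 + S) * res S = 1 :=
  Ring.mul_inverse_cancel _ (isStrictlyPositive_one_add hS).isUnit

theorem res_anti {S T : H →L[ℂ] H} (hS : 0 ≤ S) (hST : S ≤ T) : res T ≤ res S :=
  CStarAlgebra.antitoneOn_ringInverse (isStrictlyPositive_one_add hS)
    (isStrictlyPositive_one_add (hS.trans hST)) (add_le_add_right hST 1)

omit [CompleteSpace H] in
theorem res_zero : res (0 : H →L[ℂ] H) = 1 := by
  rw [res, add_zero, Ring.inverse_one]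

theorem res_le_one {S : H →L[ℂ] H} (hS : 0 ≤ S) : res S ≤ 1 := by
  rw [← res_zero]
  exact res_anti le_rfl hS

omit [CompleteSpace H] in
theorem commute_res {S c : H →L[ℂ] H} (h : Commute S c) : Commute (res S) c := by
  have h1 : Commute (1 + S) c := (Commute.one_left c).add_left h
  rw [res]
  by_cases hu : IsUnit (1 + S)
  · obtain ⟨u, hu⟩ := hu
    rw [← hu] at h1 ⊢
    rw [Ring.inverse_unit]
    exact h1.units_inv_left
  · rw [Ring.inverse_non_unit _ hu]
    exact Commute.zero_left c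

theorem isSelfAdjoint_res {S : H →L[ℂ] H} (hS : 0 ≤ S) : star (res S) = res S := by
  have h1 : star (1 + S) = 1 + S := by
    rw [star_add, star_one, (IsSelfAdjoint.of_nonneg hS).star_eq]
  have h2 : star (res S) * (1 + S) = 1 := by
    have h := congrArg star (mul_res hS)
    rwa [star_mul, star_one, h1] at h
  calc star (res S) = star (res S) * ((1 + S) * res S) := by rw [mul_res hS, mul_one]
    _ = res S := by rw [← mul_assoc, h2, one_mul]

theorem res_nonneg {S : H →L[ℂ] H} (hS : 0 ≤ S) : 0 ≤ res S := by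
  have h : res S = res S * (1 + S) * star (res S) := by
    rw [res_mul hS, isSelfAdjoint_res hS, one_mul]
  rw [h]
  exact star_right_conjugate_nonneg (isStrictlyPositive_one_add hS).nonneg _

/-- `1 - S ≤ (1 + S)⁻¹`. -/
theorem one_sub_le_res {S : H →L[ℂ] H} (hS : 0 ≤ S) : 1 - S ≤ res S := by
  have hc : Commute (res S) S := commute_res (Commute.refl S)
  have h : res S - (1 - S) = star S * res S * S := by
    rw [(IsSelfAdjoint.of_nonneg hS).star_eq]
    have h1 : res S * (1 + S) * (1 - S) = 1 - S := by rw [res_mul hS, one_mul]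
    have h2 : S * res S * S = res S * (S * S) := by rw [← hc.eq, mul_assoc]
    rw [h2]
    calc res S - (1 - S) = res S - res S * (1 + S) * (1 - S) := by rw [h1]
      _ = res S * (S * S) := by noncomm_ring
  rw [← sub_nonneg, h]
  exact star_left_conjugate_nonneg (res_nonneg hS) _

/-- `(1 + x)⁻¹ ≤ 1 - x / 2` for `0 ≤ x ≤ 1`. -/
theorem res_le_of_le_one {x : H →L[ℂ] H} (hx : 0 ≤ x) (hx1 : x ≤ 1) :
    res x ≤ 1 - (((1 / 2 : ℝ) : ℂ)) • x := by
  have hc : Commute (res x) x := commute_res (Commute.refl x)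
  have hp : 0 ≤ x - x * x := by
    have h : x - x * x = (1 - x) * x := by noncomm_ring
    rw [h]
    exact Commute.mul_nonneg (sub_nonneg.2 hx1) hx ((Commute.one_left x).sub_left (Commute.refl x))
  have h : 1 - (((1 / 2 : ℝ) : ℂ)) • x - res x = (((1 / 2 : ℝ) : ℂ)) • (res x * (x - x * x)) := by
    have h1 : res x * (1 + x) * (1 - (((1 / 2 : ℝ) : ℂ)) • x) = 1 - (((1 / 2 : ℝ) : ℂ)) • x := by
      rw [res_mul hx, one_mul]
    rw [← h1]
    have h2 : (1 + x) * (1 - (((1 / 2 : ℝ) : ℂ)) • x) =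
        1 + (((1 / 2 : ℝ) : ℂ)) • (x - x * x) := by
      have h3 : x = (((1 / 2 : ℝ) : ℂ)) • x + (((1 / 2 : ℝ) : ℂ)) • x := by
        rw [← add_smul]
        norm_num
      rw [mul_sub, mul_one, mul_smul_comm, add_mul, one_mul, smul_add, smul_sub]
      nth_rewrite 1 [h3]
      abel
    rw [mul_assoc, h2, mul_add, mul_one, mul_smul_comm]
    abel
  rw [← sub_nonneg, h]
  exact smul_nonneg_real (by norm_num)
    (Commute.mul_nonneg (res_nonneg hx) hp (hc.sub_right (hc.mul_right hc)))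

end resolvent

section commutant

variable {H : Type} [NormedAddCommGroup H] [InnerProductSpace ℂ H] [CompleteSpace H]
  {C : Set (H →L[ℂ] H)}

theorem mem_comm_iff {z : H →L[ℂ] H} :
    z ∈ StarSubalgebra.centralizer ℂ C ↔ ∀ g ∈ C, Commute z g ∧ Commute z (star g) := by
  rw [StarSubalgebra.mem_centralizer_iff]
  exact forall₂_congr fun g _ => ⟨fun h => ⟨h.1.symm, h.2.symm⟩, fun h => ⟨h.1.symm, h.2.symm⟩⟩

theorem res_mem {S : H →L[ℂ] H} (hS : S ∈ StarSubalgebra.centralizer ℂ C) :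
    res S ∈ StarSubalgebra.centralizer ℂ C := by
  rw [mem_comm_iff] at hS ⊢
  exact fun g hg => ⟨commute_res (hS g hg).1, commute_res (hS g hg).2⟩

theorem commute_sqrt {x c : H →L[ℂ] H} (h : Commute x c) : Commute (CFC.sqrt x) c := by
  rw [CFC.sqrt]
  exact h.cfcₙ_nnreal _

theorem exists_sqrt_mem {x : H →L[ℂ] H} (hx : x ∈ StarSubalgebra.centralizer ℂ C) (h0 : 0 ≤ x) :
    ∃ y ∈ StarSubalgebra.centralizer ℂ C, 0 ≤ y ∧ y * y = x := by
  rw [mem_comm_iff] at hx
  refine ⟨CFC.sqrt x, ?_, CFC.sqrt_nonneg x, CFC.sqrt_mul_sqrt_self x h0⟩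
  rw [mem_comm_iff]
  exact fun g hg => ⟨commute_sqrt (hx g hg).1, commute_sqrt (hx g hg).2⟩

omit [CompleteSpace H] in
theorem commute_of_tendsto {x : ℕ → H →L[ℂ] H} {y c : H →L[ℂ] H}
    (h : ∀ v, Tendsto (fun k => x k v) atTop (𝓝 (y v))) (hc : ∀ k, Commute (x k) c) :
    Commute y c := by
  refine ContinuousLinearMap.ext fun v => ?_
  change y (c v) = c (y v)
  have h1 := h (c v)
  have h2 : Tendsto (fun k => c (x k v)) atTop (𝓝 (c (y v))) := (c.continuous.tendsto _).comp (h v)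
  refine tendsto_nhds_unique h1 (h2.congr fun k => ?_)
  exact (congrArg (fun T : H →L[ℂ] H => T v) (hc k).eq).symm

theorem lim_mem {x : ℕ → H →L[ℂ] H} {y : H →L[ℂ] H}
    (h : ∀ v, Tendsto (fun k => x k v) atTop (𝓝 (y v)))
    (hx : ∀ k, x k ∈ StarSubalgebra.centralizer ℂ C) : y ∈ StarSubalgebra.centralizer ℂ C := by
  simp only [mem_comm_iff] at hx ⊢
  exact fun g hg => ⟨commute_of_tendsto h fun k => (hx k g hg).1,
    commute_of_tendsto h fun k => (hx k g hg).2⟩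

end commutant

section normal

variable {H K : Type} [NormedAddCommGroup H] [InnerProductSpace ℂ H] [CompleteSpace H]
  [NormedAddCommGroup K] [InnerProductSpace ℂ K] [CompleteSpace K]
  {C : Set (H →L[ℂ] H)} {C' : Set (K →L[ℂ] K)} {P : K →L[ℂ] K}
  (Ψ : (StarSubalgebra.centralizer ℂ C) →⋆ₙₐ[ℂ] (K →L[ℂ] K))

/-- `Ψ` preserves positivity. -/
theorem map_nonneg_of (x : StarSubalgebra.centralizer ℂ C) (hx : 0 ≤ (x : H →L[ℂ] H)) :
    0 ≤ Ψ x := by
  obtain ⟨y, hy, hy0, hyx⟩ := exists_sqrt_mem x.2 hx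
  have hsa : star (⟨y, hy⟩ : StarSubalgebra.centralizer ℂ C) = ⟨y, hy⟩ :=
    Subtype.ext (IsSelfAdjoint.of_nonneg hy0).star_eq
  have h : x = star (⟨y, hy⟩ : StarSubalgebra.centralizer ℂ C) * ⟨y, hy⟩ := by
    rw [hsa]
    exact Subtype.ext hyx.symm
  rw [h, map_mul, map_star]
  exact star_mul_self_nonneg _

theorem map_mono_of (x y : StarSubalgebra.centralizer ℂ C)
    (hxy : (x : H →L[ℂ] H) ≤ (y : H →L[ℂ] H)) : Ψ x ≤ Ψ y := by
  have h := map_nonneg_of Ψ (y - x) (by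
    change 0 ≤ (y : H →L[ℂ] H) - x
    exact sub_nonneg.2 hxy)
  rw [map_sub] at h
  exact sub_nonneg.1 h

variable (hinj : Function.Injective Ψ)
  (hrange : Set.range Ψ = {T | T ∈ StarSubalgebra.centralizer ℂ C' ∧ P * T * P = T})
  (hP : IsStarProjection P)

include hinj hrange hP in
/-- `Ψ` reflects positivity. -/
theorem nonneg_of_map (a : StarSubalgebra.centralizer ℂ C) (ha : 0 ≤ Ψ a) :
    0 ≤ (a : H →L[ℂ] H) := by
  have hmem : Ψ a ∈ Set.range Ψ := ⟨a, rfl⟩
  rw [hrange] at hmem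
  obtain ⟨w, hw, hw0, hww⟩ := exists_sqrt_mem hmem.1 ha
  have hPP : P * P = P := hP.isIdempotentElem
  have hPs : star P = P := hP.isSelfAdjoint
  have hws : star w = w := (IsSelfAdjoint.of_nonneg hw0).star_eq
  have h1 : Ψ a * (1 - P) = 0 := by
    rw [← hmem.2, mul_assoc, mul_sub, mul_one, hPP, sub_self, mul_zero]
  have h2 : w * (1 - P) = 0 := by
    have h3 : star (w * (1 - P)) * (w * (1 - P)) = 0 := by
      rw [star_mul, hws, mul_assoc, ← mul_assoc w w, hww, h1, mul_zero]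
    exact CStarRing.star_mul_self_eq_zero_iff _ |>.1 h3
  have h4 : w * P = w := by
    rw [mul_sub, mul_one, sub_eq_zero] at h2
    exact h2.symm
  have h5 : P * w = w := by
    have h := congrArg star h4
    rwa [star_mul, hws, hPs] at h
  have hwr : w ∈ Set.range Ψ := by
    rw [hrange]
    exact ⟨hw, by rw [h5, h4]⟩
  obtain ⟨c, hc⟩ := hwr
  have h6 : a = star c * c := by
    apply hinj
    rw [map_mul, map_star, hc, hws, hww]
  rw [h6]
  exact star_mul_self_nonneg (c : H →L[ℂ] H)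

theorem map_one_le : Ψ 1 ≤ 1 := by
  have h1 : Ψ 1 * Ψ 1 = Ψ 1 := by rw [← map_mul, mul_one]
  have h2 : star (Ψ 1) = Ψ 1 := by rw [← map_star, star_one]
  have h3 : 1 - Ψ 1 = star (1 - Ψ 1) * (1 - Ψ 1) := by
    rw [star_sub, star_one, h2, mul_sub, sub_mul, sub_mul, h1]
    simp
  rw [← sub_nonneg, h3]
  exact star_mul_self_nonneg _

include hinj hrange hP in
/-- Continuity of the isomorphism `Ψ` on bounded positive elements, for vector functionals:
small `ξ`-mass implies small `η`-mass. -/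
theorem normal_bound (ξ : H)
    (hξ : ∀ x ∈ StarSubalgebra.centralizer ℂ C, 0 ≤ x → vs ξ x = 0 → x = 0) (η : K)
    {ε : ℝ} (hε : 0 < ε) :
    ∃ δ : ℝ, 0 < δ ∧ ∀ x : StarSubalgebra.centralizer ℂ C, 0 ≤ (x : H →L[ℂ] H) →
      (x : H →L[ℂ] H) ≤ 1 → vs ξ x ≤ δ → vs η (Ψ x) ≤ ε := by
  by_contra hcon
  push Not at hcon
  choose x hx0 hx1 hxξ hxη using fun k : ℕ => hcon ((1 / 2 : ℝ) ^ k) (by positivity)
  set X : ℕ → H →L[ℂ] H := fun k => (x k : H →L[ℂ] H) with hX
  set S : ℕ → ℕ → H →L[ℂ] H := fun k m => ∑ j ∈ Finset.Ico k m, X j with hS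
  have hS0 : ∀ k m, 0 ≤ S k m := fun k m => Finset.sum_nonneg fun j _ => hx0 j
  have hSmem : ∀ k m, S k m ∈ StarSubalgebra.centralizer ℂ C := fun k m =>
    sum_mem fun j _ => (x j).2
  have hSmono : ∀ k, Monotone (S k) := by
    intro k m m' hmm
    exact Finset.sum_le_sum_of_subset_of_nonneg (Finset.Ico_subset_Ico_right hmm)
      fun j _ _ => hx0 j
  have hSanti : ∀ {k k'} m, k ≤ k' → S k' m ≤ S k m := by
    intro k k' m hkk
    exact Finset.sum_le_sum_of_subset_of_nonneg (Finset.Ico_subset_Ico_left hkk)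
      fun j _ _ => hx0 j
  -- the strong limits `ρ k` of `(1 + S k m)⁻¹` as `m → ∞`
  have hlim1 : ∀ k, ∃ y : H →L[ℂ] H,
      ∀ v, Tendsto (fun m => (1 - res (S k m)) v) atTop (𝓝 (y v)) := by
    intro k
    refine exists_lim_of_mono ?_ ?_ ?_
    · intro m m' hmm
      exact sub_le_sub_left (res_anti (hS0 k m) (hSmono k hmm)) 1
    · intro m
      exact sub_nonneg.2 (res_le_one (hS0 k m))
    · intro m
      exact sub_le_self _ (res_nonneg (hS0 k m))
  choose y hy using hlim1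
  set ρ : ℕ → H →L[ℂ] H := fun k => 1 - y k with hρ
  have hlim : ∀ k v, Tendsto (fun m => res (S k m) v) atTop (𝓝 (ρ k v)) := by
    intro k v
    have h := (tendsto_const_nhds (x := v)).sub (hy k v)
    refine h.congr fun m => ?_
    change v - (v - res (S k m) v) = res (S k m) v
    abel
  have hρmem : ∀ k, ρ k ∈ StarSubalgebra.centralizer ℂ C := fun k =>
    lim_mem (hlim k) fun m => res_mem (hSmem k m)
  have hρ0 : ∀ k, 0 ≤ ρ k := fun k =>
    op_ge_of_tendsto (hlim k) (Eventually.of_forall fun m => res_nonneg (hS0 k m))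
  have hρle : ∀ k m, ρ k ≤ res (S k m) := by
    intro k m
    refine op_le_of_tendsto (hlim k) ?_
    filter_upwards [eventually_ge_atTop m] with m' hm'
    exact res_anti (hS0 k m) (hSmono k hm')
  have hρmono : Monotone ρ := by
    intro k k' hkk
    refine op_ge_of_tendsto (hlim k') (Eventually.of_forall fun m => ?_)
    exact (hρle k m).trans (res_anti (hS0 k' m) (hSanti m hkk))
  have hsum : ∀ k m, vs ξ (S k m) ≤ 2 * (1 / 2 : ℝ) ^ k := by
    intro k m
    have h1 : vs ξ (S k m) = ∑ j ∈ Finset.Ico k m, vs ξ (X j) := by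
      rw [hS]
      simp only [vs]
      rw [sum_apply, inner_sum, map_sum]
    rw [h1]
    calc ∑ j ∈ Finset.Ico k m, vs ξ (X j) ≤ ∑ j ∈ Finset.Ico k m, (1 / 2 : ℝ) ^ j :=
          Finset.sum_le_sum fun j _ => hxξ j
      _ ≤ 2 * (1 / 2 : ℝ) ^ k := by
          refine (geom_sum_Ico_le_of_lt_one (by norm_num) (by norm_num)).trans (le_of_eq ?_)
          ring
  have hρξ : ∀ k, vs ξ 1 - 2 * (1 / 2 : ℝ) ^ k ≤ vs ξ (ρ k) := by
    intro k
    refine ge_of_tendsto' (tendsto_vs (hlim k ξ)) fun m => ?_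
    have h1 := vs_mono ξ (one_sub_le_res (hS0 k m))
    rw [vs_sub] at h1
    have h2 := hsum k m
    linarith
  -- the limit of the images
  set R : ℕ → StarSubalgebra.centralizer ℂ C := fun k => ⟨ρ k, hρmem k⟩ with hR
  have hρ1 : ∀ k, ρ k ≤ 1 := fun k => (hρle k 0).trans (res_le_one (hS0 k 0))
  obtain ⟨z, hz⟩ := exists_lim_of_mono (x := fun k => Ψ (R k))
    (fun k k' hkk => map_mono_of Ψ _ _ (hρmono hkk))
    (fun k => map_nonneg_of Ψ _ (hρ0 k))
    (fun k => (map_mono_of Ψ (R k) 1 (hρ1 k)).trans (map_one_le Ψ))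
  have hzmem : z ∈ Set.range Ψ := by
    rw [hrange]
    have hR2 : ∀ k, Ψ (R k) ∈ {T | T ∈ StarSubalgebra.centralizer ℂ C' ∧ P * T * P = T} := by
      intro k
      rw [← hrange]
      exact ⟨R k, rfl⟩
    refine ⟨lim_mem hz fun k => (hR2 k).1, ?_⟩
    refine ContinuousLinearMap.ext fun v => ?_
    have h1 : Tendsto (fun k => (P * Ψ (R k) * P) v) atTop (𝓝 ((P * z * P) v)) :=
      (P.continuous.tendsto _).comp (hz (P v))
    refine tendsto_nhds_unique h1 ((hz v).congr fun k => ?_)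
    rw [(hR2 k).2]
  obtain ⟨a, ha⟩ := hzmem
  have haρ : ∀ k, ρ k ≤ (a : H →L[ℂ] H) := by
    intro k
    have h1 : 0 ≤ Ψ (a - R k) := by
      rw [map_sub, ha, sub_nonneg]
      refine op_ge_of_tendsto hz ?_
      filter_upwards [eventually_ge_atTop k] with k' hk'
      exact map_mono_of Ψ _ _ (hρmono hk')
    exact sub_nonneg.1 (nonneg_of_map Ψ hinj hrange hP _ h1)
  have ha1 : (a : H →L[ℂ] H) ≤ 1 := by
    have h1 : 0 ≤ Ψ (1 - a) := by
      rw [map_sub, ha, sub_nonneg]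
      exact op_le_of_tendsto hz (Eventually.of_forall fun k => map_mono_of Ψ (R k) 1 (hρ1 k))
    exact sub_nonneg.1 (nonneg_of_map Ψ hinj hrange hP _ h1)
  have haeq : (a : H →L[ℂ] H) = 1 := by
    have h0 : 0 ≤ 1 - (a : H →L[ℂ] H) := sub_nonneg.2 ha1
    have h1 : vs ξ (1 - (a : H →L[ℂ] H)) = 0 := by
      refine le_antisymm ?_ (vs_nonneg ξ h0)
      have h2 : Tendsto (fun k : ℕ => 2 * (1 / 2 : ℝ) ^ k) atTop (𝓝 (2 * 0)) :=
        (tendsto_pow_atTop_nhds_zero_of_lt_one (by norm_num) (by norm_num)).const_mul 2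
      rw [mul_zero] at h2
      refine ge_of_tendsto' h2 fun k => ?_
      have h3 := vs_mono ξ (haρ k)
      have h4 := hρξ k
      rw [vs_sub]
      linarith
    have h2 := hξ _ (sub_mem (one_mem _) a.2) h0 h1
    exact (sub_eq_zero.1 h2).symm
  have haeq' : a = 1 := Subtype.ext haeq
  have hlimη := tendsto_vs (hz η)
  rw [← ha, haeq'] at hlimη
  have hfin : vs η (Ψ 1) ≤ vs η (Ψ 1) - ε / 2 := by
    refine le_of_tendsto' hlimη fun k => ?_
    have h1 : ρ k ≤ 1 - (((1 / 2 : ℝ) : ℂ)) • X k := by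
      refine (hρle k (k + 1)).trans ?_
      have h2 : S k (k + 1) = X k := by
        rw [hS]
        simp
      rw [h2]
      exact res_le_of_le_one (hx0 k) (hx1 k)
    have h3 := vs_mono η (map_mono_of Ψ (R k) (1 - (((1 / 2 : ℝ) : ℂ)) • x k) h1)
    rw [map_sub, map_smul, vs_sub, vs_smul] at h3
    have h4 := hxη k
    linarith
  linarith

end normal

end

end Vale.Agent.P092
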