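import Vale.Agent.P092.Setup
import Vale.Agent.P092.Defs

/-!
# Scalar operators on Hilbert–Schmidt operators, from the ICC condition
-/

namespace Vale.Agent.P092

open scoped InnerProductSpace ENNReal ComplexConjugate
open ContinuousLinearMap InnerProductSpace

noncomputable section

/-- A coefficient with respect to an orthonormal family that is taken infinitely often is zero. -/
theorem inner_eq_zero_of_infinite {P E : Type} [NormedAddCommGroup E] [InnerProductSpace ℂ E]
    {v : P → E} (hv : Orthonormal ℂ v) (Z : E) (p₀ : P)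
    (hinf : {p | ⟪v p, Z⟫_ℂ = ⟪v p₀, Z⟫_ℂ}.Infinite) : ⟪v p₀, Z⟫_ℂ = 0 := by
  by_contra hne
  have hs : Summable fun p => ‖⟪v p, Z⟫_ℂ‖ ^ 2 := hv.inner_products_summable Z
  have ht := hs.tendsto_cofinite_zero
  have hpos : 0 < ‖⟪v p₀, Z⟫_ℂ‖ ^ 2 := by positivity
  have hev := ht.eventually (gt_mem_nhds hpos)
  rw [Filter.eventually_cofinite] at hev
  refine hinf (hev.subset fun p hp => ?_)
  simp only [Set.mem_ofPred_eq] at hp ⊢
  rw [hp]
  exact lt_irrefl _

theorem IsICC.infinite_range {Γ : Type} [Group Γ] (h : IsICC Γ) {g : Γ} (hg : g ≠ 1) :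
    (Set.range fun x : Γ => x * g * x⁻¹).Infinite := by
  have h1 := h g hg
  have h2 : {x : Γ | IsConj g x} = Set.range fun x : Γ => x * g * x⁻¹ := by
    ext y
    simp [isConj_iff]
  rwa [h2] at h1

variable {ι X : Type} {K : Type} [NormedAddCommGroup K] [InnerProductSpace ℂ K] [CompleteSpace K]
  (b : HilbertBasis ι ℂ K)

theorem orthonormal_ten (β : HilbertBasis X ℂ K) :
    Orthonormal ℂ fun p : X × X => ten b (β p.1) (β p.2) := by
  classical
  rw [orthonormal_iff_ite]
  rintro ⟨y, x⟩ ⟨y', x'⟩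
  simp only [inner_ten_ten]
  rw [orthonormal_iff_ite.1 β.orthonormal y y', orthonormal_iff_ite.1 β.orthonormal x' x]
  by_cases h1 : y = y'
  · by_cases h2 : x' = x
    · simp [h1, h2]
    · have h2' : ¬ x = x' := fun h => h2 h.symm
      simp [h2, h2']
  · simp [h1]

theorem eq_zero_of_inner_ten_basis (β : HilbertBasis X ℂ K) {Z : HS ι K}
    (h : ∀ y x, ⟪ten b (β y) (β x), Z⟫_ℂ = 0) : Z = 0 := by
  apply op_injective b
  rw [map_zero]
  refine clm_ext_basis β fun x => ?_
  rw [zero_apply]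
  apply β.repr.injective
  rw [map_zero]
  ext y
  rw [β.repr_apply_apply, ← inner_ten_left, h]
  rfl

theorem clm_ext_ten_basis (β : HilbertBasis X ℂ K) {A B : HS ι K →L[ℂ] HS ι K}
    (h : ∀ y x, A (ten b (β y) (β x)) = B (ten b (β y) (β x))) : A = B := by
  have h2 : adjoint A = adjoint B := by
    refine ContinuousLinearMap.ext fun Z => ?_
    rw [← sub_eq_zero]
    refine eq_zero_of_inner_ten_basis b β fun y x => ?_
    rw [inner_sub_right, adjoint_inner_right, adjoint_inner_right, h, sub_self]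
  rw [← adjoint_adjoint A, h2, adjoint_adjoint]

/-- The unitary permuting a Hilbert basis. -/
def permBasis (β : HilbertBasis X ℂ K) (e : X ≃ X) : K →L[ℂ] K :=
  (β.repr.trans ((relabel e).trans β.repr.symm)).toContinuousLinearEquiv.toContinuousLinearMap

omit [CompleteSpace K] in
theorem relabel_single {α β' : Type} [DecidableEq α] [DecidableEq β'] (e : α ≃ β') (x : α) :
    relabel e (lp.single 2 x (1 : ℂ)) = lp.single 2 (e x) (1 : ℂ) := by
  ext y
  change (lp.single 2 x (1 : ℂ) : ell2 α) (e.symm y) = _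
  rw [lp.single_apply, lp.single_apply]
  by_cases h : y = e x
  · subst h; simp
  · have h' : ¬ e.symm y = x := fun hh => h (by rw [← hh]; simp)
    simp [h, h']

omit [CompleteSpace K] in
@[simp]
theorem permBasis_apply (β : HilbertBasis X ℂ K) (e : X ≃ X) (x : X) :
    permBasis β e (β x) = β (e x) := by
  classical
  change β.repr.symm (relabel e (β.repr (β x))) = β (e x)
  rw [β.repr_self, relabel_single, β.repr_symm_single]

omit [CompleteSpace K] in
/-- Operators commuting on a Hilbert basis commute. -/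
theorem commute_of_basis (β : HilbertBasis X ℂ K) {A B : K →L[ℂ] K}
    (h : ∀ x, A (B (β x)) = B (A (β x))) : Commute A B :=
  clm_ext_basis β fun x => h x

theorem adjoint_basis (β : HilbertBasis X ℂ K) {A : K →L[ℂ] K} (e : X ≃ X)
    (h : ∀ x, A (β x) = β (e x)) (x : X) : adjoint A (β x) = β (e.symm x) := by
  classical
  apply β.repr.injective
  ext y
  rw [β.repr_apply_apply, β.repr_apply_apply, adjoint_inner_right, h,
    orthonormal_iff_ite.1 β.orthonormal, orthonormal_iff_ite.1 β.orthonormal]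
  congr 1
  rw [Equiv.eq_symm_apply]

omit [InnerProductSpace ℂ K] [CompleteSpace K] in
theorem commute_apply {E : Type} [NormedAddCommGroup E] [NormedSpace ℂ E] {A F : E →L[ℂ] E}
    (h : Commute A F) (Z : E) : A (F Z) = F (A Z) := congrArg (fun T : E →L[ℂ] E => T Z) h

variable {Γ : Type} [Group Γ]

/-- An operator on `HS ι K` is scalar if it commutes with left and right multiplications by the
commutant of the (multiple of the) right regular representation `R` and with `Ad (R g)`. -/
theorem scalar_of_commute_reg (hicc : IsICC Γ) {n : ℕ} (hn : 0 < n)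
    (β : HilbertBasis (Γ × Fin n) ℂ K) (R : Γ → K →L[ℂ] K)
    (hR : ∀ g h i, R g (β (h, i)) = β (h * g⁻¹, i)) (F : HS ι K →L[ℂ] HS ι K)
    (hl : ∀ A : K →L[ℂ] K, (∀ g, Commute A (R g)) → Commute (lmul A) F)
    (hr : ∀ A : K →L[ℂ] K, (∀ g, Commute A (R g)) → Commute (rmul b A) F)
    (hAd : ∀ g, Commute (Ad b (R g)) F) : ∃ c : ℂ, F = c • 1 := by
  classical
  set i₀ : Fin n := ⟨0, hn⟩ with hi₀
  -- the operators of the commutant
  set L : Γ → K →L[ℂ] K := fun a => permBasis β ((Equiv.mulLeft a).prodCongr (Equiv.refl _))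
    with hLdef
  have hL : ∀ a h i, L a (β (h, i)) = β (a * h, i) := fun a h i => by
    rw [hLdef]; simp
  have hLR : ∀ a g, Commute (L a) (R g) := by
    intro a g
    refine commute_of_basis β ?_
    rintro ⟨h, i⟩
    rw [hR, hL, hL, hR, mul_assoc]
  set M : Fin n → K →L[ℂ] K :=
    fun j => permBasis β ((Equiv.refl Γ).prodCongr (Equiv.swap i₀ j)) with hMdef
  have hM : ∀ j h i, M j (β (h, i)) = β (h, Equiv.swap i₀ j i) := fun j h i => by
    rw [hMdef]; simp
  have hMR : ∀ j g, Commute (M j) (R g) := by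
    intro j g
    refine commute_of_basis β ?_
    rintro ⟨h, i⟩
    rw [hR, hM, hM, hR]
  -- the projection on the first block
  set S : Submodule ℂ K := (Submodule.span ℂ (Set.range fun h : Γ => β (h, i₀))).topologicalClosure
    with hS
  have : CompleteSpace S := (Submodule.isClosed_topologicalClosure _).completeSpace_coe
  set P : K →L[ℂ] K := S.starProjection with hPdef
  have hP0 : ∀ h, P (β (h, i₀)) = β (h, i₀) := by
    intro h
    refine Submodule.starProjection_eq_self_iff.2 ?_
    exact Submodule.le_topologicalClosure _ (Submodule.subset_span ⟨h, rfl⟩)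
  have hP1 : ∀ h i, i ≠ i₀ → P (β (h, i)) = 0 := by
    intro h i hi
    refine (Submodule.starProjection_apply_eq_zero_iff S).2 ?_
    rw [hS, Submodule.orthogonal_closure, Submodule.mem_orthogonal]
    intro w hw
    induction hw using Submodule.span_induction with
    | mem w hw =>
      obtain ⟨h', rfl⟩ := hw
      rw [orthonormal_iff_ite.1 β.orthonormal, if_neg]
      intro hh
      exact hi (congrArg Prod.snd hh).symm
    | zero => simp
    | add x y _ _ hx hy => rw [inner_add_left, hx, hy, add_zero]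
    | smul c x _ hx => rw [inner_smul_left, hx, mul_zero]
  have hPR : ∀ g, Commute P (R g) := by
    intro g
    refine commute_of_basis β ?_
    rintro ⟨h, i⟩
    rw [hR]
    by_cases hi : i = i₀
    · subst hi; rw [hP0, hP0, hR]
    · rw [hP1 _ _ hi, hP1 _ _ hi, map_zero]
  -- the image of the basic rank one operator
  set Z₀ : HS ι K := F (ten b (β (1, i₀)) (β (1, i₀))) with hZ₀
  have hPadj : adjoint P = P := by
    have := (isSelfAdjoint_starProjection S)
    exact this
  have hblock : ∀ y x : Γ × Fin n, (y.2 ≠ i₀ ∨ x.2 ≠ i₀) → ⟪ten b (β y) (β x), Z₀⟫_ℂ = 0 := by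
    intro y x hyx
    have h1 : lmul P Z₀ = Z₀ := by
      rw [hZ₀, commute_apply (hl P hPR), lmul_ten, hP0]
    have h2 : rmul b P Z₀ = Z₀ := by
      rw [hZ₀, commute_apply (hr P hPR), rmul_ten, hPadj, hP0]
    rw [← h1, ← h2, ← adjoint_inner_left, adjoint_lmul b, lmul_ten, hPadj,
      ← adjoint_inner_left, adjoint_rmul, rmul_ten, adjoint_adjoint]
    rcases y with ⟨y1, y2⟩
    rcases x with ⟨x1, x2⟩
    rcases hyx with h | h
    · rw [hP1 _ _ h]
      have : ten b (0 : K) (P (β (x1, x2))) = 0 := by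
        apply op_injective b; simp
      rw [this, inner_zero_left]
    · rw [hP1 _ _ h]
      have : ten b (P (β (y1, y2))) (0 : K) = 0 := by
        apply op_injective b; simp
      rw [this, inner_zero_left]
  -- invariance under conjugation
  have hLadj : ∀ a x, adjoint (L a) (β x) = L a⁻¹ (β x) := by
    intro a x
    rw [adjoint_basis β ((Equiv.mulLeft a).prodCongr (Equiv.refl _)) (fun x => by
      rcases x with ⟨h, i⟩
      rw [hL]; rfl)]
    rcases x with ⟨h, i⟩
    rw [hL]
    rfl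
  have hRadj : ∀ g x, adjoint (R g) (β x) = R g⁻¹ (β x) := by
    intro a x
    rw [adjoint_basis β ((Equiv.mulRight a⁻¹).prodCongr (Equiv.refl _)) (fun x => by
      rcases x with ⟨h, i⟩
      rw [hR]; rfl)]
    rcases x with ⟨h, i⟩
    rw [hR]
    simp [Equiv.mulRight]
  have hLadjeq : ∀ a, adjoint (L a) = L a⁻¹ := fun a => clm_ext_basis β (hLadj a)
  have hfix : ∀ g, Ad b (L g) (Ad b (R g) Z₀) = Z₀ := by
    intro g
    have h1 : Ad b (R g) Z₀ = F (ten b (β (g⁻¹, i₀)) (β (g⁻¹, i₀))) := by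
      rw [hZ₀, commute_apply (hAd g), Ad_ten, hR, one_mul]
    have h3 := commute_apply (hr (adjoint (L g)) (by rw [hLadjeq]; exact hLR _))
      (ten b (β (g⁻¹, i₀)) (β (g⁻¹, i₀)))
    rw [h1, Ad, comp_apply, h3, commute_apply (hl (L g) (hLR g)), rmul_ten, adjoint_adjoint,
      lmul_ten, hL, mul_inv_cancel]
  have hinv : ∀ (g h h' : Γ), ⟪ten b (β (h, i₀)) (β (h', i₀)), Z₀⟫_ℂ =
      ⟪ten b (β (g * h * g⁻¹, i₀)) (β (g * h' * g⁻¹, i₀)), Z₀⟫_ℂ := by
    intro g h h'
    rw [← hfix g⁻¹, ← adjoint_inner_left, adjoint_Ad, Ad_ten, ← adjoint_inner_left, adjoint_Ad,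
      Ad_ten, hLadj, hLadj, inv_inv, hL, hL, hRadj, hRadj, inv_inv, hR, hR, hfix]
  have hzero : ∀ y x : Γ × Fin n, (y ≠ (1, i₀) ∨ x ≠ (1, i₀)) →
      ⟪ten b (β y) (β x), Z₀⟫_ℂ = 0 := by
    intro y x hyx
    by_cases hb : y.2 ≠ i₀ ∨ x.2 ≠ i₀
    · exact hblock y x hb
    push Not at hb
    rcases y with ⟨h, i⟩
    rcases x with ⟨h', i'⟩
    obtain ⟨hi, hi'⟩ := hb
    simp only at hi hi'
    subst hi hi'
    refine inner_eq_zero_of_infinite (orthonormal_ten b β) Z₀ ((h, i₀), (h', i₀)) ?_
    have hsub : Set.range (fun g : Γ => (((g * h * g⁻¹, i₀), (g * h' * g⁻¹, i₀)) :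
        (Γ × Fin n) × (Γ × Fin n))) ⊆ {p | ⟪ten b (β p.1) (β p.2), Z₀⟫_ℂ =
          ⟪ten b (β (h, i₀)) (β (h', i₀)), Z₀⟫_ℂ} := by
      rintro _ ⟨g, rfl⟩
      exact (hinv g h h').symm
    refine Set.Infinite.mono hsub ?_
    rcases hyx with hy | hx
    · have hh : h ≠ 1 := fun hh => hy (by rw [hh])
      have h1 := hicc.infinite_range hh
      refine Set.Infinite.of_image (fun p => p.1.1) ?_
      rw [← Set.range_comp]
      exact h1
    · have hh : h' ≠ 1 := fun hh => hx (by rw [hh])
      have h1 := hicc.infinite_range hh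
      refine Set.Infinite.of_image (fun p => p.2.1) ?_
      rw [← Set.range_comp]
      exact h1
  set c : ℂ := ⟪ten b (β (1, i₀)) (β (1, i₀)), Z₀⟫_ℂ with hc
  have hZc : Z₀ = c • ten b (β (1, i₀)) (β (1, i₀)) := by
    rw [← sub_eq_zero]
    refine eq_zero_of_inner_ten_basis b β fun y x => ?_
    rw [inner_sub_right, inner_smul_right, inner_ten_ten, orthonormal_iff_ite.1 β.orthonormal,
      orthonormal_iff_ite.1 β.orthonormal]
    by_cases hyx : y ≠ (1, i₀) ∨ x ≠ (1, i₀)
    · rw [hzero y x hyx]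
      rcases hyx with h | h
      · simp [h]
      · simp [Ne.symm h]
    · push Not at hyx
      obtain ⟨rfl, rfl⟩ := hyx
      simp [hc]
  refine ⟨c, clm_ext_ten_basis b β ?_⟩
  rintro ⟨a, i⟩ ⟨a', i'⟩
  have hA : ∀ (a : Γ) (i : Fin n), ∀ g, Commute (L a * M i) (R g) :=
    fun a i g => (hLR a g).mul_left (hMR i g)
  have hAx : ∀ (a : Γ) (i : Fin n), (L a * M i) (β (1, i₀)) = β (a, i) := fun a i => by
    change L a (M i (β (1, i₀))) = _
    rw [hM, Equiv.swap_apply_left, hL, mul_one]
  have hMadj : ∀ i x, adjoint (M i) (β x) = M i (β x) := by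
    intro i x
    rw [adjoint_basis β ((Equiv.refl Γ).prodCongr (Equiv.swap i₀ i)) (fun x => by
      rcases x with ⟨h, k⟩
      rw [hM]; rfl)]
    rcases x with ⟨h, k⟩
    rw [hM]
    simp
  have hMadjeq : ∀ i, adjoint (M i) = M i := fun i => clm_ext_basis β (hMadj i)
  have hA' : ∀ (a : Γ) (i : Fin n), ∀ g, Commute (adjoint (L a * M i)) (R g) := by
    intro a i g
    rw [ContinuousLinearMap.mul_def, adjoint_comp, hMadjeq, hLadjeq]
    exact (hMR i g).mul_left (hLR _ g)
  have e1 : ten b (β (a, i)) (β (a', i')) =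
      lmul (L a * M i) (rmul b (adjoint (L a' * M i')) (ten b (β (1, i₀)) (β (1, i₀)))) := by
    rw [rmul_ten, adjoint_adjoint, hAx, lmul_ten, hAx]
  rw [e1, ← commute_apply (hl _ (hA a i)), ← commute_apply (hr _ (hA' a' i')), ← hZ₀, hZc,
    map_smul, map_smul]
  rfl

end

end Vale.Agent.P092
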