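import Vale.Agent.P092.H184.Normal
import Vale.Agent.P092.H414.Reg

/-!
# Uniqueness of the trace of `L(Λ)`, `Λ` ICC, and trace preservation
-/

namespace Vale.Agent.P092

open scoped InnerProductSpace ComplexConjugate
open ContinuousLinearMap Filter Topology

noncomputable section

/-- A closed convex set invariant under norm preserving maps contains a common fixed point. -/
theorem exists_fixed_of_convex {E ι : Type} [NormedAddCommGroup E] [InnerProductSpace ℂ E]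
    [CompleteSpace E] (c : ι → E → E) (hnorm : ∀ i v, ‖c i v‖ = ‖v‖) {S : Set E}
    (hne : S.Nonempty) (hcl : IsClosed S) (hconv : Convex ℝ S) (hinv : ∀ i, ∀ v ∈ S, c i v ∈ S) :
    ∃ v ∈ S, ∀ i, c i v = v := by
  let _ : InnerProductSpace ℝ E := InnerProductSpace.rclikeToReal ℂ E
  obtain ⟨v, hv, hmin⟩ := exists_norm_eq_iInf_of_complete_convex hne hcl.isComplete hconv 0
  have hle : ∀ w ∈ S, ‖v‖ ≤ ‖w‖ := by
    intro w hw
    have h1 : ‖v‖ = ⨅ w : S, ‖(0 : E) - w‖ := by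
      rw [← hmin, zero_sub, norm_neg]
    rw [h1]
    have h2 := ciInf_le (f := fun w : S => ‖(0 : E) - w‖)
      ⟨0, Set.forall_mem_range.2 fun _ => norm_nonneg _⟩ ⟨w, hw⟩
    simpa using h2
  refine ⟨v, hv, fun i => ?_⟩
  have h1 := hinv i v hv
  have hmid : ((1 / 2 : ℝ)) • v + ((1 / 2 : ℝ)) • c i v ∈ S :=
    hconv hv h1 (by norm_num) (by norm_num) (by norm_num)
  have h2 := hle _ hmid
  have h3 : ((1 / 2 : ℝ)) • v + ((1 / 2 : ℝ)) • c i v = ((1 / 2 : ℝ)) • (v + c i v) := by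
    rw [smul_add]
  rw [h3, norm_smul] at h2
  have h4 : 2 * ‖v‖ ≤ ‖v + c i v‖ := by
    have : ‖(1 / 2 : ℝ)‖ = 1 / 2 := by norm_num
    rw [this] at h2
    linarith
  have h5 := parallelogram_law_with_norm ℂ v (c i v)
  rw [hnorm i v] at h5
  have h6 : ‖v - c i v‖ * ‖v - c i v‖ ≤ 0 := by
    nlinarith [norm_nonneg v, norm_nonneg (v + c i v)]
  have h7 : ‖v - c i v‖ = 0 := by
    nlinarith [norm_nonneg (v - c i v)]
  exact (sub_eq_zero.1 (norm_eq_zero.1 h7)).symm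

variable {Λ : Type} [Group Λ]

/-- The unitary `δ_x ↦ δ_{h x h⁻¹}` of `ℓ²(Λ)`. -/
def cconj (h : Λ) : ell2 Λ →L[ℂ] ell2 Λ := lreg h * rreg h

theorem cconj_apply (h : Λ) (ξ : ell2 Λ) (x : Λ) : cconj h ξ x = ξ (h⁻¹ * x * h) := by
  change lreg h (rreg h ξ) x = _
  rw [lreg_apply, rreg_apply]

theorem norm_cconj (h : Λ) (ξ : ell2 Λ) : ‖cconj h ξ‖ = ‖ξ‖ := by
  change ‖lreg h (rreg h ξ)‖ = _
  exact ((relabel (Equiv.mulLeft h)).norm_map _).trans ((relabel (Equiv.mulRight h⁻¹)).norm_map ξ)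

theorem cconj_cconj (h k : Λ) (ξ : ell2 Λ) : cconj h (cconj k ξ) = cconj (h * k) ξ := by
  ext x
  rw [cconj_apply, cconj_apply, cconj_apply]
  group

/-- Vectors fixed by all conjugations and with zero coefficient at `1` are zero. -/
theorem eq_zero_of_cconj (hicc : IsICC Λ) {ξ : ell2 Λ} (h1 : ξ 1 = 0)
    (hfix : ∀ h, cconj h ξ = ξ) : ξ = 0 := by
  ext g
  by_cases hg : g = 1
  · rw [hg, h1]
    rfl
  change ξ g = 0
  rw [← inner_delta g ξ]
  have hon : Orthonormal ℂ fun x : Λ => (delta x : ell2 Λ) := by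
    have h := (deltaBasis Λ).orthonormal
    have h2 : (deltaBasis Λ : Λ → ell2 Λ) = fun x => delta x := funext deltaBasis_apply
    rwa [h2] at h
  refine inner_eq_zero_of_infinite hon ξ g ?_
  refine (hicc.infinite_range hg).mono ?_
  rintro _ ⟨x, rfl⟩
  change ⟪delta (x * g * x⁻¹), ξ⟫_ℂ = ⟪delta g, ξ⟫_ℂ
  rw [inner_delta, inner_delta]
  nth_rewrite 1 [← hfix x]
  rw [cconj_apply]
  group

/-- If `ξ(1) = 0` then averages of the conjugates of `ξ` are small. -/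
theorem zero_mem_closure_convexHull (hicc : IsICC Λ) {ξ : ell2 Λ} (h1 : ξ 1 = 0) :
    (0 : ell2 Λ) ∈ closure (convexHull ℝ (Set.range fun h : Λ => cconj h ξ)) := by
  set S : Set (ell2 Λ) := closure (convexHull ℝ (Set.range fun h : Λ => cconj h ξ)) with hS
  have hne : S.Nonempty := ⟨cconj 1 ξ, subset_closure (subset_convexHull ℝ _ ⟨1, rfl⟩)⟩
  have hinv : ∀ k : Λ, ∀ v ∈ S, cconj k v ∈ S := by
    intro k v hv
    have hmaps : Set.MapsTo (cconj k) (convexHull ℝ (Set.range fun h : Λ => cconj h ξ))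
        (convexHull ℝ (Set.range fun h : Λ => cconj h ξ)) := by
      intro w hw
      have h2 : cconj k w ∈ ((cconj k).restrictScalars ℝ).toLinearMap ''
          convexHull ℝ (Set.range fun h : Λ => cconj h ξ) := ⟨w, hw, rfl⟩
      rw [LinearMap.image_convexHull] at h2
      refine convexHull_mono ?_ h2
      rintro _ ⟨_, ⟨h, rfl⟩, rfl⟩
      exact ⟨k * h, (cconj_cconj k h ξ).symm⟩
    exact hmaps.closure (cconj k).continuous hv
  obtain ⟨v, hv, hfix⟩ := exists_fixed_of_convex (fun k : Λ => cconj k) norm_cconj hne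
    isClosed_closure (convex_convexHull ℝ _).closure hinv
  have hv1 : v 1 = 0 := by
    have hcl : IsClosed {w : ell2 Λ | ⟪delta 1, w⟫_ℂ = 0} :=
      isClosed_eq (continuous_const.inner continuous_id) continuous_const
    have hconv : Convex ℝ {w : ell2 Λ | ⟪delta 1, w⟫_ℂ = 0} := by
      intro x hx y hy a b _ _ _
      simp only [Set.mem_ofPred_eq] at hx hy ⊢
      change ⟪delta 1, (a : ℂ) • x + (b : ℂ) • y⟫_ℂ = 0
      rw [inner_add_right, inner_smul_right, inner_smul_right, hx, hy]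
      simp
    have hsub : S ⊆ {w : ell2 Λ | ⟪delta 1, w⟫_ℂ = 0} := by
      refine closure_minimal (convexHull_min ?_ hconv) hcl
      rintro _ ⟨h, rfl⟩
      change ⟪delta 1, cconj h ξ⟫_ℂ = 0
      rw [inner_delta, cconj_apply]
      simpa using h1
    have h2 := hsub hv
    simp only [Set.mem_ofPred_eq] at h2
    rwa [inner_delta] at h2
  rw [← eq_zero_of_cconj hicc hv1 hfix]
  exact hv

/-- The conjugation `y ↦ v_h y v_h^*` of `L(Λ)`. -/
def cj (h : Λ) (y : LG Λ) : LG Λ := u h * y * u h⁻¹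

theorem cj_delta (h : Λ) (y : LG Λ) :
    ((cj h y : LG Λ) : ell2 Λ →L[ℂ] ell2 Λ) (delta 1) =
      cconj h ((y : ell2 Λ →L[ℂ] ell2 Λ) (delta 1)) := by
  change lreg h ((y : ell2 Λ →L[ℂ] ell2 Λ) (lreg h⁻¹ (delta 1))) =
    lreg h (rreg h ((y : ell2 Λ →L[ℂ] ell2 Λ) (delta 1)))
  rw [lreg_delta, ← LG_rreg, rreg_delta, one_mul, mul_one]

theorem norm_cj_le (h : Λ) (y : LG Λ) : ‖cj h y‖ ≤ ‖y‖ := by
  have hu : ∀ k : Λ, ‖(u k : LG Λ)‖ ≤ 1 := by
    intro k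
    change ‖lreg k‖ ≤ 1
    exact ContinuousLinearMap.opNorm_le_bound _ zero_le_one fun ξ => by
      rw [one_mul]
      exact ((relabel (Equiv.mulLeft k)).norm_map ξ).le
  calc ‖u h * y * u h⁻¹‖ ≤ ‖u h‖ * ‖y‖ * ‖u h⁻¹‖ :=
        (norm_mul_le _ _).trans (by gcongr; exact norm_mul_le _ _)
    _ ≤ 1 * ‖y‖ * 1 := by
        gcongr
        · exact hu h
        · exact hu _
    _ = ‖y‖ := by ring

/-- Averages of conjugates of `y` with `τ(y) = 0` have small `2`-norm. -/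
theorem exists_average (hicc : IsICC Λ) (y : LG Λ) (hy : tau y = 0) {ε : ℝ} (hε : 0 < ε) :
    ∃ y' ∈ convexHull ℝ (Set.range fun h : Λ => cj h y),
      ‖((y' : LG Λ) : ell2 Λ →L[ℂ] ell2 Λ) (delta 1)‖ < ε := by
  set ξ : ell2 Λ := (y : ell2 Λ →L[ℂ] ell2 Λ) (delta 1) with hξ
  have h1 : ξ 1 = 0 := by
    rw [← inner_delta 1 ξ]
    exact hy
  have h2 := zero_mem_closure_convexHull hicc h1
  rw [Metric.mem_closure_iff] at h2
  obtain ⟨w, hw, hwε⟩ := h2 ε hε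
  rw [dist_zero_left] at hwε
  let orbR : LG Λ →ₗ[ℝ] ell2 Λ :=
    { toFun := fun y => (y : ell2 Λ →L[ℂ] ell2 Λ) (delta 1)
      map_add' := fun _ _ => rfl
      map_smul' := fun _ _ => rfl }
  have h3 : orbR '' convexHull ℝ (Set.range fun h : Λ => cj h y) =
      convexHull ℝ (Set.range fun h : Λ => cconj h ξ) := by
    rw [LinearMap.image_convexHull]
    congr 1
    rw [← Set.range_comp]
    congr 1
    funext h
    exact cj_delta h y
  rw [← h3] at hw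
  obtain ⟨y', hy', rfl⟩ := hw
  exact ⟨y', hy', hwε⟩

/-- `δ_1` is separating for `L(Λ)`. -/
theorem LG_eq_zero {y : ell2 Λ →L[ℂ] ell2 Λ} (hy : y ∈ LG Λ) (h : y (delta 1) = 0) : y = 0 := by
  refine clm_ext_delta fun g => ?_
  have h1 : (delta g : ell2 Λ) = rreg g⁻¹ (delta 1) := by rw [rreg_delta, inv_inv, one_mul]
  rw [h1]
  change y (rreg g⁻¹ (delta 1)) = 0
  have h2 := LG_rreg ⟨y, hy⟩ g⁻¹ (delta 1)
  change y (rreg g⁻¹ (delta 1)) = rreg g⁻¹ (y (delta 1)) at h2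
  rw [h2, h, map_zero]

theorem LG_faithful (x : ell2 Λ →L[ℂ] ell2 Λ) (hx : x ∈ LG Λ) (h0 : 0 ≤ x)
    (h : vs (delta 1) x = 0) : x = 0 := by
  obtain ⟨y, hy, hy0, hyx⟩ := exists_sqrt_mem (C := (StarSubalgebra.centralizer ℂ
    (Set.range (lreg (Γ := Λ))) : Set (ell2 Λ →L[ℂ] ell2 Λ))) hx h0
  have h1 : star y * y = x := by rw [(IsSelfAdjoint.of_nonneg hy0).star_eq, hyx]
  rw [← h1, vs_star_mul] at h
  have h2 : y (delta 1) = 0 := by
    have : ‖y (delta 1)‖ = 0 := by simpa using h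
    exact norm_eq_zero.1 this
  have h3 : y = 0 := LG_eq_zero hy h2
  rw [← hyx, h3, mul_zero]

theorem star_mul_self_le_one {H : Type} [NormedAddCommGroup H] [InnerProductSpace ℂ H]
    [CompleteSpace H] {T : H →L[ℂ] H} (hT : ‖T‖ ≤ 1) : star T * T ≤ 1 := by
  refine (CStarAlgebra.norm_le_one_iff_of_nonneg _ (star_mul_self_nonneg T)).1 ?_
  rw [CStarRing.norm_star_mul_self]
  exact mul_le_one₀ hT (norm_nonneg _) hT

theorem tau_one : tau (1 : LG Λ) = 1 := by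
  change ⟪delta 1, (delta 1 : ell2 Λ)⟫_ℂ = 1
  rw [inner_delta, delta_apply_self]

/-- `normal_bound` for `L(Λ)`. -/
theorem normal_bound_LG {K : Type} [NormedAddCommGroup K] [InnerProductSpace ℂ K]
    [CompleteSpace K] {C' : Set (K →L[ℂ] K)} {P : K →L[ℂ] K} (Ψ : LG Λ →⋆ₙₐ[ℂ] (K →L[ℂ] K))
    (hinj : Function.Injective Ψ)
    (hrange : Set.range Ψ = {T | T ∈ StarSubalgebra.centralizer ℂ C' ∧ P * T * P = T})
    (hP : IsStarProjection P) (η : K) {ε : ℝ} (hε : 0 < ε) :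
    ∃ δ : ℝ, 0 < δ ∧ ∀ T : LG Λ, ‖(T : ell2 Λ →L[ℂ] ell2 Λ)‖ ≤ 1 →
      ‖(T : ell2 Λ →L[ℂ] ell2 Λ) (delta 1)‖ ^ 2 ≤ δ → ‖Ψ T η‖ ^ 2 ≤ ε := by
  obtain ⟨δ, hδ0, hδ⟩ := normal_bound (C := (StarSubalgebra.centralizer ℂ
      (Set.range (lreg (Γ := Λ))) : Set (ell2 Λ →L[ℂ] ell2 Λ))) Ψ hinj hrange hP (delta 1)
      LG_faithful η hε
  refine ⟨δ, hδ0, fun T hT hTδ => ?_⟩
  have h1 := hδ (star T * T) (star_mul_self_nonneg (T : ell2 Λ →L[ℂ] ell2 Λ))
    (star_mul_self_le_one hT) (le_of_eq_of_le (vs_star_mul _ _) hTδ)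
  have h2 : Ψ (star T * T) = star (Ψ T) * Ψ T := by rw [map_mul, map_star]
  refine le_of_eq_of_le (vs_star_mul η (Ψ T)).symm ?_
  exact le_of_eq_of_le (congrArg (vs η) h2.symm) h1

/-- **Uniqueness of the trace.** -/
theorem trace_unique (hicc : IsICC Λ) {K : Type} [NormedAddCommGroup K] [InnerProductSpace ℂ K]
    [CompleteSpace K] {C' : Set (K →L[ℂ] K)} {P : K →L[ℂ] K} (Ψ : LG Λ →⋆ₙₐ[ℂ] (K →L[ℂ] K))
    (hinj : Function.Injective Ψ)
    (hrange : Set.range Ψ = {T | T ∈ StarSubalgebra.centralizer ℂ C' ∧ P * T * P = T})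
    (hP : IsStarProjection P) {m : Type} [Fintype m] (η : m → K)
    (htr : ∀ (h : Λ) (x : LG Λ), ∑ i, ⟪η i, Ψ (cj h x) (η i)⟫_ℂ = ∑ i, ⟪η i, Ψ x (η i)⟫_ℂ)
    (x : LG Λ) : ∑ i, ⟪η i, Ψ x (η i)⟫_ℂ = tau x * ∑ i, ⟪η i, Ψ 1 (η i)⟫_ℂ := by
  -- reduction to `τ(y) = 0`
  suffices hmain : ∀ y : LG Λ, tau y = 0 → ∑ i, ⟪η i, Ψ y (η i)⟫_ℂ = 0 by
    have h1 : tau (x - tau x • 1) = 0 := by
      have h2 : tau (x - tau x • (1 : LG Λ)) = tau x - tau x * tau (1 : LG Λ) := by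
        change ⟪delta 1, (x : ell2 Λ →L[ℂ] ell2 Λ) (delta 1) - tau x • (delta 1 : ell2 Λ)⟫_ℂ = _
        rw [inner_sub_right, inner_smul_right]
        rfl
      rw [h2, tau_one, mul_one, sub_self]
    have h2 := hmain _ h1
    simp only [map_sub, map_smul, sub_apply, smul_apply, inner_sub_right, inner_smul_right,
      Finset.sum_sub_distrib, ← Finset.mul_sum] at h2
    exact sub_eq_zero.1 h2
  intro y hy
  rcases isEmpty_or_nonempty m with hm | hm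
  · simp
  set M : ℝ := ‖y‖ + 1 with hM
  have hM0 : 0 < M := by positivity
  set B : ℝ := ∑ i, M * ‖η i‖ with hB
  have hB0 : 0 ≤ B := Finset.sum_nonneg fun i _ => by positivity
  have hkey : ∀ e : ℝ, 0 < e → ‖∑ i, ⟪η i, Ψ y (η i)⟫_ℂ‖ ≤ B * e := by
    intro e he
    choose δ hδ0 hδ using fun i => normal_bound_LG Ψ hinj hrange hP (η i)
      (show (0 : ℝ) < e ^ 2 by positivity)
    obtain ⟨i₀, hi₀⟩ := Finite.exists_min δ
    have hs : 0 < M * Real.sqrt (δ i₀) := mul_pos hM0 (Real.sqrt_pos.2 (hδ0 i₀))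
    obtain ⟨y', hy', hsmall⟩ := exists_average hicc y hy hs
    have hnorm : ‖y'‖ ≤ ‖y‖ := by
      have hsub : convexHull ℝ (Set.range fun h : Λ => cj h y) ⊆ Metric.closedBall 0 ‖y‖ := by
        refine convexHull_min ?_ (convex_closedBall _ _)
        rintro _ ⟨h, rfl⟩
        rw [mem_closedBall_zero_iff]
        exact norm_cj_le h y
      have := hsub hy'
      rwa [mem_closedBall_zero_iff] at this
    have hφ : ∑ i, ⟪η i, Ψ y' (η i)⟫_ℂ = ∑ i, ⟪η i, Ψ y (η i)⟫_ℂ := by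
      have hconv : Convex ℝ {w : LG Λ | ∑ i, ⟪η i, Ψ w (η i)⟫_ℂ = ∑ i, ⟪η i, Ψ y (η i)⟫_ℂ} := by
        intro w hw w' hw' a c _ _ hac
        simp only [Set.mem_ofPred_eq] at hw hw' ⊢
        change ∑ i, ⟪η i, Ψ ((a : ℂ) • w + (c : ℂ) • w') (η i)⟫_ℂ = _
        simp only [map_add, map_smul, add_apply, smul_apply, inner_add_right, inner_smul_right,
          Finset.sum_add_distrib, ← Finset.mul_sum]
        rw [hw, hw', ← add_mul, ← Complex.ofReal_add, hac, Complex.ofReal_one, one_mul]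
      have hsub : convexHull ℝ (Set.range fun h : Λ => cj h y) ⊆
          {w : LG Λ | ∑ i, ⟪η i, Ψ w (η i)⟫_ℂ = ∑ i, ⟪η i, Ψ y (η i)⟫_ℂ} := by
        refine convexHull_min ?_ hconv
        rintro _ ⟨h, rfl⟩
        exact htr h y
      exact hsub hy'
    set T : LG Λ := ((M⁻¹ : ℝ) : ℂ) • y' with hT
    have hTM : y' = (M : ℂ) • T := by
      rw [hT, smul_smul, ← Complex.ofReal_mul, mul_inv_cancel₀ hM0.ne', Complex.ofReal_one,
        one_smul]
    have hTnorm : ‖((T : LG Λ) : ell2 Λ →L[ℂ] ell2 Λ)‖ ≤ 1 := by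
      change ‖T‖ ≤ 1
      rw [hT, norm_smul, Complex.norm_real, Real.norm_of_nonneg (by positivity),
        inv_mul_le_iff₀ hM0, mul_one]
      linarith
    have hTvs : ‖(T : ell2 Λ →L[ℂ] ell2 Λ) (delta 1)‖ ^ 2 ≤ δ i₀ := by
      have h1 : (T : ell2 Λ →L[ℂ] ell2 Λ) (delta 1) =
          ((M⁻¹ : ℝ) : ℂ) • (y' : ell2 Λ →L[ℂ] ell2 Λ) (delta 1) := rfl
      rw [h1, norm_smul, Complex.norm_real, Real.norm_of_nonneg (by positivity)]
      have h2 : M⁻¹ * ‖(y' : ell2 Λ →L[ℂ] ell2 Λ) (delta 1)‖ ≤ Real.sqrt (δ i₀) := by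
        rw [inv_mul_le_iff₀ hM0]
        exact hsmall.le
      calc (M⁻¹ * ‖(y' : ell2 Λ →L[ℂ] ell2 Λ) (delta 1)‖) ^ 2 ≤ Real.sqrt (δ i₀) ^ 2 := by
            gcongr
        _ = δ i₀ := Real.sq_sqrt (hδ0 i₀).le
    have hΨT : ∀ i, ‖Ψ T (η i)‖ ≤ e := by
      intro i
      have h1 := hδ i T hTnorm (hTvs.trans (hi₀ i))
      exact (sq_le_sq₀ (norm_nonneg _) he.le).1 h1
    rw [← hφ, hTM]
    calc ‖∑ i, ⟪η i, Ψ ((M : ℂ) • T) (η i)⟫_ℂ‖ ≤ ∑ i, ‖⟪η i, Ψ ((M : ℂ) • T) (η i)⟫_ℂ‖ :=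
          norm_sum_le _ _
      _ ≤ ∑ i, M * ‖η i‖ * e := by
          refine Finset.sum_le_sum fun i _ => ?_
          rw [map_smul, smul_apply, inner_smul_right, norm_mul, Complex.norm_real,
            Real.norm_of_nonneg hM0.le, mul_assoc]
          gcongr
          calc ‖⟪η i, Ψ T (η i)⟫_ℂ‖ ≤ ‖η i‖ * ‖Ψ T (η i)‖ := norm_inner_le_norm _ _
            _ ≤ ‖η i‖ * e := by
                gcongr
                exact hΨT i
      _ = B * e := by rw [hB, Finset.sum_mul]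
  have hfin : ‖∑ i, ⟪η i, Ψ y (η i)⟫_ℂ‖ ≤ 0 := by
    refine le_of_forall_pos_le_add fun e he => ?_
    rw [zero_add]
    refine (hkey (e / (B + 1)) (by positivity)).trans ?_
    rw [mul_div_assoc']
    rw [div_le_iff₀ (by positivity)]
    nlinarith
  exact norm_le_zero_iff.1 hfin

end

end Vale.Agent.P092
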